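import Crest.Agent.H4.TS.Win

set_option autoImplicit false
open Finset BigOperators

namespace H4TS
variable {d : ℕ}

def sg (b : Bool) : ℝ := if b then -1 else 1

lemma sg_abs (b : Bool) : |sg b| = 1 := by cases b <;> simp [sg]

lemma sgn_abs {A : Type*} (S : Finset A) (σ : A → Sw d) :
    |𝔼 a : St d, ∏ p ∈ S, sg (a (σ p))| ≤ 1 := by
  refine (abs_expect_le _ _).trans (expect_le univ_nonempty (fun a _ => ?_))
  rw [abs_prod]; simp [sg_abs]

lemma sgn_zero {A : Type*} [DecidableEq A] (S : Finset A) (σ : A → Sw d) (p0 : A) (h0 : p0 ∈ S)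
    (h : ∀ p ∈ S, σ p = σ p0 → p = p0) : 𝔼 a : St d, ∏ p ∈ S, sg (a (σ p)) = 0 := by
  let e : St d → St d := fun a => Function.update a (σ p0) (!a (σ p0))
  have he : Function.Involutive e := by
    intro a; simp [e]
  have h1 := Fintype.expect_equiv he.toPerm (fun a => -∏ p ∈ S, sg (a (σ p)))
    (fun a => ∏ p ∈ S, sg (a (σ p))) (fun a => by
      simp only [Function.Involutive.coe_toPerm]
      rw [← mul_prod_erase S _ h0, ← mul_prod_erase S _ h0, ← neg_mul]
      congr 1
      · simp only [e, Function.update_self]
        cases a (σ p0) <;> simp [sg]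
      · refine prod_congr rfl (fun p hp => ?_)
        simp only [e]
        rw [Function.update_of_ne (fun h' => (mem_erase.1 hp).1 (h p (mem_erase.1 hp).2 h'))])
  rw [expect_neg_distrib] at h1
  linarith

lemma layer_prob {k : ℕ} (hk : k < d + 1) (T : Finset (Pos d)) (h : Equiv.Perm (Pos d)) :
    𝔼 a : St d, 𝔼 a' : St d,
      (if ∀ p ∈ T, lay a' k (h p) (idx d k) = lay a k p (idx d k) then (1 : ℝ) else 0)
      ≤ Z k T h / 2 ^ #T := by
  have h1 : ∀ a a' : St d,
      (if ∀ p ∈ T, lay a' k (h p) (idx d k) = lay a k p (idx d k) then (1 : ℝ) else 0)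
      = (∑ S ∈ T.powerset, (∏ p ∈ S, sg (xor (p (idx d k)) (h p (idx d k)))) *
        ((∏ p ∈ S, sg (a (sw k p))) * ∏ p ∈ S, sg (a' (sw k (h p))))) / 2 ^ #T := by
    intro a a'
    simp only [← prod_mul_distrib]
    rw [← prod_one_add, ← prod_const, ← prod_div_distrib]
    have hb := (prod_boole (M₀ := ℝ) (s := T)
      (p := fun p => lay a' k (h p) (idx d k) = lay a k p (idx d k))).symm
    refine Eq.trans (by convert hb) (prod_congr rfl (fun p _ => ?_))
    rw [lay_idx _ hk, lay_idx _ hk]
    cases p (idx d k) <;> cases h p (idx d k) <;> cases a (sw k p) <;> cases a' (sw k (h p)) <;>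
      norm_num [sg]
  simp only [h1, ← expect_div]
  gcongr
  simp only [expect_sum_comm, ← mul_expect, ← expect_mul]
  rw [Z, card_filter]
  push_cast
  refine sum_le_sum (fun S _ => ?_)
  split
  · refine (le_abs_self _).trans ?_
    rw [abs_mul, abs_mul, abs_prod]
    simp only [sg_abs, prod_const_one, one_mul]
    exact mul_le_one₀ (sgn_abs S _) (abs_nonneg _) (sgn_abs S (fun p => sw k (h p)))
  · rename_i hS
    rw [not_and_or] at hS
    push Not at hS
    rcases hS with ⟨p, hp, h2⟩ | ⟨p, hp, h2⟩
    · rw [sgn_zero S (sw k) p hp]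
      · simp
      · intro q hq e
        rcases (clr_eq_iff _ _).1 (congrArg Prod.snd e).symm with e | e
        · exact e
        · exact absurd (e ▸ hq) h2
    · rw [sgn_zero S (fun p => sw k (h p)) p hp]
      · simp
      · intro q hq e
        rcases (clr_eq_iff _ _).1 (congrArg Prod.snd e).symm with e | e
        · exact h.injective e
        · exact absurd e (h2 q hq)

lemma W_pos (c c' : St d) (k : ℕ) (T : Finset (Pos d)) : 0 < W c c' k T := by
  rw [W_prod]; exact prod_pos (fun l _ => one_le_Z _ _ _)

lemma W_congr {c1 c2 c1' c2' : St d} {k : ℕ} (hk : k ≤ d + 1)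
    (h : ∀ s : Sw d, (s.1 : ℕ) < k → c1 s = c2 s) (h' : ∀ s : Sw d, (s.1 : ℕ) < k → c1' s = c2' s)
    (T : Finset (Pos d)) : W c1 c1' k T = W c2 c2' k T := by
  rw [W_prod, W_prod]
  refine prod_congr rfl (fun l hl => ?_)
  have := mem_range.1 hl
  rw [gk, gk, seg_congr (c := c1) (c' := c2) (by omega) (fun s _ hs => h s (by omega)),
    seg_congr (c := c1) (c' := c2) (by omega) (fun s _ hs => h s (by omega)),
    seg_congr (c := c1') (c' := c2') (by omega) (fun s _ hs => h' s (by omega))]

lemma Z_mono {k : ℕ} (T : Finset (Pos d)) (g h : Equiv.Perm (Pos d)) (a a' : St d)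
    (e : ∀ p ∈ T, g (lay a k p) = lay a' k (h p)) : Z k T h ≤ Z k T g := by
  apply card_le_card
  intro S hS
  simp only [mem_filter, mem_powerset] at hS ⊢
  obtain ⟨h1, h2, h3⟩ := hS
  have h4 : ∀ p ∈ S, lay a k p ∈ S := by
    intro p hp
    rcases lay_or a k p with e | e <;> rw [e]
    · exact hp
    · exact h2 p hp
  refine ⟨h1, h2, fun p hp => ?_⟩
  obtain ⟨q, hq, e2⟩ := h3 _ (h4 p hp)
  refine ⟨_, h4 q hq, ?_⟩
  rw [e q (h1 hq), e2, lay_flp, ← e _ (h1 (h4 p hp)), lay_lay]

theorem A1 {k : ℕ} (hk : k ≤ d + 1) (T : Finset (Pos d)) (h : Equiv.Perm (Pos d)) :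
    𝔼 c : St d, 𝔼 c' : St d,
      (if ∀ p ∈ T, gk c c' k p = h p then 1 / (W c c' k T : ℝ) else 0) ≤ 1 / 2 ^ (k * #T) := by
  induction k generalizing T h with
  | zero =>
    refine expect_le univ_nonempty (fun c _ => expect_le univ_nonempty (fun c' _ => ?_))
    split <;> simp [W]
  | succ k ih =>
    have hk' : k < d + 1 := by omega
    set F : Finset (Sw d) := univ.filter (fun s => (s.1 : ℕ) = k) with hF
    have hlay : ∀ a c0 : St d, lay (F.piecewise a c0) k = lay a k := by
      intro a c0
      ext p : 1
      apply lay_congr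
      apply piecewise_eq_of_mem
      simp only [hF, mem_filter, mem_univ, true_and]
      exact idx_val hk'
    have hlow : ∀ (a c0 : St d) (s : Sw d), (s.1 : ℕ) < k → F.piecewise a c0 s = c0 s := by
      intro a c0 s hs
      apply piecewise_eq_of_notMem
      simp only [hF, mem_filter, mem_univ, true_and]
      omega
    have hseg : ∀ a c0 : St d, seg (F.piecewise a c0) 0 k = seg c0 0 k := fun a c0 =>
      seg_congr (by omega) (fun s _ hs => hlow a c0 s (by omega))
    have hZ : (0 : ℝ) < Z k T h := by exact_mod_cast one_le_Z k T h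
    rw [exp_piecewise F, expect_comm]
    calc _ ≤ 𝔼 a : St d, 𝔼 a' : St d,
          (if ∀ p ∈ T, lay a' k (h p) (idx d k) = lay a k p (idx d k) then (1 : ℝ) else 0)
          * (1 / (Z k T h) * (1 / 2 ^ (k * #T))) := by
          refine expect_le_expect (fun a _ => ?_)
          simp only [exp_piecewise F (fun c' => if ∀ p ∈ T, gk _ c' (k + 1) p = h p then
            1 / (W _ c' (k + 1) T : ℝ) else 0)]
          simp only [expect_comm univ (univ : Finset (St d)) (fun c0' a' => if ∀ p ∈ T,
            gk _ (F.piecewise a' c0') (k + 1) p = h p then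
            1 / (W _ (F.piecewise a' c0') (k + 1) T : ℝ) else 0)]
          rw [expect_comm]
          refine expect_le_expect (fun a' _ => ?_)
          have ih' := ih (by omega) (T.map (lay a k).toEmbedding) (lay a' k * h * lay a k)
          rw [card_map] at ih'
          refine le_trans ?_ (mul_le_mul_of_nonneg_left (mul_le_mul_of_nonneg_left ih'
            (by positivity)) (by split <;> norm_num))
          simp only [mul_expect]
          refine expect_le_expect (fun c0 _ => expect_le_expect (fun c0' _ => ?_))
          split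
          · rename_i hev
            have hev2 : ∀ p ∈ T, gk c0 c0' k (lay a k p) = lay a' k (h p) := by
              intro p hp
              rw [← hev p hp]
              simp [gk, seg_succ, hlay, hseg]
            have hW : (0 : ℝ) < W c0 c0' k (T.map (lay a k).toEmbedding) := by
              exact_mod_cast W_pos _ _ _ _
            rw [if_pos, if_pos, W, hlay, W_congr (by omega) (hlow a c0) (hlow a' c0'), gk, hseg,
              hseg, ← gk]
            · push_cast
              rw [one_mul, one_div_mul_one_div]
              have : (Z k T h : ℝ) ≤ Z k T (gk c0 c0' k) := by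
                exact_mod_cast Z_mono T _ h a a' hev2
              gcongr
            · intro q hq
              obtain ⟨p, hp, rfl⟩ := mem_map.1 hq
              simp [hev2 p hp]
            · intro p hp
              rw [← hev2 p hp, gk_bit _ _ _ (by rw [idx_val hk'])]
          · refine mul_nonneg (by split <;> norm_num) (mul_nonneg (by positivity) ?_)
            split <;> positivity
      _ ≤ Z k T h / 2 ^ #T * (1 / (Z k T h) * (1 / 2 ^ (k * #T))) := by
          simp only [← expect_mul]
          exact mul_le_mul_of_nonneg_right (layer_prob hk' T h) (by positivity)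
      _ = _ := by
          rw [add_mul, one_mul, pow_add]; field_simp

end H4TS
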