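import Mathlib

set_option autoImplicit false
open Finset BigOperators

namespace H4TS

section Avg
variable {ι β : Type*} [Fintype ι] [DecidableEq ι] [Fintype β] [Nonempty β]

lemma exp_piecewise (S : Finset ι) (F : (ι → β) → ℝ) :
    𝔼 c, F c = 𝔼 c0 : ι → β, 𝔼 ω : ι → β, F (S.piecewise ω c0) := by
  have h1 : 𝔼 c0 : ι → β, 𝔼 ω : ι → β, F (S.piecewise ω c0)
      = 𝔼 x : (ι → β) × (ι → β), F (S.piecewise x.2 x.1) := by
    rw [← Finset.univ_product_univ, Finset.expect_product]
  have h2 : 𝔼 x : (ι → β) × (ι → β), F x.1 = 𝔼 c, F c := by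
    rw [← Finset.univ_product_univ, Finset.expect_product]
    simp [Fintype.expect_const]
  rw [h1, ← h2]
  let e : (ι → β) × (ι → β) → (ι → β) × (ι → β) :=
    fun x => (S.piecewise x.2 x.1, S.piecewise x.1 x.2)
  have he : Function.Involutive e := by
    intro x
    ext i <;> by_cases hi : i ∈ S <;> simp [e, Finset.piecewise, hi]
  exact (Fintype.expect_equiv he.toPerm _ _ (fun x => rfl)).symm

lemma exp_comp_inj {κ : Type*} [Fintype κ] [DecidableEq κ] (f : κ → ι) (hf : Function.Injective f)
    (F : (κ → β) → ℝ) : 𝔼 c : ι → β, F (c ∘ f) = 𝔼 a, F a := by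
  have h1 : 𝔼 c : ι → β, F (c ∘ f) = 𝔼 x : (ι → β) × (κ → β), F (x.1 ∘ f) := by
    rw [← Finset.univ_product_univ, Finset.expect_product]
    simp [Fintype.expect_const]
  have h2 : 𝔼 x : (ι → β) × (κ → β), F x.2 = 𝔼 a, F a := by
    rw [← Finset.univ_product_univ, Finset.expect_product]
    simp [Fintype.expect_const]
  rw [h1, ← h2]
  let e : (ι → β) × (κ → β) → (ι → β) × (κ → β) :=
    fun x => (Function.extend f x.2 x.1, x.1 ∘ f)
  have he : Function.Involutive e := by
    intro x
    ext i
    · by_cases hi : ∃ a, f a = i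
      · obtain ⟨a, rfl⟩ := hi
        simp [e, hf.extend_apply]
      · simp [e, Function.extend_apply' _ _ _ hi]
    · simp [e, hf.extend_apply]
  exact (Fintype.expect_equiv he.toPerm _ _ (fun x => rfl))

lemma exp_prod (f : ι → β → ℝ) : 𝔼 c : ι → β, ∏ i, f i (c i) = ∏ i, 𝔼 b, f i b := by
  simp only [Fintype.expect_eq_sum_div_card]
  rw [Finset.prod_div_distrib, Finset.prod_univ_sum, Fintype.piFinset_univ, Finset.prod_const,
    Fintype.card_fun, Finset.card_univ]
  push_cast
  rfl

end Avg

lemma exp_pair {A B : Type*} [Fintype A] [Fintype B] (F : A × B → ℝ) :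
    𝔼 x, F x = 𝔼 a, 𝔼 b, F (a, b) := by
  rw [← Finset.univ_product_univ, Finset.expect_product]

abbrev Pos (d : ℕ) := Fin (d + 1) → Bool
abbrev Sw (d : ℕ) := Fin (d + 1) × Pos d
abbrev St (d : ℕ) := Sw d → Bool

variable {d : ℕ}

def idx (d k : ℕ) : Fin (d + 1) := Fin.ofNat (d + 1) k

lemma idx_val {k : ℕ} (hk : k < d + 1) : (idx d k : ℕ) = k := by
  simp [idx, Nat.mod_eq_of_lt hk]

def flp (k : ℕ) (p : Pos d) : Pos d := fun l => if (l : ℕ) = k then !p l else p l
def clr (k : ℕ) (p : Pos d) : Pos d := fun l => if (l : ℕ) = k then false else p l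
def key (k : ℕ) (p : Pos d) : Pos d := fun l => if k ≤ (l : ℕ) then p l else false
def sw (k : ℕ) (p : Pos d) : Sw d := (idx d k, clr k p)

@[simp] lemma flp_flp (k : ℕ) (p : Pos d) : flp k (flp k p) = p := by
  ext l; by_cases h : (l : ℕ) = k <;> simp [flp, h]

lemma flp_inj (k : ℕ) : Function.Injective (flp k : Pos d → Pos d) :=
  Function.Involutive.injective (flp_flp k)

@[simp] lemma clr_flp (k : ℕ) (p : Pos d) : clr k (flp k p) = clr k p := by
  ext l; by_cases h : (l : ℕ) = k <;> simp [flp, clr, h]

@[simp] lemma sw_flp (k : ℕ) (p : Pos d) : sw k (flp k p) = sw k p := by simp [sw]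

lemma flp_apply_ne {k : ℕ} (p : Pos d) {l : Fin (d + 1)} (h : (l : ℕ) ≠ k) : flp k p l = p l := by
  simp [flp, h]

lemma flp_idx {k : ℕ} (hk : k < d + 1) (p : Pos d) : flp k p (idx d k) = !p (idx d k) := by
  simp [flp, idx_val hk]

lemma flp_ne {k : ℕ} (hk : k < d + 1) (p : Pos d) : flp k p ≠ p := by
  intro h
  have := congrFun h (idx d k)
  rw [flp_idx hk] at this
  simp at this

lemma clr_eq_iff {k : ℕ} (p q : Pos d) : clr k p = clr k q ↔ q = p ∨ q = flp k p := by
  constructor
  · intro h
    by_cases hk : k < d + 1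
    · by_cases h2 : q (idx d k) = p (idx d k)
      · left
        ext l
        by_cases hl : (l : ℕ) = k
        · have : l = idx d k := Fin.ext (by rw [idx_val hk, hl])
          rw [this, h2]
        · have := congrFun h l
          simpa [clr, hl] using this.symm
      · right
        ext l
        by_cases hl : (l : ℕ) = k
        · have : l = idx d k := Fin.ext (by rw [idx_val hk, hl])
          rw [this, flp_idx hk]
          revert h2
          cases q (idx d k) <;> cases p (idx d k) <;> simp
        · have := congrFun h l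
          simpa [clr, flp, hl] using this.symm
    · left
      ext l
      have hl : (l : ℕ) ≠ k := by have := l.isLt; omega
      have := congrFun h l
      simpa [clr, hl] using this.symm
  · rintro (rfl | rfl) <;> simp

def flpP (k : ℕ) : Equiv.Perm (Pos d) := Function.Involutive.toPerm (flp k) (flp_flp k)

@[simp] lemma flpP_apply (k : ℕ) (p : Pos d) : flpP k p = flp k p := rfl

def layf (c : St d) (k : ℕ) (p : Pos d) : Pos d := if c (sw k p) then flp k p else p

lemma sw_layf (c : St d) (k : ℕ) (p : Pos d) : sw k (layf c k p) = sw k p := by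
  unfold layf; split <;> simp

lemma layf_layf (c : St d) (k : ℕ) (p : Pos d) : layf c k (layf c k p) = p := by
  have h := sw_layf c k p
  by_cases h2 : c (sw k p) = true
  · rw [layf, h]; simp [h2, layf]
  · rw [layf, h]; simp [h2, layf]

def lay (c : St d) (k : ℕ) : Equiv.Perm (Pos d) :=
  Function.Involutive.toPerm (layf c k) (layf_layf c k)

lemma lay_apply (c : St d) (k : ℕ) (p : Pos d) :
    lay c k p = if c (sw k p) then flp k p else p := rfl

@[simp] lemma lay_lay (c : St d) (k : ℕ) (p : Pos d) : lay c k (lay c k p) = p := layf_layf c k p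

lemma lay_mul_self (c : St d) (k : ℕ) : lay c k * lay c k = 1 := by
  ext p : 1; simp

@[simp] lemma lay_inv (c : St d) (k : ℕ) : (lay c k)⁻¹ = lay c k :=
  inv_eq_of_mul_eq_one_left (lay_mul_self c k)

@[simp] lemma sw_lay (c : St d) (k : ℕ) (p : Pos d) : sw k (lay c k p) = sw k p := sw_layf c k p

@[simp] lemma clr_lay (c : St d) (k : ℕ) (p : Pos d) : clr k (lay c k p) = clr k p := by
  rw [lay_apply]; split <;> simp

lemma lay_flp (c : St d) (k : ℕ) (p : Pos d) : lay c k (flp k p) = flp k (lay c k p) := by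
  rw [lay_apply, lay_apply, sw_flp]; split <;> simp

lemma lay_or (c : St d) (k : ℕ) (p : Pos d) : lay c k p = p ∨ lay c k p = flp k p := by
  rw [lay_apply]; split <;> simp

lemma lay_apply_ne (c : St d) {k : ℕ} (p : Pos d) {l : Fin (d + 1)} (h : (l : ℕ) ≠ k) :
    lay c k p l = p l := by
  rcases lay_or c k p with h2 | h2 <;> rw [h2]
  exact flp_apply_ne p h

lemma lay_idx (c : St d) {k : ℕ} (hk : k < d + 1) (p : Pos d) :
    lay c k p (idx d k) = xor (p (idx d k)) (c (sw k p)) := by
  rw [lay_apply]
  cases h : c (sw k p) <;> simp [flp_idx hk]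

lemma lay_congr {c c' : St d} {k : ℕ} {p : Pos d} (h : c (sw k p) = c' (sw k p)) :
    lay c k p = lay c' k p := by rw [lay_apply, lay_apply, h]

def seg (c : St d) (k : ℕ) : ℕ → Equiv.Perm (Pos d)
  | 0 => 1
  | i + 1 => seg c k i * lay c (k + i)

@[simp] lemma seg_zero (c : St d) (k : ℕ) : seg c k 0 = 1 := rfl
lemma seg_succ (c : St d) (k i : ℕ) : seg c k (i + 1) = seg c k i * lay c (k + i) := rfl

lemma seg_add (c : St d) (k i j : ℕ) : seg c k (i + j) = seg c k i * seg c (k + i) j := by
  induction j with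
  | zero => simp
  | succ j ih => rw [← add_assoc, seg_succ, ih, seg_succ, mul_assoc, add_assoc]

lemma seg_apply_out (c : St d) (k i : ℕ) (p : Pos d) {l : Fin (d + 1)}
    (h : (l : ℕ) < k ∨ k + i ≤ l) : seg c k i p l = p l := by
  induction i generalizing p with
  | zero => simp
  | succ i ih =>
    rw [seg_succ, Equiv.Perm.mul_apply, ih _ (by omega), lay_apply_ne _ _ (by omega)]

lemma seg_congr {c c' : St d} {k i : ℕ} (hi : k + i ≤ d + 1)
    (h : ∀ s : Sw d, k ≤ (s.1 : ℕ) → (s.1 : ℕ) < k + i → c s = c' s) : seg c k i = seg c' k i := by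
  induction i with
  | zero => simp
  | succ i ih =>
    rw [seg_succ, seg_succ, ih (by omega) (fun s h1 h2 => h s h1 (by omega))]
    congr 1
    ext p : 1
    apply lay_congr
    have : ((sw (k + i) p).1 : ℕ) = k + i := idx_val (by omega)
    exact h _ (by omega) (by omega)

lemma key_flp {k l : ℕ} (h : l < k) (p : Pos d) : key k (flp l p) = key k p := by
  ext m
  by_cases hm : k ≤ (m : ℕ)
  · simp only [key, hm, if_true]
    exact flp_apply_ne p (by omega)
  · simp [key, hm]

lemma key_seg (c : St d) {k l i : ℕ} (h : l + i ≤ k) (p : Pos d) :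
    key k (seg c l i p) = key k p := by
  ext m
  by_cases hm : k ≤ (m : ℕ)
  · simp only [key, hm, if_true]
    exact seg_apply_out c l i p (Or.inr (by omega))
  · simp [key, hm]

lemma card_key_fiber (k : ℕ) (b : Pos d) : #{p : Pos d | key k p = b} ≤ 2 ^ k := by
  have : #{p : Pos d | key k p = b} ≤ #(univ : Finset (Fin k → Bool)) := by
    apply Finset.card_le_card_of_injOn (fun p => fun l : Fin k => p (idx d l))
    · intro p _; simp
    · intro p hp q hq hpq
      simp only [coe_filter, mem_univ, true_and, Set.mem_setOf_eq] at hp hq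
      ext l
      by_cases hl : k ≤ (l : ℕ)
      · have h1 := congrFun hp l
        have h2 := congrFun hq l
        simp only [key, hl, if_true] at h1 h2
        rw [h1, h2]
      · have := congrFun hpq ⟨l, by omega⟩
        have h3 : idx d (l : ℕ) = l := Fin.ext (idx_val l.isLt)
        simpa [h3] using this
  simpa using this

lemma card_Pos : Fintype.card (Pos d) = 2 ^ (d + 1) := by simp

end H4TS
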