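import Mathlib

set_option autoImplicit false
open Finset BigOperators Module Equiv
open scoped RealInnerProductSpace

namespace H4TS
variable {E : Type*} [NormedAddCommGroup E] [InnerProductSpace ℝ E]
variable {α : Type*} [Fintype α] [DecidableEq α] (ρ : Perm α →* (E →L[ℝ] E))

lemma rho_mul (g h : Perm α) (v : E) : ρ g (ρ h v) = ρ (g * h) v := by
  rw [map_mul]; rfl

lemma rho_swap_self (x : α) (v : E) : ρ (swap x x) v = v := by
  rw [swap_self]; exact congrArg (fun f : E →L[ℝ] E => f v) (map_one ρ)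

def Fix (B : Finset α) : Submodule ℝ E where
  carrier := {v | ∀ x ∈ B, ∀ y ∈ B, ρ (swap x y) v = v}
  add_mem' := fun ha hb x hx y hy => by rw [map_add, ha x hx y hy, hb x hx y hy]
  zero_mem' := fun _ _ _ _ => map_zero _
  smul_mem' := fun c v hv x hx y hy => by rw [map_smul, hv x hx y hy]

lemma Fix_anti {A B : Finset α} (h : A ⊆ B) : Fix ρ B ≤ Fix ρ A :=
  fun _ hv x hx y hy => hv x (h hx) y (h hy)

lemma fix_of_support {A : Finset α} {v : E} (hv : v ∈ Fix ρ A) (κ : Perm α)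
    (hκ : κ.support ⊆ A) : ρ κ v = v := by
  induction hn : #κ.support using Nat.strong_induction_on generalizing κ with
  | _ n ih =>
    by_cases h : κ = 1
    · simp [h]
    obtain ⟨x, hx⟩ : ∃ x, κ x ≠ x := by
      by_contra hc
      push Not at hc
      exact h (Equiv.ext hc)
    have h1 := Perm.card_support_swap_mul hx
    have hxs : x ∈ κ.support := Perm.mem_support.2 hx
    have hxs' : κ x ∈ κ.support := Perm.apply_mem_support.2 hxs
    have h2 : (swap x (κ x) * κ).support ⊆ A := fun y hy =>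
      hκ (Perm.mem_support.2 (Perm.mem_support_swap_mul_imp_mem_support_ne hy |>.1 |>
        Perm.mem_support.1))
    have h3 := ih _ (hn ▸ h1) _ h2 rfl
    have : κ = swap x (κ x) * (swap x (κ x) * κ) := by simp
    rw [this, ← rho_mul, h3]
    exact hv x (hκ hxs) _ (hκ hxs')

lemma swap_conj (g : Perm α) (x y : α) (v : E) :
    ρ g (ρ (swap x y) v) = ρ (swap (g x) (g y)) (ρ g v) := by
  rw [rho_mul, rho_mul, mul_swap_eq_swap_mul]

lemma y_fix {B : Finset α} {v : E} (hv : v ∈ Fix ρ B) {i : α} (hi : i ∉ B) :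
    v + ∑ z ∈ B, ρ (swap i z) v ∈ Fix ρ (insert i B) := by
  have h1 : ∀ z0 ∈ B, ρ (swap i z0) (v + ∑ z ∈ B, ρ (swap i z) v)
      = v + ∑ z ∈ B, ρ (swap i z) v := by
    intro z0 hz0
    rw [map_add, map_sum, ← add_sum_erase B _ hz0, ← add_sum_erase B _ hz0, rho_mul,
      swap_mul_self, map_one, ContinuousLinearMap.one_apply, add_left_comm]
    congr 2
    refine sum_congr rfl (fun z hz => ?_)
    obtain ⟨a, b⟩ := mem_erase.1 hz
    have hz' : z ≠ i := fun h => hi (h ▸ b)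
    have hz0' : z0 ≠ i := fun h => hi (h ▸ hz0)
    have e : swap i z0 * swap i z = swap i z * swap z z0 := by
      rw [mul_swap_eq_swap_mul (swap i z) z z0, swap_apply_right,
        swap_apply_of_ne_of_ne hz0' a.symm]
    rw [rho_mul, e, ← rho_mul, hv z b z0 hz0]
  intro x hx y hy
  rcases mem_insert.1 hx with hx | hx <;> rcases mem_insert.1 hy with hy | hy
  · rw [hx, hy, rho_swap_self]
  · rw [hx]; exact h1 y hy
  · rw [hy, swap_comm]; exact h1 x hx
  · rw [map_add, map_sum, hv x hx y hy]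
    congr 1
    have hix : i ≠ x := fun h => hi (h ▸ hx)
    have hiy : i ≠ y := fun h => hi (h ▸ hy)
    refine sum_bij' (fun z _ => swap x y z) (fun z _ => swap x y z) ?_ ?_ ?_ ?_ ?_
    · intro z hz; rw [swap_apply_def]; split_ifs <;> assumption
    · intro z hz; rw [swap_apply_def]; split_ifs <;> assumption
    · intro z _; simp
    · intro z _; simp
    · intro z _
      rw [swap_conj, hv x hx y hy, swap_apply_of_ne_of_ne hix hiy]

noncomputable def T2 (X : Finset α) (v : E) : E := ∑ x ∈ X, ∑ y ∈ X, ρ (swap x y) v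

lemma cas_step (X : Finset α) (hX : X.Nonempty) (U : Submodule ℝ E) (hU : U ≠ ⊥)
    (hinv : ∀ x ∈ X, ∀ y ∈ X, ∀ v ∈ U, ρ (swap x y) v ∈ U) (t : ℝ) (ht : ∀ v ∈ U, T2 ρ X v = t • v)
    (a : ℕ) (ha : ∀ A ⊆ X, #A = a → U ⊓ Fix ρ A = ⊥) :
    ∃ B ⊆ X, B.Nonempty ∧ #B < a ∧ ∃ U' : Submodule ℝ E, U' ≠ ⊥ ∧
      (∀ x ∈ X \ B, ∀ y ∈ X \ B, ∀ v ∈ U', ρ (swap x y) v ∈ U') ∧
      (∀ v ∈ U', T2 ρ (X \ B) v = (t - #B ^ 2 + 2 * #(X \ B)) • v) ∧
      ∀ A ⊆ X \ B, #A = #B + 1 → U' ⊓ Fix ρ A = ⊥ := by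
  classical
  obtain ⟨x0, hx0⟩ := hX
  have hs : {x0} ∈ X.powerset.filter (fun B => U ⊓ Fix ρ B ≠ ⊥) := by
    refine mem_filter.2 ⟨by simpa, ?_⟩
    rwa [inf_eq_left.2]
    intro v _ x hx y hy
    rw [mem_singleton.1 hx, mem_singleton.1 hy, rho_swap_self]
  obtain ⟨B, hB, hmax⟩ := exists_max_image _ card ⟨_, hs⟩
  obtain ⟨hB1, hB2⟩ := mem_filter.1 hB
  rw [mem_powerset] at hB1
  have hbig : ∀ A ⊆ X, #B < #A → U ⊓ Fix ρ A = ⊥ := by
    intro A hA h
    by_contra hc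
    exact absurd (hmax A (mem_filter.2 ⟨mem_powerset.2 hA, hc⟩)) (by omega)
  refine ⟨B, hB1, card_pos.1 (by simpa using hmax _ hs), ?_, U ⊓ Fix ρ B, hB2, ?_, ?_, ?_⟩
  · by_contra hc
    obtain ⟨A, hA1, hA2⟩ := exists_subset_card_eq (not_lt.1 hc)
    exact hB2 (le_bot_iff.1 ((inf_le_inf_left U (Fix_anti ρ hA1)).trans
      (ha A (hA1.trans hB1) hA2).le))
  · intro x hx y hy v hv
    obtain ⟨x1, x2⟩ := mem_sdiff.1 hx
    obtain ⟨y1, y2⟩ := mem_sdiff.1 hy
    refine ⟨hinv x x1 y y1 v hv.1, fun z hz w hw => ?_⟩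
    rw [swap_conj, hv.2 z hz w hw, swap_apply_of_ne_of_ne, swap_apply_of_ne_of_ne]
    all_goals (rintro rfl; contradiction)
  · intro v hv
    have h1 : ∀ i ∈ X \ B, ∑ z ∈ B, ρ (swap i z) v = -v := by
      intro i hi
      obtain ⟨i1, i2⟩ := mem_sdiff.1 hi
      have : v + ∑ z ∈ B, ρ (swap i z) v ∈ U ⊓ Fix ρ (insert i B) :=
        ⟨U.add_mem hv.1 (U.sum_mem (fun z hz => hinv i i1 z (hB1 hz) v hv.1)), y_fix ρ hv.2 i2⟩
      rw [hbig _ (insert_subset i1 hB1) (by rw [card_insert_of_notMem i2]; omega)] at this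
      exact eq_neg_of_add_eq_zero_right ((Submodule.mem_bot ℝ).1 this)
    have h2 := ht v hv.1
    rw [T2, ← sum_sdiff hB1] at h2
    simp only [← sum_sdiff hB1 (f := fun y => ρ (swap _ y) v), sum_add_distrib] at h2
    have h3 : ∑ x ∈ B, ∑ y ∈ X \ B, ρ (swap x y) v = ∑ _x ∈ X \ B, -v := by
      rw [sum_comm]
      exact sum_congr rfl (fun i hi => by simp only [swap_comm _ i]; exact h1 i hi)
    have h4 : ∑ x ∈ B, ∑ y ∈ B, ρ (swap x y) v = ∑ _x ∈ B, ∑ _y ∈ B, v :=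
      sum_congr rfl (fun x hx => sum_congr rfl (fun y hy => hv.2 x hx y hy))
    rw [h3, h4, sum_congr rfl h1] at h2
    simp only [sum_const, ← Nat.cast_smul_eq_nsmul ℝ] at h2
    rw [T2, add_smul, sub_smul, ← h2]
    module
  · intro A hA h
    exact le_bot_iff.1 ((inf_le_inf_right _ inf_le_left).trans
      (hbig A (hA.trans sdiff_subset) (by omega)).le)

lemma cas1 (X : Finset α) (U : Submodule ℝ E) (hU : U ≠ ⊥)
    (hinv : ∀ x ∈ X, ∀ y ∈ X, ∀ v ∈ U, ρ (swap x y) v ∈ U) (t : ℝ) (ht : ∀ v ∈ U, T2 ρ X v = t • v)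
    (a : ℕ) (ha : ∀ A ⊆ X, #A = a → U ⊓ Fix ρ A = ⊥) : t ≤ #X * ((a : ℝ) - 1) := by
  induction X using Finset.strongInductionOn generalizing U t a with
  | _ X ih =>
    rcases X.eq_empty_or_nonempty with rfl | hX
    · obtain ⟨v, hv, h0⟩ := (Submodule.ne_bot_iff _).1 hU
      have := ht v hv
      simp only [T2, sum_empty] at this
      simp [(smul_eq_zero.1 this.symm).resolve_right h0]
    obtain ⟨B, hB, hne, hlt, U', h1, h2, h3, h4⟩ := cas_step ρ X hX U hU hinv t ht a ha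
    have := ih (X \ B) (sdiff_ssubset hB hne) U' h1 h2 _ h3 _ h4
    have e : (#X : ℝ) = #(X \ B) + #B := by exact_mod_cast (card_sdiff_add_card_eq_card hB).symm
    have e2 : (#B : ℝ) + 1 ≤ a := by exact_mod_cast hlt
    have p1 : (0 : ℝ) ≤ #B := by positivity
    have p2 : (0 : ℝ) ≤ #(X \ B) := by positivity
    rw [e]
    push_cast at this
    nlinarith

lemma T2_le (hρ : ∀ g v, ‖ρ g v‖ = ‖v‖) (X : Finset α) {v : E} (h0 : v ≠ 0) {t : ℝ}
    (ht : T2 ρ X v = t • v) : t ≤ #X ^ 2 := by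
  have h1 : ‖T2 ρ X v‖ ≤ #X ^ 2 * ‖v‖ := by
    refine (norm_sum_le _ _).trans ((sum_le_sum (fun x _ => norm_sum_le _ _)).trans (le_of_eq ?_))
    simp [hρ]; ring
  rw [ht, norm_smul] at h1
  exact (le_abs_self t).trans (le_of_mul_le_mul_right h1 (norm_pos_iff.2 h0))

theorem casimir [Nonempty α] (hρ : ∀ g v, ‖ρ g v‖ = ‖v‖) (U : Submodule ℝ E) (hU : U ≠ ⊥)
    (hinv : ∀ x y, ∀ v ∈ U, ρ (swap x y) v ∈ U) (t : ℝ) (ht : ∀ v ∈ U, T2 ρ univ v = t • v)
    (j : ℕ) (hj : j ≤ Fintype.card α)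
    (ha : ∀ A, #A = Fintype.card α - j + 1 → U ⊓ Fix ρ A = ⊥) :
    (j : ℝ) * Fintype.card α ≤ (Fintype.card α : ℝ) ^ 2 - t ∧
      2 * j * ((Fintype.card α : ℝ) - 2 * j) ≤ (Fintype.card α : ℝ) ^ 2 - t := by
  obtain ⟨B, hB, hne, hlt, U', h1, h2, h3, h4⟩ := cas_step ρ univ univ_nonempty U hU
    (fun x _ y _ => hinv x y) t ht _ (fun A _ => ha A)
  have c1 := cas1 ρ _ U' h1 h2 _ h3 _ h4
  obtain ⟨v, hv, h0⟩ := (Submodule.ne_bot_iff _).1 h1
  have c2 := T2_le ρ hρ _ h0 (h3 v hv)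
  have e : (Fintype.card α : ℝ) = #(univ \ B) + #B := by
    exact_mod_cast (card_sdiff_add_card_eq_card hB).symm
  have e2 : (j : ℝ) ≤ #(univ \ B) := by
    have := card_sdiff_add_card_eq_card hB
    rw [card_univ] at this
    have : j ≤ #(univ \ B) := by omega
    exact_mod_cast this
  have p1 : (0 : ℝ) ≤ #B := by positivity
  have p2 : (0 : ℝ) ≤ j := by positivity
  rw [e]
  push_cast at c1
  generalize (#(univ \ B) : ℝ) = J at *
  generalize (#B : ℝ) = b at *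
  constructor
  · nlinarith
  · rcases le_total J (2 * j) with h | h
    · nlinarith
    · nlinarith

end H4TS
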