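import Crest.Agent.H4.TS.Exp
import Crest.Agent.H4.TS.Cas
import Crest.Agent.H4.TS.A1

set_option autoImplicit false
open Finset BigOperators Module Equiv NormedSpace
open scoped RealInnerProductSpace Nat

namespace H4TS
variable {E : Type*} [NormedAddCommGroup E] [InnerProductSpace ℝ E] [CompleteSpace E]
variable {α : Type*} [Fintype α] [DecidableEq α]

def Iso (ρ : Perm α →* (E →L[ℝ] E)) : Prop := ∀ g u v, ⟪ρ g u, ρ g v⟫ = ⟪u, v⟫

lemma Iso.norm {ρ : Perm α →* (E →L[ℝ] E)} (h : Iso ρ) (g : Perm α) (v : E) : ‖ρ g v‖ = ‖v‖ := by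
  have := h g v v
  rw [real_inner_self_eq_norm_sq, real_inner_self_eq_norm_sq] at this
  exact (pow_left_inj₀ (norm_nonneg _) (norm_nonneg _) two_ne_zero).1 this

lemma Iso.adj {ρ : Perm α →* (E →L[ℝ] E)} (h : Iso ρ) (g : Perm α) (u v : E) :
    ⟪u, ρ g v⟫ = ⟪ρ g⁻¹ u, v⟫ := by
  rw [← h g⁻¹, rho_mul]; simp

lemma Iso.sym {ρ : Perm α →* (E →L[ℝ] E)} (h : Iso ρ) (x y : α) : Sym (ρ (swap x y)) := by
  intro u v
  rw [h.adj, swap_inv]

lemma sg_xor (a b : Bool) : sg (xor a b) = sg a * sg b := by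
  cases a <;> cases b <;> simp [sg]

variable (ρ : Perm α →* (E →L[ℝ] E)) {ι : Type*} [Fintype ι] [DecidableEq ι] (e : ι × Bool → α)

noncomputable def ss (x y : ι × Bool) : E →L[ℝ] E := ρ (swap (e x) (e y))
noncomputable def sig (c : ι) : E →L[ℝ] E := ss ρ e (c, false) (c, true)
noncomputable def DD (c c' : ι) : E →L[ℝ] E :=
  ss ρ e (c, false) (c', false) + ss ρ e (c, true) (c', true) - ss ρ e (c, false) (c', true)
    - ss ρ e (c, true) (c', false)

def Pat (K : ι → Bool) (v : E) : Prop := ∀ c, sig ρ e c v = sg (K c) • v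

def tog (c c' : ι) (K : ι → Bool) : ι → Bool :=
  fun x => xor (K x) (xor (decide (c = x)) (decide (c' = x)))

def grade (K : ι → Bool) : ℕ := #{x | K x = true}

lemma tog_tog (c c' : ι) : Function.Involutive (tog c c') := by
  intro K; ext x; simp [tog]

lemma grade_tog (c c' : ι) (K : ι → Bool) : grade (tog c c' K) ≤ grade K + 2 := by
  unfold grade
  refine le_trans (card_le_card (t := univ.filter (fun x => K x = true) ∪ {c, c'}) ?_)
    ((card_union_le _ _).trans (Nat.add_le_add_left card_le_two _))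
  intro x hx
  simp only [tog, mem_filter, mem_univ, true_and, mem_union, mem_insert, mem_singleton] at hx ⊢
  by_contra hc
  push Not at hc
  simp [hc.1, hc.2.1.symm, hc.2.2.symm] at hx

variable {ρ e}

lemma ss_comm (x y : ι × Bool) : ss ρ e x y = ss ρ e y x := by rw [ss, ss, swap_comm]

lemma ss_conj (he : Function.Injective e) (x y z w : ι × Bool) (v : E) :
    ss ρ e x y (ss ρ e z w v) = ss ρ e (swap x y z) (swap x y w) (ss ρ e x y v) := by
  simp only [ss]
  rw [swap_conj, he.swap_apply, he.swap_apply]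

lemma ss_self (x : ι × Bool) (v : E) : ss ρ e x x v = v := rho_swap_self ρ _ v

lemma ss_ss (x y : ι × Bool) (v : E) : ss ρ e x y (ss ρ e x y v) = v := by
  simp [ss, rho_mul]

lemma swap_col (c c' : ι) (β : Bool) :
    swap (c, false) (c, true) (c', β) = (c', xor β (decide (c' = c))) := by
  by_cases h : c' = c
  · subst h; cases β <;> simp
  · rw [swap_apply_of_ne_of_ne] <;> simp [h]

lemma sig_ss (he : Function.Injective e) (x c c' : ι) (β β' : Bool) (v : E) :
    sig ρ e x (ss ρ e (c, β) (c', β') v)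
      = ss ρ e (c, xor β (decide (c = x))) (c', xor β' (decide (c' = x))) (sig ρ e x v) := by
  rw [sig, ss_conj he, swap_col, swap_col]

lemma DD_pat (he : Function.Injective e) {K : ι → Bool} {v : E} (hv : Pat ρ e K v) (c c' : ι) :
    Pat ρ e (tog c c' K) (DD ρ e c c' v) := by
  intro x
  simp only [DD, ContinuousLinearMap.sub_apply, ContinuousLinearMap.add_apply, map_sub, map_add,
    sig_ss he, hv x, map_smul, tog, sg_xor]
  generalize sg (K x) = t
  by_cases h1 : c = x <;> by_cases h2 : c' = x <;> simp [h1, h2, sg] <;> module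

lemma DD_symm (c c' : ι) : DD ρ e c c' = DD ρ e c' c := by
  simp only [DD]
  rw [ss_comm (c', false), ss_comm (c', true), ss_comm (c', false), ss_comm (c', true)]
  abel

lemma DD_diag {K : ι → Bool} {v : E} (hv : Pat ρ e K v) {c : ι} (hc : K c = false) :
    DD ρ e c c v = 0 := by
  have := hv c
  simp only [sig, hc, sg] at this
  simp [DD, ss_self, ss_comm (c, true) (c, false), this]

lemma DD_sym (hρ : Iso ρ) (c c' : ι) : Sym (DD ρ e c c') :=
  (((hρ.sym _ _).add (hρ.sym _ _)).sub (hρ.sym _ _)).sub (hρ.sym _ _)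

lemma DD_norm (hρ : Iso ρ) (c c' : ι) (v : E) : ‖DD ρ e c c' v‖ ≤ 4 * ‖v‖ := by
  simp only [DD, ContinuousLinearMap.sub_apply, ContinuousLinearMap.add_apply]
  refine (norm_sub_le _ _).trans ((add_le_add_left ((norm_sub_le _ _).trans
    (add_le_add_left (norm_add_le _ _) _)) _).trans (le_of_eq ?_))
  simp only [ss, hρ.norm]; ring

lemma pat_orth (hρ : Iso ρ) {K K' : ι → Bool} (h : K ≠ K') {u v : E} (hu : Pat ρ e K u)
    (hv : Pat ρ e K' v) : ⟪u, v⟫ = 0 := by
  obtain ⟨c, hc⟩ := Function.ne_iff.1 h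
  have := hρ (swap (e (c, false)) (e (c, true))) u v
  have h1 := hu c
  have h2 := hv c
  simp only [sig, ss] at h1 h2
  rw [h1, h2, real_inner_smul_left, real_inner_smul_right] at this
  revert hc this
  cases K c <;> cases K' c <;> simp [sg] <;> intro h <;> linarith

lemma pat_sum_norm (hρ : Iso ρ) (f : (ι → Bool) → E) (hf : ∀ K, Pat ρ e K (f K)) :
    ‖∑ K, f K‖ ^ 2 = ∑ K, ‖f K‖ ^ 2 := by
  rw [← real_inner_self_eq_norm_sq, sum_inner]
  refine sum_congr rfl (fun K _ => ?_)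
  rw [inner_sum, sum_eq_single K, real_inner_self_eq_norm_sq]
  · exact fun K' _ h => pat_orth hρ h.symm (hf K) (hf K')
  · simp

variable (ρ e) in
def Gr (k : ℕ) (v : E) : Prop :=
  ∃ f : (ι → Bool) → E, (∀ K, Pat ρ e K (f K)) ∧ (∀ K, k < grade K → f K = 0) ∧ v = ∑ K, f K

variable (ρ e) in
noncomputable def Del (m : ℝ) : E →L[ℝ] E := (1 / (4 * m)) • ∑ c, ∑ c', DD ρ e c c'

lemma Del_sym (hρ : Iso ρ) (m : ℝ) : Sym (Del ρ e m) :=
  (Sym.sum _ (fun c _ => Sym.sum _ (fun c' _ => DD_sym hρ c c'))).smul _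

lemma Del_gr_aux (hρ : Iso ρ) (he : Function.Injective e) {m : ℝ} (hm : 0 < m) {k : ℕ} {v : E}
    (hv : Gr ρ e k v) (x S1 S2 : ℝ) (hx : 1 ≤ x) (h1 : 0 ≤ S1) (h2 : 0 ≤ S2)
    (hS1 : ∀ K : ι → Bool, grade K ≤ k + 2 → ∑ c, (if K c then x else 1 / x) ≤ S1)
    (hS2 : ∀ K : ι → Bool, grade K ≤ k → ∑ c, (if K c then x else 1 / x) ≤ S2) :
    Gr ρ e (k + 2) (Del ρ e m v) ∧ ‖Del ρ e m v‖ ≤ S1 * S2 / m * ‖v‖ := by
  obtain ⟨f, f1, f2, rfl⟩ := hv
  set g : (ι → Bool) → E := fun K => (1 / (4 * m)) • ∑ c, ∑ c', DD ρ e c c' (f (tog c c' K))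
    with hg
  have g1 : ∀ K, Pat ρ e K (g K) := by
    intro K y
    simp only [hg, map_smul, map_sum]
    rw [smul_comm, smul_sum (r := sg (K y))]
    congr 1
    refine sum_congr rfl (fun c _ => ?_)
    rw [smul_sum]
    refine sum_congr rfl (fun c' _ => ?_)
    have := DD_pat he (f1 (tog c c' K)) c c' y
    rwa [tog_tog] at this
  have g2 : ∀ K, k + 2 < grade K → g K = 0 := by
    intro K hK
    have : ∀ c c', f (tog c c' K) = 0 := by
      intro c c'
      apply f2
      have := grade_tog c c' (tog c c' K)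
      rw [tog_tog] at this
      omega
    simp [hg, this]
  have g3 : Del ρ e m (∑ K, f K) = ∑ K, g K := by
    simp only [hg, Del, ContinuousLinearMap.smul_apply, ContinuousLinearMap.sum_apply]
    rw [← smul_sum, sum_comm (s := (univ : Finset (ι → Bool)))]
    congr 1
    refine sum_congr rfl (fun c _ => ?_)
    rw [sum_comm (s := (univ : Finset (ι → Bool)))]
    refine sum_congr rfl (fun c' _ => ?_)
    rw [map_sum]
    exact (Equiv.sum_comp (tog_tog c c').toPerm (fun K => DD ρ e c c' (f K))).symm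
  refine ⟨⟨g, g1, g2, g3⟩, ?_⟩
  have hx0 : 0 < x := by linarith
  set ω : (ι → Bool) → ι → ℝ := fun K c => if K c then x else 1 / x with hω
  have hω0 : ∀ K c, 0 < ω K c := fun K c => by simp only [hω]; split <;> positivity
  have key : ∀ K c c', ‖DD ρ e c c' (f (tog c c' K))‖ ^ 2 ≤
      (ω K c * ω K c') * (16 * (ω (tog c c' K) c * ω (tog c c' K) c') * ‖f (tog c c' K)‖ ^ 2) := by
    intro K c c'
    have p0 : 0 ≤ (ω K c * ω K c') *
        (16 * (ω (tog c c' K) c * ω (tog c c' K) c') * ‖f (tog c c' K)‖ ^ 2) := by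
      have := hω0 K c; have := hω0 K c'; have := hω0 (tog c c' K) c; have := hω0 (tog c c' K) c'
      positivity
    have p1 : 1 ≤ (ω K c * ω K c') * (ω (tog c c' K) c * ω (tog c c' K) c') →
        ‖DD ρ e c c' (f (tog c c' K))‖ ^ 2 ≤ (ω K c * ω K c') *
        (16 * (ω (tog c c' K) c * ω (tog c c' K) c') * ‖f (tog c c' K)‖ ^ 2) := by
      intro h
      have := pow_le_pow_left₀ (norm_nonneg _) (DD_norm (e := e) hρ c c' (f (tog c c' K))) 2
      nlinarith [mul_le_mul_of_nonneg_right h (sq_nonneg ‖f (tog c c' K)‖)]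
    by_cases hc : c = c'
    · subst hc
      have ht : tog c c K = K := by ext y; simp [tog]
      cases hK : K c
      · rw [DD_diag (f1 _) (by rw [ht, hK])]; simpa using p0
      · apply p1
        simp only [ht, hω, hK, if_true]
        exact one_le_mul_of_one_le_of_one_le (one_le_mul_of_one_le_of_one_le hx hx)
          (one_le_mul_of_one_le_of_one_le hx hx)
    · apply p1
      have hc' : ¬ c' = c := fun h => hc h.symm
      simp only [hω, tog, hc, hc']
      cases K c <;> cases K c' <;> simp <;> field_simp <;> rfl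
  have hg2 : ∀ K, ‖g K‖ ^ 2 ≤ (S1 / m) ^ 2 *
      ∑ c, ∑ c', (ω (tog c c' K) c * ω (tog c c' K) c') * ‖f (tog c c' K)‖ ^ 2 := by
    intro K
    have p0 : 0 ≤ ∑ c, ∑ c', (ω (tog c c' K) c * ω (tog c c' K) c') * ‖f (tog c c' K)‖ ^ 2 :=
      sum_nonneg (fun c _ => sum_nonneg (fun c' _ => by
        have := hω0 (tog c c' K) c; have := hω0 (tog c c' K) c'; positivity))
    by_cases hK : k + 2 < grade K
    · rw [g2 K hK, norm_zero]; simp only [ne_eq, OfNat.ofNat_ne_zero, not_false_eq_true, zero_pow]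
      positivity
    have e1 : ‖g K‖ ≤ 1 / (4 * m) * ∑ p : ι × ι, ‖DD ρ e p.1 p.2 (f (tog p.1 p.2 K))‖ := by
      rw [hg]
      simp only
      rw [norm_smul, Real.norm_of_nonneg (by positivity), ← Fintype.sum_prod_type']
      gcongr
      exact norm_sum_le _ _
    have e2 := sum_sq_le_sum_mul_sum_of_sq_le_mul (univ : Finset (ι × ι))
      (r := fun p => ‖DD ρ e p.1 p.2 (f (tog p.1 p.2 K))‖) (f := fun p => ω K p.1 * ω K p.2)
      (g := fun p => 16 * (ω (tog p.1 p.2 K) p.1 * ω (tog p.1 p.2 K) p.2) * ‖f (tog p.1 p.2 K)‖ ^ 2)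
      (fun p _ => (mul_pos (hω0 _ _) (hω0 _ _)).le)
      (fun p _ => by have := hω0 (tog p.1 p.2 K) p.1; have := hω0 (tog p.1 p.2 K) p.2; positivity)
      (fun p _ => key K p.1 p.2)
    have e3 : ∑ p : ι × ι, ω K p.1 * ω K p.2 ≤ S1 ^ 2 := by
      rw [Fintype.sum_prod_type' (fun a b => ω K a * ω K b), ← sum_mul_sum, ← sq]
      exact pow_le_pow_left₀ (sum_nonneg (fun c _ => (hω0 K c).le)) (hS1 K (by omega)) 2
    simp only [mul_assoc (16 : ℝ)] at e2
    rw [← mul_sum, Fintype.sum_prod_type' (fun c c' =>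
      (ω (tog c c' K) c * ω (tog c c' K) c') * ‖f (tog c c' K)‖ ^ 2)] at e2
    calc ‖g K‖ ^ 2 ≤ (1 / (4 * m)) ^ 2 *
          (∑ p : ι × ι, ‖DD ρ e p.1 p.2 (f (tog p.1 p.2 K))‖) ^ 2 := by
          rw [← mul_pow]; exact pow_le_pow_left₀ (norm_nonneg _) e1 2
      _ ≤ (1 / (4 * m)) ^ 2 * (S1 ^ 2 * (16 *
          ∑ c, ∑ c', (ω (tog c c' K) c * ω (tog c c' K) c') * ‖f (tog c c' K)‖ ^ 2)) := by
          gcongr
          exact e2.trans (by gcongr)
      _ = _ := by field_simp; ring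
  have hfin : ‖Del ρ e m (∑ K, f K)‖ ^ 2 ≤ (S1 * S2 / m * ‖∑ K, f K‖) ^ 2 := by
    rw [g3, pat_sum_norm hρ g g1, mul_pow, pat_sum_norm hρ f f1]
    refine (sum_le_sum (fun K _ => hg2 K)).trans ?_
    rw [← mul_sum]
    have e1 : ∑ K, ∑ c, ∑ c', (ω (tog c c' K) c * ω (tog c c' K) c') * ‖f (tog c c' K)‖ ^ 2
        = ∑ K, (∑ c, ω K c) ^ 2 * ‖f K‖ ^ 2 := by
      simp only [sq (∑ c, ω _ c), sum_mul_sum]
      simp only [sum_mul]
      rw [sum_comm, sum_comm (s := (univ : Finset (ι → Bool)))]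
      refine sum_congr rfl (fun c _ => ?_)
      rw [sum_comm, sum_comm (s := (univ : Finset (ι → Bool)))]
      refine sum_congr rfl (fun c' _ => ?_)
      exact Equiv.sum_comp (tog_tog c c').toPerm (fun K => ω K c * ω K c' * ‖f K‖ ^ 2)
    have e2 : ∑ K, (∑ c, ω K c) ^ 2 * ‖f K‖ ^ 2 ≤ S2 ^ 2 * ∑ K, ‖f K‖ ^ 2 := by
      rw [mul_sum]
      refine sum_le_sum (fun K _ => ?_)
      by_cases hK : k < grade K
      · simp [f2 K hK]
      · exact mul_le_mul_of_nonneg_right (pow_le_pow_left₀ (sum_nonneg (fun c _ => (hω0 K c).le))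
          (hS2 K (by omega)) 2) (sq_nonneg _)
    rw [e1]
    calc _ ≤ (S1 / m) ^ 2 * (S2 ^ 2 * ∑ K, ‖f K‖ ^ 2) := by gcongr
      _ = _ := by ring
  exact (abs_le_of_sq_le_sq' hfin (by positivity)).2

lemma Del_gr (hρ : Iso ρ) (he : Function.Injective e) {m : ℝ} (hm : 0 < m)
    (hc : (Fintype.card ι : ℝ) ≤ m) {k : ℕ} {v : E} (hv : Gr ρ e k v) :
    Gr ρ e (k + 2) (Del ρ e m v) ∧ ‖Del ρ e m v‖ ≤ 4 * (k + 1) * ‖v‖ := by
  have hk : (0 : ℝ) ≤ k := by positivity
  rcases le_total m (k + 1) with h | h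
  · obtain ⟨a, b⟩ := Del_gr_aux hρ he hm hv 1 m m le_rfl hm.le hm.le
      (fun K _ => by simpa using hc) (fun K _ => by simpa using hc)
    refine ⟨a, b.trans (mul_le_mul_of_nonneg_right ?_ (norm_nonneg _))⟩
    rw [mul_div_assoc, div_self hm.ne']; linarith
  · set x := Real.sqrt (m / (k + 1)) with hx
    have hx2 : x ^ 2 = m / (k + 1) := Real.sq_sqrt (by positivity)
    have hx1 : 1 ≤ x := Real.one_le_sqrt.2 ((one_le_div (by positivity)).2 h)
    have hx0 : 0 < x := by linarith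
    have hS : ∀ (K : ι → Bool) (r : ℕ), grade K ≤ r →
        ∑ c, (if K c then x else 1 / x) ≤ x * r + m / x := by
      intro K r hK
      rw [sum_ite, sum_const, sum_const, nsmul_eq_mul, nsmul_eq_mul]
      have a1 : (#{c | K c = true} : ℝ) ≤ r := by exact_mod_cast hK
      have a2 : (#{c | ¬ K c = true} : ℝ) ≤ m := le_trans (by exact_mod_cast card_le_univ _) hc
      rw [mul_comm, mul_one_div]
      gcongr
    obtain ⟨a, b⟩ := Del_gr_aux hρ he hm hv x (x * (k + 2 : ℕ) + m / x) (x * k + m / x) hx1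
      (by positivity) (by positivity) (fun K hK => hS K _ hK) (fun K hK => hS K _ hK)
    refine ⟨a, b.trans (mul_le_mul_of_nonneg_right ?_ (norm_nonneg _))⟩
    have hm' : m = x ^ 2 * (k + 1) := by rw [hx2]; field_simp
    rw [div_le_iff₀ hm]
    have : m / x = x * (k + 1) := by rw [hm']; field_simp
    rw [this, hm']
    push_cast
    nlinarith [sq_nonneg x]

end H4TS
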