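import Crest.Agent.H4.TS.Block

set_option autoImplicit false
open Finset BigOperators Module Equiv NormedSpace
open scoped RealInnerProductSpace Nat

namespace H4TS
variable {E : Type*} [NormedAddCommGroup E] [InnerProductSpace ℝ E] [CompleteSpace E]
variable {α : Type*} [Fintype α] [DecidableEq α]
variable {ρ : Perm α →* (E →L[ℝ] E)} {ι : Type*} [Fintype ι] [DecidableEq ι] {e : ι × Bool → α}

variable (ρ e) in
noncomputable def CC (m : ℝ) : E →L[ℝ] E := (1 / (4 * m)) • ∑ x, ∑ y, (1 - ss ρ e x y)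

variable (ρ e) in
noncomputable def CC' (m : ℝ) : E →L[ℝ] E :=
  (1 / (2 * m)) • ∑ β : Bool, ∑ c, ∑ c', (1 - ss ρ e (c, β) (c', β))

lemma CC_eq (m : ℝ) : CC ρ e m = (1 / (4 * m)) • ∑ c, ∑ c',
    ((1 - ss ρ e (c, false) (c', false)) + (1 - ss ρ e (c, true) (c', true))
      + (1 - ss ρ e (c, false) (c', true)) + (1 - ss ρ e (c, true) (c', false))) := by
  simp only [CC, Fintype.sum_prod_type, Fintype.sum_bool, sum_add_distrib]
  congr 1
  abel

lemma Del_eq (m : ℝ) : Del ρ e m = CC ρ e m - CC' ρ e m := by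
  have : (1 / (2 * m)) = (1 / (4 * m)) * 2 := by
    rcases eq_or_ne m 0 with h | h
    · simp [h]
    · field_simp; norm_num
  rw [CC_eq, CC', this, mul_smul, ← smul_sub, Del, Fintype.sum_bool, ← sum_add_distrib]
  congr 1
  rw [smul_sum, ← sum_sub_distrib]
  refine sum_congr rfl (fun c _ => ?_)
  rw [← sum_add_distrib, smul_sum, ← sum_sub_distrib]
  refine sum_congr rfl (fun c' _ => ?_)
  rw [DD]; module

lemma CC_sym (hρ : Iso ρ) (m : ℝ) : Sym (CC ρ e m) :=
  (Sym.sum _ (fun _ _ => Sym.sum _ (fun _ _ => Sym.one.sub (hρ.sym _ _)))).smul _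

lemma CC_comm (he : Function.Injective e) (m : ℝ) (x y : ι × Bool) :
    Commute (ss ρ e x y) (CC ρ e m) := by
  refine Commute.smul_right ?_ _
  ext v
  simp only [ContinuousLinearMap.mul_apply, ContinuousLinearMap.sum_apply, map_sum,
    ContinuousLinearMap.sub_apply, ContinuousLinearMap.one_apply, map_sub, ss_conj he x y]
  rw [← Equiv.sum_comp (swap x y) (fun z => ∑ w, (ss ρ e x y v - ss ρ e z w (ss ρ e x y v)))]
  refine sum_congr rfl (fun z _ => ?_)
  rw [← Equiv.sum_comp (swap x y) (fun w => (ss ρ e x y v - ss ρ e _ w (ss ρ e x y v)))]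

lemma Del_comm (he : Function.Injective e) (m : ℝ) : Commute (Del ρ e m) (CC ρ e m) :=
  Commute.smul_left (Commute.sum_left _ _ _ (fun _ _ => Commute.sum_left _ _ _ (fun _ _ =>
    (((CC_comm he m _ _).add_left (CC_comm he m _ _)).sub_left (CC_comm he m _ _)).sub_left
      (CC_comm he m _ _)))) _

section P0
variable (hρ : Iso ρ) (he : Function.Injective e) {w : E} (hw : ∀ c, sig ρ e c w = w)
include hw

lemma pat0 : Pat ρ e (fun _ => false) w := fun c => by simp [sg, hw c]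

include hρ he

lemma inner_flip (x c c' : ι) (β β' : Bool) : ⟪w, ss ρ e (c, β) (c', β') w⟫
    = ⟪w, ss ρ e (c, xor β (decide (c = x))) (c', xor β' (decide (c' = x))) w⟫ := by
  have := hρ (swap (e (x, false)) (e (x, true))) w (ss ρ e (c, β) (c', β') w)
  rw [← this]
  change ⟪sig ρ e x w, sig ρ e x _⟫ = _
  rw [sig_ss he, hw]

lemma DD_sq_le (c c' : ι) :
    ‖DD ρ e c c' w‖ ^ 2 ≤ 2 * ⟪w, ((1 - ss ρ e (c, false) (c', false))
      + (1 - ss ρ e (c, true) (c', true))
      + (1 - ss ρ e (c, false) (c', true)) + (1 - ss ρ e (c, true) (c', false))) w⟫ := by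
  have hle : ∀ x y, ⟪w, ss ρ e x y w⟫ ≤ ‖w‖ ^ 2 := fun x y =>
    (real_inner_le_norm _ _).trans (by rw [ss, hρ.norm, sq])
  simp only [ContinuousLinearMap.add_apply, ContinuousLinearMap.sub_apply,
    ContinuousLinearMap.one_apply, inner_add_right, inner_sub_right, real_inner_self_eq_norm_sq]
  by_cases hc : c = c'
  · subst hc
    rw [DD_diag (pat0 hw) rfl]
    have := hle (c, false) (c, false); have := hle (c, true) (c, true)
    have := hle (c, false) (c, true); have := hle (c, true) (c, false)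
    simp only [norm_zero]; linarith
  have hc' : ¬ c' = c := fun h => hc h.symm
  have i1 : ⟪w, ss ρ e (c, true) (c', false) w⟫ = ⟪w, ss ρ e (c, false) (c', false) w⟫ := by
    simpa [hc'] using inner_flip hρ he hw c c c' true false
  have i2 : ⟪w, ss ρ e (c, false) (c', true) w⟫ = ⟪w, ss ρ e (c, false) (c', false) w⟫ := by
    simpa [hc] using inner_flip hρ he hw c' c c' false true
  have i3 : ⟪w, ss ρ e (c, true) (c', true) w⟫ = ⟪w, ss ρ e (c, false) (c', false) w⟫ := by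
    rw [← i2]; simpa [hc'] using inner_flip hρ he hw c c c' true true
  have hp := DD_pat he (pat0 hw) c c'
  have a1 : sig ρ e c (DD ρ e c c' w) = -DD ρ e c c' w := by simpa [tog, sg, hc'] using hp c
  have a2 : sig ρ e c' (DD ρ e c c' w) = -DD ρ e c c' w := by simpa [tog, sg, hc] using hp c'
  set u := ss ρ e (c, false) (c', false) w with hu
  have b1 : ss ρ e (c, true) (c', false) w = sig ρ e c u := by
    rw [hu, sig_ss he, hw]; simp [hc']
  have b2 : ss ρ e (c, false) (c', true) w = sig ρ e c' u := by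
    rw [hu, sig_ss he, hw]; simp [hc]
  have b3 : ss ρ e (c, true) (c', true) w = sig ρ e c (sig ρ e c' u) := by
    rw [← b2, sig_ss he, hw]; simp [hc']
  have hs : ∀ x, Sym (sig ρ e x) := fun x => hρ.sym _ _
  have hss : ∀ x y, Sym (ss ρ e x y) := fun x y => hρ.sym _ _
  have d1 : ‖DD ρ e c c' w‖ ^ 2 = 4 * ⟪DD ρ e c c' w, u⟫ := by
    rw [← real_inner_self_eq_norm_sq]
    generalize hD : DD ρ e c c' w = D at *
    conv_lhs => enter [3]; rw [← hD]
    simp only [DD, ContinuousLinearMap.add_apply, ContinuousLinearMap.sub_apply, inner_add_right,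
      inner_sub_right]
    rw [b1, b2, b3, ← hu, ← hs, ← hs, ← hs, ← hs, a1, map_neg, a2]
    simp only [inner_neg_left, neg_neg]; ring
  have hnu : ‖u‖ = ‖w‖ := hρ.norm _ _
  have d2 : ⟪ss ρ e (c, true) (c', true) w, u⟫ ≤ ‖w‖ ^ 2 :=
    (real_inner_le_norm _ _).trans (by rw [ss, hρ.norm, hnu, sq])
  have d3 : ⟪ss ρ e (c, false) (c', true) w, u⟫ = ⟪w, u⟫ := by
    have : ss ρ e (c, false) (c', true) u = ss ρ e (c, false) (c', false) (sig ρ e c' w) := by
      rw [hu, sig, ss_conj he (c, false) (c', false), swap_apply_right, swap_apply_of_ne_of_ne]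
      all_goals simp [hc']
    rw [hss, this, hw]
  have d4 : ⟪ss ρ e (c, true) (c', false) w, u⟫ = ⟪w, u⟫ := by
    have : ss ρ e (c, true) (c', false) u = ss ρ e (c, false) (c', false) (sig ρ e c w) := by
      rw [hu, sig, ss_conj he (c, false) (c', false), swap_apply_left, swap_apply_of_ne_of_ne,
        ss_comm (c, true)]
      all_goals simp [hc]
    rw [hss, this, hw]
  rw [d1, i1, i2, i3]
  simp only [DD, ContinuousLinearMap.add_apply, ContinuousLinearMap.sub_apply, inner_add_left,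
    inner_sub_left, ← hu, real_inner_self_eq_norm_sq, hnu, d3, d4]
  linarith

lemma DD_orth (c c' a a' : ι) : ⟪DD ρ e c c' w, DD ρ e a a' w⟫ ≤
    (if (a, a') = (c, c') then ‖DD ρ e c c' w‖ ^ 2 else 0)
      + (if (a, a') = (c', c) then ‖DD ρ e c c' w‖ ^ 2 else 0) := by
  have hn : 0 ≤ ‖DD ρ e c c' w‖ ^ 2 := sq_nonneg _
  split_ifs with h1 h2 h2
  · obtain ⟨rfl, rfl⟩ := Prod.ext_iff.1 h1
    rw [real_inner_self_eq_norm_sq]; simp
  · obtain ⟨rfl, rfl⟩ := Prod.ext_iff.1 h1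
    rw [real_inner_self_eq_norm_sq]; simp
  · obtain ⟨rfl, rfl⟩ := Prod.ext_iff.1 h2
    rw [DD_symm a', real_inner_self_eq_norm_sq]; simp
  · by_cases hc : c = c'
    · subst hc; simp [DD_diag (pat0 hw) rfl]
    rw [pat_orth hρ _ (DD_pat he (pat0 hw) c c') (DD_pat he (pat0 hw) a a')]
    · simp
    · intro h
      have e1 := congrFun h c
      have e2 := congrFun h c'
      have hc' : ¬ c' = c := fun h => hc h.symm
      simp only [tog, Prod.mk.injEq] at e1 e2 h1 h2
      by_cases p1 : a = c <;> by_cases p2 : a' = c <;> by_cases p3 : a = c' <;>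
        by_cases p4 : a' = c' <;> simp_all

lemma Del_sq_le {m : ℝ} (hm : 0 < m) : ‖Del ρ e m w‖ ^ 2 ≤ 1 / m * ⟪w, CC ρ e m w⟫ := by
  rw [CC_eq, ← real_inner_self_eq_norm_sq]
  simp only [Del, ContinuousLinearMap.smul_apply, ContinuousLinearMap.sum_apply,
    real_inner_smul_left, real_inner_smul_right, sum_inner]
  have : 1 / m = 1 / (4 * m) * 4 := by field_simp
  rw [this, mul_assoc]
  refine mul_le_mul_of_nonneg_left ?_ (by positivity)
  rw [mul_left_comm]
  refine mul_le_mul_of_nonneg_left ?_ (by positivity)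
  rw [inner_sum, mul_sum]
  refine sum_le_sum (fun c _ => ?_)
  conv_rhs => rw [inner_sum, mul_sum]
  refine sum_le_sum (fun c' _ => ?_)
  rw [← Fintype.sum_prod_type' (fun a a' => DD ρ e a a' w), inner_sum]
  refine (sum_le_sum (fun p _ => DD_orth hρ he hw c c' p.1 p.2)).trans ?_
  rw [sum_add_distrib]
  simp only [Prod.mk.eta, sum_ite_eq', mem_univ, if_true]
  have := DD_sq_le hρ he hw c c'
  linarith

lemma inner_Del (m : ℝ) : ⟪w, Del ρ e m w⟫ = 0 := by
  simp only [Del, ContinuousLinearMap.smul_apply, ContinuousLinearMap.sum_apply,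
    real_inner_smul_right, inner_sum]
  rw [sum_eq_zero, mul_zero]
  intro c _
  refine sum_eq_zero (fun c' _ => ?_)
  by_cases hc : c = c'
  · subst hc; simp [DD_diag (pat0 hw) rfl]
  · refine pat_orth hρ (fun h => ?_) (pat0 hw) (DD_pat he (pat0 hw) c c')
    have hc' : ¬ c' = c := fun h => hc h.symm
    simpa [tog, hc'] using congrFun h c

lemma Del_pow {m : ℝ} (hm : 0 < m) (hc : (Fintype.card ι : ℝ) ≤ m) (a : ℕ) :
    Gr ρ e (2 * a + 2) ((Del ρ e m ^ (a + 1)) w) ∧
      ‖(Del ρ e m ^ (a + 1)) w‖ ≤ (∏ i ∈ range a, (8 * i + 12 : ℝ)) * ‖Del ρ e m w‖ := by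
  induction a with
  | zero =>
    refine ⟨?_, by simp⟩
    have : Gr ρ e 0 w := by
      refine ⟨Pi.single (fun _ => false) w, fun K => ?_, fun K hK => ?_, by simp⟩
      · by_cases h : K = fun _ => false
        · subst h; simpa using pat0 hw
        · rw [Pi.single_eq_of_ne h]; intro c; simp
      · refine Pi.single_eq_of_ne ?_ _
        rintro rfl; simp [grade] at hK
    simpa using (Del_gr hρ he hm hc this).1
  | succ a ih =>
    obtain ⟨h1, h2⟩ := Del_gr hρ he hm hc ih.1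
    rw [pow_succ' _ (a + 1), ContinuousLinearMap.mul_apply, prod_range_succ]
    refine ⟨h1, h2.trans ((mul_le_mul_of_nonneg_left ih.2 (by positivity)).trans (le_of_eq ?_))⟩
    rw [Nat.cast_add, Nat.cast_mul, Nat.cast_ofNat]
    ring

omit hρ he hw in
lemma prod_half (r : ℕ) : (∏ i ∈ range (r / 2), (8 * i + 12 : ℝ)) *
    (∏ i ∈ range ((r + 1) / 2), (8 * i + 12 : ℝ)) ≤ (r + 2)! / 2 * 4 ^ r := by
  induction r with
  | zero => simp
  | succ r ih =>
    have : (r + 1 + 1) / 2 = r / 2 + 1 := by omega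
    rw [this, prod_range_succ, Nat.factorial_succ (r + 2), pow_succ]
    have h2 : ((r / 2 : ℕ) : ℝ) ≤ r / 2 := Nat.cast_div_le
    have h3 : (8 * ((r / 2 : ℕ) : ℝ) + 12) ≤ 4 * (r + 3) := by linarith
    calc _ = ((∏ i ∈ range (r / 2), (8 * i + 12 : ℝ)) *
          (∏ i ∈ range ((r + 1) / 2), (8 * i + 12 : ℝ))) * (8 * ((r / 2 : ℕ) : ℝ) + 12) := by ring
      _ ≤ ((r + 2)! / 2 * 4 ^ r) * (4 * (r + 3)) := by gcongr
      _ = _ := by push_cast; ring

lemma exp_Del_le {m : ℝ} (hm : 0 < m) (hc : (Fintype.card ι : ℝ) ≤ m) {s : ℝ} (h0 : 0 ≤ s)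
    (h1 : s ≤ 1 / 6) : ⟪w, exp (s • Del ρ e m) w⟫ ≤ ‖w‖ ^ 2 + 1 / 24 * ‖Del ρ e m w‖ ^ 2 := by
  have hs := (hasSum_nat_add_iff' 2).2 (exp_inner_hasSum (s • Del ρ e m) w w)
  have hg := (hasSum_geometric_of_lt_one (r := 2 / 3) (by norm_num) (by norm_num)).mul_left
    (1 / 72 * ‖Del ρ e m w‖ ^ 2)
  have := hasSum_le (fun r => ?_) hs hg
  · simp only [sum_range_succ, range_zero, sum_empty, pow_one, pow_zero,
      ContinuousLinearMap.smul_apply, real_inner_smul_right, inner_Del hρ he hw,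
      ContinuousLinearMap.one_apply, real_inner_self_eq_norm_sq] at this
    norm_num at this ⊢
    linarith
  · have e1 : ⟪w, (Del ρ e m ^ (r + 2)) w⟫
        = ⟪(Del ρ e m ^ (r / 2 + 1)) w, (Del ρ e m ^ ((r + 1) / 2 + 1)) w⟫ := by
      rw [(Del_sym hρ m).pow, ← ContinuousLinearMap.mul_apply, ← pow_add]
      congr 3; omega
    have e2 : ⟪w, (Del ρ e m ^ (r + 2)) w⟫ ≤ (r + 2)! / 2 * 4 ^ r * ‖Del ρ e m w‖ ^ 2 := by
      rw [e1]
      refine (real_inner_le_norm _ _).trans ((mul_le_mul (Del_pow hρ he hw hm hc _).2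
        (Del_pow hρ he hw hm hc _).2 (norm_nonneg _) (by positivity)).trans ?_)
      have := mul_le_mul_of_nonneg_right (prod_half r) (sq_nonneg ‖Del ρ e m w‖)
      linarith
    rw [smul_pow, ContinuousLinearMap.smul_apply, real_inner_smul_right]
    have e3 : s ^ (r + 2) ≤ (1 / 6) ^ (r + 2) := pow_le_pow_left₀ h0 h1 _
    have e4 : (0 : ℝ) < (r + 2)! := by positivity
    calc _ ≤ ((r + 2)! : ℝ)⁻¹ * (s ^ (r + 2) * ((r + 2)! / 2 * 4 ^ r * ‖Del ρ e m w‖ ^ 2)) := by
          gcongr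
      _ ≤ ((r + 2)! : ℝ)⁻¹ * ((1 / 6) ^ (r + 2) * ((r + 2)! / 2 * 4 ^ r * ‖Del ρ e m w‖ ^ 2)) := by
          gcongr
      _ = _ := by
          rw [show (2 / 3 : ℝ) = 1 / 6 * 4 by norm_num, mul_pow, pow_add]
          field_simp; ring

end P0

theorem block [FiniteDimensional ℝ E] (hρ : Iso ρ) (he : Function.Injective e) {w : E}
    (hw : ∀ c, sig ρ e c w = w) {m : ℝ} (hm : 0 < m) (hc : (Fintype.card ι : ℝ) ≤ m) {η : ℝ}
    (h0 : 0 ≤ η) (h1 : η ≤ 1 / 12) :
    ‖exp ((η - 1 / (48 * m)) • CC ρ e m - η • CC' ρ e m) w‖ ≤ ‖w‖ := by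
  set δ := 1 / (48 * m) with hδ
  have e1 : (η - δ) • CC ρ e m - η • CC' ρ e m = η • Del ρ e m + (-δ) • CC ρ e m := by
    rw [Del_eq]; module
  rw [e1, exp_add_comm (((Del_comm he m).smul_left _).smul_right _)]
  set w' := exp ((-δ) • CC ρ e m) w with hw'
  have h2 : ∀ c, sig ρ e c w' = w' := by
    intro c
    rw [hw', sig, exp_comm_apply ((CC_comm he m _ _).smul_right _), ← sig, hw]
  have h3 : exp (δ • CC ρ e m) w' = w := by
    rw [hw', ← exp_add_comm (((Commute.refl _).smul_left _).smul_right _)]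
    simp
  refine (abs_le_of_sq_le_sq' ?_ (norm_nonneg _)).2
  rw [← h3, exp_norm_sq ((Del_sym hρ m).smul _), exp_norm_sq ((CC_sym hρ m).smul _), smul_smul]
  refine (exp_Del_le hρ he h2 hm hc (by positivity) (by linarith)).trans
    (le_trans ?_ (exp_inner_ge (((CC_sym hρ m).smul _).smul _) w'))
  have := Del_sq_le hρ he h2 hm
  simp only [ContinuousLinearMap.smul_apply, real_inner_smul_right]
  have e2 : 2 * (δ * ⟪w', CC ρ e m w'⟫) = 1 / 24 * (1 / m * ⟪w', CC ρ e m w'⟫) := by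
    rw [hδ]; field_simp; ring
  rw [e2]
  linarith

end H4TS
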