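import Crest.Agent.H4.TS.Term
import Crest.Prelude.Def_Shuffle

set_option autoImplicit false
open Finset BigOperators Module Equiv
open scoped RealInnerProductSpace
open Crest.ProbabilityR.Shuffle

namespace H4TS
variable {d : ℕ}

def rot (d : ℕ) : Perm (Pos d) := Equiv.arrowCongr (finRotate (d + 1)) (Equiv.refl Bool)

lemma rot_apply (p : Pos d) (l : Fin (d + 1)) : rot d p (finRotate (d + 1) l) = p l := by
  simp only [rot, Equiv.arrowCongr_apply, Function.comp, Equiv.symm_apply_apply, Equiv.refl_apply]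

lemma rot_idx (k : ℕ) : finRotate (d + 1) (idx d k) = idx d (k + 1) := by
  rw [finRotate_apply]
  ext
  simp [idx, Fin.val_add]

lemma idx_self (l : Fin (d + 1)) : idx d l = l := Fin.ext (idx_val l.isLt)

lemma rot_pow_apply (k j : ℕ) (p : Pos d) : (rot d ^ k) p (idx d (j + k)) = p (idx d j) := by
  induction k with
  | zero => simp
  | succ k ih => rw [pow_succ', Perm.mul_apply, ← add_assoc, ← rot_idx, rot_apply, ih]

lemma rot_pow : rot d ^ (d + 1) = 1 := by
  ext p l
  have := rot_pow_apply (d + 1) l p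
  have e : idx d (l + (d + 1)) = l := by ext; simp [idx, Nat.mod_eq_of_lt l.isLt]
  rwa [e, idx_self] at this

lemma rot_iff {k k' : ℕ} (hk : k < d + 1) (hk' : k' < d + 1) (h : idx d (k + 1) = idx d k')
    (l : Fin (d + 1)) : ((finRotate (d + 1) l : Fin (d + 1)) : ℕ) = k' ↔ (l : ℕ) = k := by
  rw [← idx_val hk', ← h, ← rot_idx, Fin.val_inj, (finRotate (d + 1)).apply_eq_iff_eq,
    ← Fin.val_inj, idx_val hk]

section Gen
variable {E : Type*} [NormedAddCommGroup E] [InnerProductSpace ℝ E] [CompleteSpace E]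
  {ρ : Perm (Pos d) →* (E →L[ℝ] E)}

lemma rot_Pl (hρ : Iso ρ) {k k' : ℕ} (hk : k < d + 1) (hk' : k' < d + 1)
    (h : idx d (k + 1) = idx d k') : ρ (rot d) * Pl ρ k = Pl ρ k' * ρ (rot d) := by
  ext v
  refine ext_inner_left ℝ (fun u => ?_)
  rw [ContinuousLinearMap.mul_apply, ContinuousLinearMap.mul_apply, hρ.adj, Pl, Pl, Op_inner,
    Op_inner]
  let θ : Sw d ≃ Sw d := Equiv.prodCongr (finRotate (d + 1)) (rot d)
  refine Fintype.expect_equiv (Equiv.arrowCongr θ (Equiv.refl Bool)) _ _ (fun a => ?_)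
  rw [← hρ.adj, rho_mul, rho_mul]
  congr 3
  ext p : 1
  have h1 : ∀ p, rot d (flp k p) = flp k' (rot d p) := by
    intro p; ext l
    obtain ⟨l, rfl⟩ := (finRotate (d + 1)).surjective l
    simp only [flp, rot_apply, rot_iff hk hk' h]
  have h2 : rot d (clr k p) = clr k' (rot d p) := by
    ext l
    obtain ⟨l, rfl⟩ := (finRotate (d + 1)).surjective l
    simp only [clr, rot_apply, rot_iff hk hk' h]
  have h3 : sw k' (rot d p) = θ (sw k p) := by
    simp only [θ, sw, Equiv.prodCongr_apply, Prod.map, h2, rot_idx, h]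
  simp only [Perm.mul_apply, lay_apply, h3, Equiv.arrowCongr_apply, Function.comp,
    Equiv.symm_apply_apply, Equiv.refl_apply]
  split
  · exact h1 p
  · rfl

lemma Q_pow (hρ : Iso ρ) : (ρ (rot d) * Pl ρ d) ^ (d + 1) = Pk ρ (d + 1) := by
  have h1 : ∀ k ≤ d, ρ (rot d ^ k) * Pl ρ 0 = Pl ρ k * ρ (rot d ^ k) := by
    intro k hk
    induction k with
    | zero => simp
    | succ k ih =>
      rw [pow_succ', map_mul, mul_assoc, ih (by omega), ← mul_assoc,
        rot_Pl hρ (by omega) (by omega) rfl, mul_assoc]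
  have h2 : ∀ k ≤ d + 1, (ρ (rot d) * Pl ρ d) ^ k = Pk ρ k * ρ (rot d ^ k) := by
    intro k hk
    induction k with
    | zero =>
      simp only [pow_zero, map_one, mul_one]
      exact Op_ext ρ (fun u v => by simp [Fintype.expect_const])
    | succ k ih =>
      rw [pow_succ, ih (by omega), rot_Pl hρ (k' := 0) (by omega) (by omega)
        (by ext; simp [idx]), mul_assoc, ← mul_assoc (ρ _), h1 k (by omega), Pk_succ hρ (by omega),
        pow_succ, map_mul, mul_assoc, mul_assoc]
  rw [h2 _ le_rfl, rot_pow, map_one, mul_one]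

end Gen

def bits (d : ℕ) (x : Fin (2 * 2 ^ d)) : Pos d := fun i => x.val.testBit i

lemma bits_bij (d : ℕ) : Function.Bijective (bits d) := by
  rw [Fintype.bijective_iff_injective_and_card]
  refine ⟨fun x y h => Fin.ext (Nat.eq_of_testBit_eq (fun i => ?_)), by simp [pow_succ, mul_comm]⟩
  by_cases hi : i < d + 1
  · exact congrFun h ⟨i, hi⟩
  · have h2 : 2 * 2 ^ d ≤ 2 ^ i := by
      rw [← pow_succ']; exact Nat.pow_le_pow_right (by norm_num) (by omega)
    rw [Nat.testBit_lt_two_pow (x.isLt.trans_le h2), Nat.testBit_lt_two_pow (y.isLt.trans_le h2)]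

noncomputable def be (d : ℕ) : Fin (2 * 2 ^ d) ≃ Pos d := Equiv.ofBijective _ (bits_bij d)

def low (d : ℕ) (x : Fin (2 * 2 ^ d)) : Fin (2 ^ d) := ⟨x.val % 2 ^ d, Nat.mod_lt _ (by positivity)⟩

def emb (d : ℕ) (u : Fin (2 ^ d)) : Sw d := (idx d d, bits d ⟨u, by have := u.isLt; omega⟩)

lemma emb_inj : Function.Injective (emb d) := fun u v h => by
  have := (bits_bij d).1 (congrArg Prod.snd h)
  exact Fin.ext (by simpa using this)

lemma sw_bits (x : Fin (2 * 2 ^ d)) : sw d (bits d x) = emb d (low d x) := by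
  simp only [sw, emb, low]
  congr 1
  ext l
  have := l.isLt
  by_cases h : (l : ℕ) = d
  · simp [clr, bits, h]
  · have h2 : (l : ℕ) < d := by omega
    simp [clr, bits, h, h2]

noncomputable def ext' (c : Fin (2 ^ d) → Bool) : St d := Function.extend (emb d) c (fun _ => false)

noncomputable def stepP (c : Fin (2 ^ d) → Bool) : Perm (Pos d) := rot d * lay (ext' c) d

lemma bits_step (c : Fin (2 ^ d) → Bool) (x : Fin (2 * 2 ^ d)) :
    bits d (stepPos (2 ^ d) c x) = stepP c (bits d x) := by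
  ext l
  obtain ⟨l, rfl⟩ := (finRotate (d + 1)).surjective l
  rw [stepP, Perm.mul_apply, rot_apply]
  by_cases h : l = Fin.last d
  · have e : l = idx d d := by rw [h]; ext; simp [idx]
    have e2 : bits d x (idx d d) = decide (2 ^ d ≤ x.val) := by
      simp only [bits, idx_val (Nat.lt_succ_self d)]
      by_cases hx : 2 ^ d ≤ x.val
      · rw [Nat.testBit_of_two_pow_le_and_two_pow_add_one_gt hx (by
          have := x.isLt; rw [pow_succ]; omega)]; simp [hx]
      · rw [Nat.testBit_lt_two_pow (by omega)]; simp [hx]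
    conv_rhs => rw [e, lay_idx _ (Nat.lt_succ_self d), sw_bits, ext', emb_inj.extend_apply, e2]
    rw [h, finRotate_last]
    simp only [bits, stepPos, low, Fin.val_zero, Nat.testBit_zero]
    split
    · rename_i h; rw [h]; simp
    · rename_i h; rw [Bool.not_eq_true] at h; rw [h]; simp
  · have h2 : (l : ℕ) < d := Fin.val_lt_last h
    rw [lay_apply_ne _ _ (by omega)]
    simp only [bits, coe_finRotate_of_ne_last h, stepPos, Nat.testBit_add_one]
    have : ∀ a b : ℕ, b ≤ 1 → (2 * a + b) / 2 = a := by omega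
    rw [this _ _ (by split <;> omega)]
    simp [h2]

noncomputable def itP (d : ℕ) : (t : ℕ) → (Fin t → Fin (2 ^ d) → Bool) → Perm (Pos d)
  | 0, _ => 1
  | t + 1, cs => stepP (cs (Fin.last t)) * itP d t (fun i => cs i.castSucc)

lemma bits_iter (t : ℕ) (cs : Fin t → Fin (2 ^ d) → Bool) (x : Fin (2 * 2 ^ d)) :
    bits d (iterPos (2 ^ d) t cs x) = itP d t cs (bits d x) := by
  induction t with
  | zero => rfl
  | succ t ih => rw [iterPos, bits_step, ih, itP, Perm.mul_apply]

section Gen
variable {E : Type*} [NormedAddCommGroup E] [InnerProductSpace ℝ E] [CompleteSpace E]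
  {ρ : Perm (Pos d) →* (E →L[ℝ] E)}

lemma Op_step (hρ : Iso ρ) : ρ (rot d) * Pl ρ d = Op ρ stepP := by
  refine Op_ext ρ (fun u v => ?_)
  rw [ContinuousLinearMap.mul_apply, hρ.adj, Pl, Op_inner,
    ← exp_comp_inj (emb d) emb_inj (fun c => ⟪u, ρ (stepP c) v⟫)]
  refine expect_congr rfl (fun a _ => ?_)
  rw [← hρ.adj, rho_mul, stepP]
  congr 4
  ext p : 1
  obtain ⟨x, rfl⟩ := (bits_bij d).2 p
  apply lay_congr
  rw [sw_bits, ext', emb_inj.extend_apply]; rfl

lemma Op_iter (hρ : Iso ρ) (t : ℕ) : Op ρ stepP ^ t = Op ρ (itP d t) := by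
  induction t with
  | zero => exact Op_ext ρ (fun u v => by simp [Fintype.expect_const, itP])
  | succ t ih =>
    refine Op_ext ρ (fun u v => ?_)
    rw [pow_succ', ih, ContinuousLinearMap.mul_apply, Op_mul hρ,
      ← exp_pair (fun x : (Fin (2 ^ d) → Bool) × (Fin t → Fin (2 ^ d) → Bool) =>
        ⟪u, ρ (stepP x.1 * itP d t x.2) v⟫)]
    refine Fintype.expect_equiv (Fin.snocEquiv (fun _ => Fin (2 ^ d) → Bool)) _ _ (fun x => ?_)
    simp [itP, Fin.snocEquiv]

lemma Op_iter' (hρ : Iso ρ) (t : ℕ) : Op ρ (itP d (t * (d + 1))) = Op ρ (net d) ^ t := by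
  rw [← Op_iter hρ, ← Op_step hρ, mul_comm t, pow_mul, Q_pow hρ]; rfl

end Gen

lemma tv_eq (t : ℕ) : tvFromUniform (2 ^ d) t = 1 / 2 * ∑ g : Perm (Pos d),
    |Op lam (itP d t) (EuclideanSpace.single 1 1) g - 1 / Fintype.card (Perm (Pos d))| := by
  unfold tvFromUniform
  congr 1
  refine Fintype.sum_equiv (be d).permCongr _ _ (fun g => ?_)
  congr 2
  · have : ∀ (f : HH (Pos d)) x, f x = ⟪EuclideanSpace.single x (1 : ℝ), f⟫ := by
      intro f x; simp [EuclideanSpace.inner_single_left]
    rw [this, Op_inner, Crest.FinProb.uniformProb, Fintype.expect_eq_sum_div_card, card_filter]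
    push_cast
    congr 1
    refine sum_congr rfl (fun cs _ => ?_)
    rw [← this, lam_apply, PiLp.single_apply]
    refine if_congr ?_ rfl rfl
    rw [inv_mul_eq_one, Set.mem_setOf_eq]
    constructor
    · intro h
      ext p : 1
      obtain ⟨x, rfl⟩ := (bits_bij d).2 p
      rw [← bits_iter, h]
      exact ((be d).permCongr_apply g (be d x)).trans (by simp; rfl) |>.symm
    · intro h
      funext x
      apply (bits_bij d).1
      rw [bits_iter, h]
      exact ((be d).permCongr_apply g (be d x)).trans (by simp; rfl)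
  · rw [Fintype.card_perm, card_Pos, pow_succ']

end H4TS
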