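import Mathlib

set_option autoImplicit false
open Finset BigOperators

namespace H4TS

lemma bessel {G ι : Type*} [Fintype G] [Fintype ι] (v : ι → G → ℝ) (Γ : ℝ) (hΓ : 0 ≤ Γ)
    (hG : ∀ a, ∑ b, |∑ g, v a g * v b g| ≤ Γ) (k : G → ℝ) :
    ∑ a, (∑ g, k g * v a g) ^ 2 ≤ Γ * ∑ g, k g ^ 2 := by
  set c : ι → ℝ := fun a => ∑ g, k g * v a g with hc
  set S := ∑ a, c a ^ 2 with hS
  have hS0 : 0 ≤ S := sum_nonneg (fun _ _ => sq_nonneg _)
  have h1 : S = ∑ g, k g * ∑ a, c a * v a g := by
    simp only [mul_sum]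
    rw [sum_comm]
    refine sum_congr rfl (fun a _ => ?_)
    rw [sq]
    conv_lhs => enter [2]; rw [hc]
    rw [mul_sum]
    exact sum_congr rfl (fun g _ => by ring)
  have h2 : ∑ g, (∑ a, c a * v a g) ^ 2 ≤ Γ * S := by
    have e1 : ∑ g, (∑ a, c a * v a g) ^ 2 = ∑ a, ∑ b, c a * c b * ∑ g, v a g * v b g := by
      simp only [sq, sum_mul_sum]
      simp only [mul_sum]
      rw [sum_comm]
      refine sum_congr rfl (fun a _ => ?_)
      rw [sum_comm]
      exact sum_congr rfl (fun b _ => sum_congr rfl (fun g _ => by ring))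
    have e2 : ∀ a b, c a * c b * ∑ g, v a g * v b g ≤
        (c a ^ 2 * |∑ g, v a g * v b g| + c b ^ 2 * |∑ g, v b g * v a g|) / 2 := by
      intro a b
      have : ∑ g, v b g * v a g = ∑ g, v a g * v b g := sum_congr rfl (fun _ _ => mul_comm _ _)
      rw [this]
      generalize ∑ g, v a g * v b g = x
      rcases abs_cases x with ⟨h, h'⟩ | ⟨h, h'⟩ <;> rw [h]
      · nlinarith [mul_nonneg h' (sq_nonneg (c a - c b))]
      · nlinarith [mul_nonneg (neg_nonneg.2 h'.le) (sq_nonneg (c a + c b))]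
    have e3 : ∑ a, ∑ b, c a ^ 2 * |∑ g, v a g * v b g| ≤ Γ * S := by
      rw [hS, mul_sum]
      refine sum_le_sum (fun a _ => ?_)
      rw [← mul_sum, mul_comm Γ]
      exact mul_le_mul_of_nonneg_left (hG a) (sq_nonneg _)
    rw [e1]
    refine (sum_le_sum (fun a _ => sum_le_sum (fun b _ => e2 a b))).trans ?_
    simp only [← sum_div, sum_add_distrib]
    rw [sum_comm (f := fun a b => c b ^ 2 * |∑ g, v b g * v a g|)]
    linarith
  have h3 := sum_mul_sq_le_sq_mul_sq univ k (fun g => ∑ a, c a * v a g)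
  rw [← h1] at h3
  have hk : 0 ≤ ∑ g, k g ^ 2 := sum_nonneg (fun _ _ => sq_nonneg _)
  rcases eq_or_lt_of_le hS0 with h | h
  · rw [← h]; positivity
  · have : S * S ≤ S * (Γ * ∑ g, k g ^ 2) := by nlinarith [mul_le_mul_of_nonneg_left h2 hk]
    exact le_of_mul_le_mul_left this h

variable {α : Type*} [Fintype α] [DecidableEq α]

def kI (I : Finset α) : ℕ := #{h : Equiv.Perm α | ∀ i ∈ I, h i = i}

lemma kI_pos (I : Finset α) : 0 < kI I := card_pos.2 ⟨1, by simp⟩

lemma card_agree (I : Finset α) (g : Equiv.Perm α) :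
    #{h : Equiv.Perm α | ∀ i ∈ I, g i = h i} = kI I := by
  refine card_bij' (fun h _ => g⁻¹ * h) (fun h _ => g * h) ?_ ?_ ?_ ?_
  · intro h hh
    simp only [mem_filter, mem_univ, true_and] at hh ⊢
    intro i hi
    simp [← hh i hi]
  · intro h hh
    simp only [mem_filter, mem_univ, true_and] at hh ⊢
    intro i hi
    simp [hh i hi]
  · intro h _; simp
  · intro h _; simp

lemma card_perm_le (I : Finset α) :
    Fintype.card (Equiv.Perm α) ≤ Fintype.card α ^ #I * kI I := by
  have h := card_le_mul_card_image_of_maps_to (s := (univ : Finset (Equiv.Perm α)))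
    (t := (univ : Finset (I → α))) (f := fun h => fun i : I => h i) (fun _ _ => mem_univ _) (kI I)
    (fun b _ => by
      rcases (univ.filter (fun h : Equiv.Perm α => (fun i : I => h i) = b)).eq_empty_or_nonempty
        with h | ⟨g, hg⟩
      · rw [h]; simp
      · rw [← card_agree I g]
        apply card_le_card
        intro h hh
        simp only [mem_filter, mem_univ, true_and] at hh hg ⊢
        intro i hi
        exact congrFun (hg.trans hh.symm) ⟨i, hi⟩)
  simpa [mul_comm] using h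

section Cnt
variable {Ω : Type*} [Fintype Ω] [Nonempty Ω] (γ : Ω → Equiv.Perm α)

noncomputable def pr (T : Finset α) (h : Equiv.Perm α) : ℝ :=
  𝔼 x, if ∀ p ∈ T, γ x p = h p then 1 else 0

lemma pr_nonneg (T : Finset α) (h : Equiv.Perm α) : 0 ≤ pr γ T h :=
  expect_nonneg (fun _ _ => by split <;> norm_num)

lemma pr_congr (T : Finset α) {h h' : Equiv.Perm α} (e : ∀ p ∈ T, h p = h' p) :
    pr γ T h = pr γ T h' := by
  refine expect_congr rfl (fun x _ => if_congr ?_ rfl rfl)
  exact forall₂_congr (fun p hp => by rw [e p hp])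

lemma tail (T : Finset α) (Wt : Ω → ℝ) (hW : ∀ x, 0 < Wt x) (N : ℝ) (hN : 0 < N)
    (hA : ∀ h : Equiv.Perm α, 𝔼 x, (if ∀ p ∈ T, γ x p = h p then 1 / Wt x else 0) ≤ 1 / N)
    (F : ℝ) (hF : 𝔼 x, Wt x ^ (1 / 48 : ℝ) ≤ F) (y : ℝ) (hy : 0 < y) :
    𝔼 x, (if 2 * y ^ 48 < N * pr γ T (γ x) then (1 : ℝ) else 0) ≤ 2 * F / y := by
  have h1 : ∀ h : Equiv.Perm α, (if 2 * y ^ 48 < N * pr γ T h then (1 : ℝ) else 0) ≤
      2 * (𝔼 z, (if ∀ p ∈ T, γ z p = h p then 1 else 0) * (Wt z ^ (1 / 48 : ℝ) / y))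
        / pr γ T h := by
    intro h
    have hnn : 0 ≤ 𝔼 z, (if ∀ p ∈ T, γ z p = h p then 1 else 0) * (Wt z ^ (1 / 48 : ℝ) / y) :=
      expect_nonneg (fun z _ => mul_nonneg (by split <;> norm_num) (by have := hW z; positivity))
    split
    · rename_i hb
      have hp : 0 < pr γ T h := by
        have : 0 < N * pr γ T h := lt_trans (by positivity) hb
        exact (mul_pos_iff_of_pos_left hN).1 this
      rw [le_div_iff₀ hp, one_mul]
      have h2 : pr γ T h ≤ (𝔼 z, (if ∀ p ∈ T, γ z p = h p then 1 else 0) *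
          (Wt z ^ (1 / 48 : ℝ) / y))
          + y ^ 48 * 𝔼 x, (if ∀ p ∈ T, γ x p = h p then 1 / Wt x else 0) := by
        rw [mul_expect, ← expect_add_distrib]
        refine expect_le_expect (fun z _ => ?_)
        split
        · have hz := hW z
          rcases le_total (Wt z) (y ^ 48) with hc | hc
          · have : 1 ≤ y ^ 48 * (1 / Wt z) := by rw [mul_one_div, one_le_div hz]; exact hc
            have : 0 ≤ Wt z ^ (1 / 48 : ℝ) / y := by positivity
            linarith
          · have h3 : y ≤ Wt z ^ (1 / 48 : ℝ) := by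
              have := Real.rpow_le_rpow (by positivity) hc (by norm_num : (0 : ℝ) ≤ 1 / 48)
              rwa [← Real.rpow_natCast, ← Real.rpow_mul hy.le, show ((48 : ℕ) : ℝ) * (1 / 48) = 1 by
                norm_num, Real.rpow_one] at this
            have : 1 ≤ Wt z ^ (1 / 48 : ℝ) / y := (one_le_div hy).2 h3
            have : 0 ≤ y ^ 48 * (1 / Wt z) := by positivity
            linarith
        · simp
      have h3 : y ^ 48 * 𝔼 x, (if ∀ p ∈ T, γ x p = h p then 1 / Wt x else 0) ≤ pr γ T h / 2 := by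
        refine (mul_le_mul_of_nonneg_left (hA h) (by positivity)).trans ?_
        rw [mul_one_div, div_le_iff₀ hN]
        linarith
      linarith
    · exact div_nonneg (by positivity) (pr_nonneg γ T h)
  refine (expect_le_expect (fun x _ => h1 (γ x))).trans ?_
  simp only [mul_expect, expect_div]
  rw [expect_comm]
  calc _ ≤ 𝔼 z, 2 * Wt z ^ (1 / 48 : ℝ) / y := by
        refine expect_le_expect (fun z _ => ?_)
        have : ∀ x, 2 * ((if ∀ p ∈ T, γ z p = γ x p then 1 else 0) * (Wt z ^ (1 / 48 : ℝ) / y))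
            / pr γ T (γ x) = (2 * Wt z ^ (1 / 48 : ℝ) / y) *
              ((if ∀ p ∈ T, γ x p = γ z p then 1 else 0) / pr γ T (γ z)) := by
          intro x
          by_cases hx : ∀ p ∈ T, γ z p = γ x p
          · rw [if_pos hx, if_pos (fun p hp => (hx p hp).symm), pr_congr γ T hx]; ring
          · rw [if_neg hx, if_neg (fun h => hx (fun p hp => (h p hp).symm))]; simp
        simp only [this]
        rw [← mul_expect, ← expect_div]
        refine mul_le_of_le_one_right (by have := hW z; positivity) (div_self_le_one _)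
    _ ≤ _ := by
        rw [← expect_div, ← mul_expect]
        gcongr

theorem counting (σ : Ω ≃ Ω) (hσ : ∀ x, γ (σ x) = (γ x)⁻¹) (I : Finset α)
    (Wt : Finset α → Ω → ℝ) (hW : ∀ T x, 0 < Wt T x)
    (hA : ∀ T, #T = #I → ∀ h : Equiv.Perm α,
      𝔼 x, (if ∀ p ∈ T, γ x p = h p then 1 / Wt T x else 0) ≤ 1 / (Fintype.card α : ℝ) ^ #I)
    (F : ℝ) (hF0 : 0 < F) (hF : ∀ T, #T = #I → 𝔼 x, Wt T x ^ (1 / 48 : ℝ) ≤ F)
    {ι : Type*} [Fintype ι] (v : ι → Equiv.Perm α → ℝ)
    (hM : ∀ a g h, (∀ i ∈ I, g i = h i) → v a g = v a h) (hv : ∀ a, ∑ g, v a g ^ 2 = 1)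
    (μ : ℝ) (hμ : 0 < μ) (hq : ∀ a, μ ≤ 𝔼 x, ∑ g, v a g * v a (γ x * g))
    (Γ : ℝ) (hΓ : 0 ≤ Γ) (hG : ∀ a, ∑ b, |∑ g, v a g * v b g| ≤ Γ) [Nonempty α] :
    Fintype.card ι * μ ^ 50 ≤ 8 * 4 ^ 48 * Γ * F ^ 48 := by
  set N : ℝ := (Fintype.card α : ℝ) ^ #I with hN
  have hN0 : 0 < N := by have := Fintype.card_pos (α := α); positivity
  set y := 4 * F / μ with hy
  have hy0 : 0 < y := by positivity
  set Θ := 2 * y ^ 48 with hΘ
  have hΘ0 : 0 < Θ := by positivity
  have hk0 : (0 : ℝ) < kI I := by exact_mod_cast kI_pos I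
  set bad : Finset α → Equiv.Perm α → ℝ := fun T h => if Θ < N * pr γ T h then 1 else 0 with hbad
  have hbad0 : ∀ T h, 0 ≤ bad T h := fun T h => by simp only [hbad]; split <;> norm_num
  have htail : ∀ g : Equiv.Perm α, 𝔼 x, bad (I.map g.toEmbedding) (γ x) ≤ μ / 2 := by
    intro g
    have hc : #(I.map g.toEmbedding) = #I := card_map _
    refine (tail γ _ (Wt _) (hW _) N hN0 (hA _ hc) F (hF _ hc) y hy0).trans (le_of_eq ?_)
    rw [hy]; field_simp; norm_num
  have hsym : ∀ (g h : Equiv.Perm α), bad (I.map g.toEmbedding) h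
      = bad (I.map (h * g).toEmbedding) h⁻¹ := by
    intro g h
    have : pr γ (I.map g.toEmbedding) h = pr γ (I.map (h * g).toEmbedding) h⁻¹ := by
      refine Fintype.expect_equiv σ _ _ (fun x => if_congr ?_ rfl rfl)
      simp only [hσ, mem_map, Equiv.coe_toEmbedding, forall_exists_index, and_imp,
        forall_apply_eq_imp_iff₂]
      refine forall₂_congr (fun i _ => ?_)
      rw [Equiv.Perm.inv_eq_iff_eq]
      simp [eq_comm]
    simp only [hbad, this]
  set k : Equiv.Perm α → Equiv.Perm α → ℝ := fun g h =>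
    (1 - bad (I.map g.toEmbedding) (h * g⁻¹)) * pr γ (I.map g.toEmbedding) (h * g⁻¹) / kI I with hk
  have hkf : ∀ (g : Equiv.Perm α) (f : Equiv.Perm α → ℝ),
      (∀ g h, (∀ i ∈ I, g i = h i) → f g = f h) →
      ∑ h, k g h * f h = 𝔼 x, (1 - bad (I.map g.toEmbedding) (γ x)) * f (γ x * g) := by
    intro g f hf
    simp only [hk, pr, mul_expect, expect_div, expect_mul]
    rw [← expect_sum_comm]
    refine expect_congr rfl (fun x _ => ?_)
    have : ∀ h : Equiv.Perm α, (1 - bad (I.map g.toEmbedding) (h * g⁻¹)) *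
        (if ∀ p ∈ I.map g.toEmbedding, γ x p = (h * g⁻¹) p then 1 else 0) / kI I * f h
        = if ∀ i ∈ I, (γ x * g) i = h i then
          (1 - bad (I.map g.toEmbedding) (γ x)) * f (γ x * g) / kI I else 0 := by
      intro h
      have e : (∀ p ∈ I.map g.toEmbedding, γ x p = (h * g⁻¹) p) ↔ ∀ i ∈ I, (γ x * g) i = h i := by
        simp only [mem_map, Equiv.coe_toEmbedding, forall_exists_index, and_imp,
          forall_apply_eq_imp_iff₂]
        simp
      by_cases hx : ∀ i ∈ I, (γ x * g) i = h i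
      · rw [if_pos hx, if_pos (e.2 hx), hf _ _ hx]
        simp only [hbad]
        rw [pr_congr γ _ (e.2 hx)]; ring
      · rw [if_neg hx, if_neg (fun h => hx (e.1 h))]; simp
    rw [sum_congr rfl (fun h _ => this h), ← sum_filter, sum_const, card_agree, nsmul_eq_mul]
    field_simp
  have hk2 : ∀ g, ∑ h, k g h ^ 2 ≤ Θ / (N * kI I) := by
    intro g
    have e1 : ∑ h, k g h * 1 ≤ 1 := by
      rw [hkf g (fun _ => 1) (fun _ _ _ => rfl)]
      exact expect_le univ_nonempty (fun x _ => by have := hbad0 (I.map g.toEmbedding) (γ x); linarith)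
    have e2 : ∀ h, k g h ^ 2 ≤ Θ / (N * kI I) * (k g h * 1) := by
      intro h
      have hp := pr_nonneg γ (I.map g.toEmbedding) (h * g⁻¹)
      simp only [hk, hbad]
      split
      · simp
      · rename_i hb
        push Not at hb
        rw [sq, mul_one]
        refine mul_le_mul_of_nonneg_right ?_ (by simp; positivity)
        rw [sub_zero, one_mul, div_le_div_iff₀ hk0 (by positivity)]
        nlinarith [mul_le_mul_of_nonneg_right hb hk0.le]
    refine (sum_le_sum (fun h _ => e2 h)).trans ?_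
    rw [← mul_sum]
    exact mul_le_of_le_one_right (by positivity) e1
  have hlow : ∀ a, (μ / 2) ^ 2 ≤ ∑ g, (∑ h, k g h * v a h) ^ 2 := by
    intro a
    have e1 : ∑ g, v a g * ∑ h, k g h * v a h = (𝔼 x, ∑ g, v a g * v a (γ x * g))
        - 𝔼 x, ∑ g, bad (I.map g.toEmbedding) (γ x) * (v a g * v a (γ x * g)) := by
      simp only [hkf _ _ (hM a), mul_expect]
      rw [← expect_sum_comm, ← expect_sub_distrib]
      refine expect_congr rfl (fun x _ => ?_)
      rw [← sum_sub_distrib]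
      exact sum_congr rfl (fun g _ => by ring)
    have e0 : 𝔼 x, ∑ g, bad (I.map g.toEmbedding) (γ x) * v a g ^ 2 ≤ μ / 2 := by
      rw [expect_sum_comm]
      simp only [← expect_mul]
      refine (sum_le_sum (fun g _ => mul_le_mul_of_nonneg_right (htail g) (sq_nonneg _))).trans ?_
      rw [← mul_sum, hv a, mul_one]
    have e3 : 𝔼 x, ∑ g, bad (I.map g.toEmbedding) (γ x) * v a (γ x * g) ^ 2
        = 𝔼 x, ∑ g, bad (I.map g.toEmbedding) (γ x) * v a g ^ 2 := by
      refine Fintype.expect_equiv σ _ _ (fun x => ?_)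
      refine Fintype.sum_equiv (Equiv.mulLeft (γ x)) _ _ (fun g => ?_)
      rw [hsym, hσ]; rfl
    have e2 : 𝔼 x, ∑ g, bad (I.map g.toEmbedding) (γ x) * (v a g * v a (γ x * g)) ≤ μ / 2 := by
      calc _ ≤ 𝔼 x, (∑ g, bad (I.map g.toEmbedding) (γ x) * v a g ^ 2
            + ∑ g, bad (I.map g.toEmbedding) (γ x) * v a (γ x * g) ^ 2) / 2 := by
            refine expect_le_expect (fun x _ => ?_)
            rw [← sum_add_distrib, sum_div]
            refine sum_le_sum (fun g _ => ?_)
            nlinarith [mul_nonneg (hbad0 (I.map g.toEmbedding) (γ x))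
              (sq_nonneg (v a g - v a (γ x * g)))]
        _ ≤ _ := by rw [← expect_div, expect_add_distrib, e3]; linarith
    have e4 := sum_mul_sq_le_sq_mul_sq univ (v a) (fun g => ∑ h, k g h * v a h)
    rw [hv a, one_mul] at e4
    refine le_trans ?_ e4
    have := hq a
    gcongr
    linarith
  have hfin : Fintype.card ι * (μ / 2) ^ 2 ≤ Γ * Θ := by
    calc Fintype.card ι * (μ / 2) ^ 2 = ∑ _a : ι, (μ / 2) ^ 2 := by simp
      _ ≤ ∑ a, ∑ g, (∑ h, k g h * v a h) ^ 2 := sum_le_sum (fun a _ => hlow a)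
      _ ≤ ∑ _g : Equiv.Perm α, Γ * (Θ / (N * kI I)) := by
          rw [sum_comm]
          exact sum_le_sum (fun g _ => (bessel v Γ hΓ hG (k g)).trans
            (mul_le_mul_of_nonneg_left (hk2 g) hΓ))
      _ ≤ Γ * Θ := by
          rw [sum_const, card_univ, nsmul_eq_mul, mul_left_comm]
          refine mul_le_mul_of_nonneg_left ?_ hΓ
          have : (Fintype.card (Equiv.Perm α) : ℝ) ≤ N * kI I := by
            rw [hN]; exact_mod_cast card_perm_le I
          rw [mul_div_assoc', div_le_iff₀ (by positivity), mul_comm]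
          gcongr
  have := mul_le_mul_of_nonneg_right hfin (by positivity : 0 ≤ 4 * μ ^ 48)
  calc _ = Fintype.card ι * (μ / 2) ^ 2 * (4 * μ ^ 48) := by ring
    _ ≤ _ := this
    _ = _ := by rw [hΘ, hy]; field_simp; ring

end Cnt
end H4TS
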