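import Mathlib

set_option autoImplicit false
open Finset BigOperators

namespace H4TS

section Cyc
variable {X S : Type*} [Fintype X] [DecidableEq X] [Fintype S] [DecidableEq S]

def mt (P : X → Finset S) (p q : X) : ℕ := if p = q then 0 else #(P p ∩ P q)

structure PathSys (π : (S → Bool) → Equiv.Perm X) (Path : (S → Bool) → X → Finset S) (i : ℕ) :
    Prop where
  p1 : ∀ ω ω' p, (∀ s ∈ Path ω p, ω s = ω' s) → π ω' p = π ω p ∧ Path ω' p = Path ω p
  p2 : ∀ ω ω' p, π ω p = π ω' p → Path ω p = Path ω' p ∧ ∀ s ∈ Path ω p, ω s = ω' s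
  p3 : ∀ ω p, #(Path ω p) = i
  p4 : ∀ ω p, ∑ q, mt (Path ω) p q ≤ i
  p5 : ∀ ω (γ : Finset X),
    ((∑ p ∈ γ, ∑ q ∈ γ, mt (Path ω) p q : ℕ) : ℝ) ≤ #γ * Real.logb 2 #γ

def ncl (σ : Equiv.Perm X) (R : Finset X) : ℕ := #{J ∈ R.powerset | ∀ p ∈ J, σ p ∈ J}

def Cl (σ : Equiv.Perm X) (lam : X → ℕ) : Finset X :=
  (univ.filter (fun s => lam s ≠ 0)).image (fun s => (σ ^ (lam s - 1)) s)

def Non (σ : Equiv.Perm X) (lam : X → ℕ) : Finset X :=
  univ.biUnion (fun s => (range (lam s - 1)).image (fun a => (σ ^ a) s))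

def Fs (σ : Equiv.Perm X) (P : X → Finset S) (lam : X → ℕ) : Finset S :=
  (Cl σ lam).biUnion P \ (Non σ lam).biUnion P

def Valid (σ : Equiv.Perm X) (lam : X → ℕ) : Prop := ∀ s, (σ ^ lam s) s = s

instance (σ : Equiv.Perm X) (lam : X → ℕ) : Decidable (Valid σ lam) := by
  unfold Valid; infer_instance

variable {π : (S → Bool) → Equiv.Perm X} {Path : (S → Bool) → X → Finset S} {i : ℕ}

lemma traj (h : PathSys π Path i) (ω ω' : S → Bool) (lam : X → ℕ)
    (hag : ∀ t ∈ (Non (π ω) lam).biUnion (Path ω), ω t = ω' t) (s : X) (a : ℕ)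
    (ha : a ≤ lam s - 1) : (π ω' ^ a) s = (π ω ^ a) s := by
  induction a with
  | zero => simp
  | succ a ih =>
    rw [pow_succ', pow_succ', Equiv.Perm.mul_apply, Equiv.Perm.mul_apply, ih (by omega)]
    refine (h.p1 ω ω' _ (fun t ht => hag t ?_)).1
    simp only [Non, mem_biUnion, mem_univ, true_and, mem_image, mem_range]
    exact ⟨_, ⟨s, a, by omega, rfl⟩, ht⟩

lemma traj_path (h : PathSys π Path i) (ω ω' : S → Bool) (lam : X → ℕ)
    (hag : ∀ t ∈ (Non (π ω) lam).biUnion (Path ω), ω t = ω' t) (p : X)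
    (hp : p ∈ Non (π ω) lam) : Path ω' p = Path ω p :=
  (h.p1 ω ω' _ (fun t ht => hag t (mem_biUnion.2 ⟨p, hp, ht⟩))).2

lemma non_eq (h : PathSys π Path i) (ω ω' : S → Bool) (lam : X → ℕ)
    (hag : ∀ t ∈ (Non (π ω) lam).biUnion (Path ω), ω t = ω' t) :
    Non (π ω') lam = Non (π ω) lam ∧ Cl (π ω') lam = Cl (π ω) lam := by
  constructor
  · unfold Non
    refine biUnion_congr rfl (fun s _ => image_congr (fun a ha => ?_))
    exact traj h ω ω' lam hag s a (by simp at ha; omega)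
  · unfold Cl
    exact image_congr (fun s _ => traj h ω ω' lam hag s _ le_rfl)

lemma sum_valid_le (h : PathSys π Path i) (lam : X → ℕ) :
    ∑ ω : S → Bool, (if Valid (π ω) lam then 2 ^ #(Fs (π ω) (Path ω) lam) else 0)
      ≤ Fintype.card (S → Bool) := by
  rw [← Finset.sum_filter]
  have hc : ∑ ω ∈ univ.filter (fun ω => Valid (π ω) lam), 2 ^ #(Fs (π ω) (Path ω) lam)
      = #((univ.filter (fun ω => Valid (π ω) lam)).sigma
          (fun ω => (Fs (π ω) (Path ω) lam).powerset)) := by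
    rw [card_sigma]; simp
  rw [hc, ← Finset.card_univ]
  apply Finset.card_le_card_of_injOn (fun x => fun t => xor (x.1 t) (decide (t ∈ x.2)))
  · intro x _; simp
  · rintro ⟨ω1, η1⟩ h1 ⟨ω2, η2⟩ h2 heq
    simp only [coe_sigma, coe_filter, mem_univ, true_and, Set.mem_sigma_iff, Set.mem_setOf_eq,
      coe_powerset, Set.mem_preimage, Set.mem_powerset_iff, coe_subset] at h1 h2
    obtain ⟨v1, s1⟩ := h1
    obtain ⟨v2, s2⟩ := h2
    set ω' : S → Bool := fun t => xor (ω1 t) (decide (t ∈ η1)) with hω'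
    have hω2 : ω' = fun t => xor (ω2 t) (decide (t ∈ η2)) := heq
    have a1 : ∀ t ∈ (Non (π ω1) lam).biUnion (Path ω1), ω1 t = ω' t := by
      intro t ht
      have : t ∉ η1 := fun h' => (mem_sdiff.1 (s1 h')).2 ht
      simp [hω', this]
    have a2 : ∀ t ∈ (Non (π ω2) lam).biUnion (Path ω2), ω2 t = ω' t := by
      intro t ht
      have : t ∉ η2 := fun h' => (mem_sdiff.1 (s2 h')).2 ht
      simp [hω2, this]
    obtain ⟨n1, c1⟩ := non_eq h ω1 ω' lam a1
    obtain ⟨n2, c2⟩ := non_eq h ω2 ω' lam a2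
    have hcl : ∀ p ∈ Cl (π ω1) lam, Path ω1 p = Path ω2 p ∧ ∀ s ∈ Path ω1 p, ω1 s = ω2 s := by
      intro p hp
      apply h.p2
      simp only [Cl, mem_image, mem_filter, mem_univ, true_and] at hp
      obtain ⟨s, hs, rfl⟩ := hp
      have e1 : π ω1 ((π ω1 ^ (lam s - 1)) s) = s := by
        rw [← Equiv.Perm.mul_apply, ← pow_succ', Nat.sub_add_cancel (by omega)]; exact v1 s
      have e2 : π ω2 ((π ω2 ^ (lam s - 1)) s) = s := by
        rw [← Equiv.Perm.mul_apply, ← pow_succ', Nat.sub_add_cancel (by omega)]; exact v2 s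
      rw [e1, ← traj h ω1 ω' lam a1 s _ le_rfl, traj h ω2 ω' lam a2 s _ le_rfl, e2]
    have hF : Fs (π ω1) (Path ω1) lam = Fs (π ω2) (Path ω2) lam := by
      unfold Fs
      congr 1
      · rw [← c2, c1]
        exact biUnion_congr rfl (fun p hp => (hcl p hp).1)
      · refine biUnion_congr (by rw [← n2, n1]) (fun p hp => ?_)
        rw [← traj_path h ω1 ω' lam a1 p hp, traj_path h ω2 ω' lam a2 p (by rwa [← n2, n1])]
    have hω : ω1 = ω2 := by
      funext t
      by_cases ht : t ∈ Fs (π ω1) (Path ω1) lam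
      · obtain ⟨p, hp, htp⟩ := mem_biUnion.1 (mem_sdiff.1 ht).1
        exact (hcl p hp).2 t htp
      · have e1 : t ∉ η1 := fun h' => ht (s1 h')
        have e2 : t ∉ η2 := fun h' => ht (hF ▸ s2 h')
        have := congrFun hω2 t
        simpa [hω', e1, e2] using this
    subst hω
    have : η1 = η2 := by
      ext t
      have := congrFun hω2 t
      simp only [hω', Bool.xor_right_inj, decide_eq_decide] at this
      exact this
    subst this
    rfl

lemma select {A : Type*} [DecidableEq A] (θ : ℝ) (h0 : 0 ≤ θ) (h1 : θ ≤ 1) (q : A → A → ℝ)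
    (N : Finset A) (a : A → ℝ) : ∃ T ⊆ N, θ * ∑ x ∈ N, a x - θ ^ 2 * ∑ x ∈ N, ∑ y ∈ N.erase x, q x y
      ≤ ∑ x ∈ T, a x - ∑ x ∈ T, ∑ y ∈ T.erase x, q x y := by
  have key : ∀ (N : Finset A) (z : A), z ∉ N → ∑ x ∈ insert z N, ∑ y ∈ (insert z N).erase x, q x y
      = ∑ x ∈ N, ∑ y ∈ N.erase x, q x y + ∑ x ∈ N, (q z x + q x z) := by
    intro N z hz
    rw [sum_insert hz, erase_insert hz, sum_add_distrib]
    have : ∀ x ∈ N, ∑ y ∈ (insert z N).erase x, q x y = q x z + ∑ y ∈ N.erase x, q x y := by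
      intro x hx
      have hne : z ≠ x := fun h => hz (h ▸ hx)
      rw [erase_insert_of_ne hne, sum_insert (fun h => hz (mem_of_mem_erase h))]
    rw [sum_congr rfl this, sum_add_distrib]
    ring
  induction N using Finset.induction_on generalizing a with
  | empty => exact ⟨∅, by simp, by simp⟩
  | insert z N hz ih =>
    obtain ⟨T1, hT1, h1'⟩ := ih a
    obtain ⟨T2, hT2, h2'⟩ := ih (fun x => a x - (q z x + q x z))
    have hzT : z ∉ T2 := fun h => hz (hT2 h)
    rw [key N z hz, sum_insert hz]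
    simp only [sum_sub_distrib] at h2'
    by_contra hcon
    push Not at hcon
    have c1 := hcon T1 (hT1.trans (subset_insert _ _))
    have c2 := hcon (insert z T2) (insert_subset_insert _ hT2)
    rw [key T2 z hzT, sum_insert hzT] at c2
    have : 0 ≤ 1 - θ := by linarith
    rcases eq_or_lt_of_le h0 with h | h
    · subst h; simp at c1 h1'; linarith
    · nlinarith [mul_lt_mul_of_pos_left c2 h, mul_le_mul_of_nonneg_left c1.le this,
        mul_le_mul_of_nonneg_left h1' this, mul_le_mul_of_nonneg_left h2' h0]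

def orb (σ : Equiv.Perm X) (p : X) : Finset X := univ.filter (fun q => σ.SameCycle p q)

lemma mem_orb {σ : Equiv.Perm X} {p q : X} : q ∈ orb σ p ↔ σ.SameCycle p q := by simp [orb]

lemma orb_eq {σ : Equiv.Perm X} {p q : X} (h : q ∈ orb σ p) : orb σ q = orb σ p := by
  ext r
  rw [mem_orb] at h
  simp only [mem_orb]
  exact ⟨fun h' => h.trans h', fun h' => h.symm.trans h'⟩

def orbs (σ : Equiv.Perm X) (R : Finset X) : Finset (Finset X) :=
  (R.filter (fun p => orb σ p ⊆ R)).image (orb σ)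

lemma orbs_spec {σ : Equiv.Perm X} {R : Finset X} {γ : Finset X} (h : γ ∈ orbs σ R) :
    γ ⊆ R ∧ γ.Nonempty ∧ ∀ q ∈ γ, orb σ q = γ := by
  simp only [orbs, mem_image, mem_filter] at h
  obtain ⟨p, ⟨_, h2⟩, rfl⟩ := h
  exact ⟨h2, ⟨p, mem_orb.2 (Equiv.Perm.SameCycle.refl _ _)⟩, fun q hq => orb_eq hq⟩

lemma orbs_disj {σ : Equiv.Perm X} {R : Finset X} :
    ((orbs σ R : Finset (Finset X)) : Set (Finset X)).PairwiseDisjoint id := by
  intro γ h γ' h' hne
  rw [Function.onFun, Finset.disjoint_left]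
  intro q hq hq'
  exact hne (((orbs_spec h).2.2 q hq).symm.trans ((orbs_spec h').2.2 q hq'))

lemma orb_subset {σ : Equiv.Perm X} {J : Finset X} (hJ : ∀ p ∈ J, σ p ∈ J) {p : X} (hp : p ∈ J) :
    orb σ p ⊆ J := by
  intro q hq
  obtain ⟨n, rfl⟩ := (mem_orb.1 hq).exists_nat_pow_eq
  clear hq
  induction n with
  | zero => simpa
  | succ n ih => rw [pow_succ', Equiv.Perm.mul_apply]; exact hJ _ ih

lemma ncl_le (σ : Equiv.Perm X) (R : Finset X) : ncl σ R ≤ 2 ^ #(orbs σ R) := by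
  rw [← card_powerset]
  apply Finset.card_le_card_of_injOn (fun J => (orbs σ R).filter (· ⊆ J))
  · intro J _; exact mem_coe.2 (mem_powerset.2 (filter_subset _ _))
  · have key : ∀ J J' : Finset X, J ⊆ R → (∀ p ∈ J, σ p ∈ J) →
        (orbs σ R).filter (· ⊆ J) = (orbs σ R).filter (· ⊆ J') → J ⊆ J' := by
      intro J J' h1 h2 h3 p hp
      have h4 := orb_subset h2 hp
      have : orb σ p ∈ (orbs σ R).filter (· ⊆ J) := by
        simp only [orbs, mem_filter, mem_image]
        exact ⟨⟨p, ⟨h1 hp, h4.trans h1⟩, rfl⟩, h4⟩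
      rw [h3] at this
      exact (mem_filter.1 this).2 (mem_orb.2 (Equiv.Perm.SameCycle.refl _ _))
    intro J hJ J' hJ' h
    simp only [coe_filter, mem_powerset, Set.mem_setOf_eq] at hJ hJ'
    exact subset_antisymm (key J J' hJ.1 hJ.2 h) (key J' J hJ'.1 hJ'.2 h.symm)

lemma card_long_le (σ : Equiv.Perm X) (R : Finset X) (L : ℕ) :
    #((orbs σ R).filter (fun γ => ¬ #γ ≤ L)) * L ≤ #R := by
  calc #((orbs σ R).filter (fun γ => ¬ #γ ≤ L)) * L
      = ∑ _γ ∈ (orbs σ R).filter (fun γ => ¬ #γ ≤ L), L := by simp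
    _ ≤ ∑ γ ∈ (orbs σ R).filter (fun γ => ¬ #γ ≤ L), #γ :=
        sum_le_sum (fun γ h => by have := (mem_filter.1 h).2; omega)
    _ ≤ ∑ γ ∈ orbs σ R, #(id γ) := sum_le_sum_of_subset (filter_subset _ _)
    _ = #((orbs σ R).biUnion id) := (card_biUnion orbs_disj).symm
    _ ≤ #R := card_le_card (biUnion_subset.2 (fun γ h => (orbs_spec h).1))

lemma period_le (σ : Equiv.Perm X) (s : X) : Function.minimalPeriod σ s ≤ #(orb σ s) := by
  rw [← card_range (Function.minimalPeriod σ s)]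
  apply Finset.card_le_card_of_injOn (fun a => (⇑σ)^[a] s)
  · intro a _
    simp only [mem_coe, mem_orb, Equiv.Perm.iterate_eq_pow, Equiv.Perm.sameCycle_pow_right]
    exact Equiv.Perm.SameCycle.refl _ _
  · rw [coe_range]; exact Function.iterate_injOn_Iio_minimalPeriod

lemma exists_good (h : PathSys π Path i) (ω : S → Bool) (R : Finset X) (e : ℕ) (hi : i = 8 * e) :
    ∃ lam : X → ℕ, (∀ s, lam s ≤ 2 ^ e) ∧ (∀ s, s ∉ R → lam s = 0) ∧ Valid (π ω) lam ∧
      (3 * e / 4 : ℝ) * #((orbs (π ω) R).filter (fun γ => #γ ≤ 2 ^ e))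
        ≤ #(Fs (π ω) (Path ω) lam) - 2 * e * #(univ.filter (fun s => lam s ≠ 0)) := by
  classical
  set σ := π ω with hσ
  set P := Path ω with hP
  set N := (orbs σ R).filter (fun γ => #γ ≤ 2 ^ e) with hN
  rcases isEmpty_or_nonempty X with hX | hX
  · refine ⟨fun _ => 0, by simp, by simp, fun s => by simp, ?_⟩
    have : N = ∅ := by
      rw [eq_empty_iff_forall_notMem]
      intro γ hγ
      obtain ⟨x, _⟩ := (orbs_spec (mem_filter.1 hγ).1).2.1
      exact hX.elim x
    simp [this]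
  have hc : ∀ γ : Finset X, ∃ c : X, γ ∈ N → c ∈ γ ∧ ((∑ q ∈ γ, mt P c q : ℕ) : ℝ) ≤ e := by
    intro γ
    by_cases hγ : γ ∈ N
    · have hne := (orbs_spec (mem_filter.1 hγ).1).2.1
      have hL := (mem_filter.1 hγ).2
      have h5 := h.p5 ω γ
      have hlog : Real.logb 2 #γ ≤ e := by
        have hpos : (0 : ℝ) < #γ := by exact_mod_cast hne.card_pos
        rw [Real.logb_le_iff_le_rpow (by norm_num) hpos, Real.rpow_natCast]
        exact_mod_cast hL
      have : ∑ p ∈ γ, ((∑ q ∈ γ, mt P p q : ℕ) : ℝ) ≤ ∑ _p ∈ γ, (e : ℝ) := by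
        rw [← Nat.cast_sum, sum_const, nsmul_eq_mul]
        exact h5.trans (mul_le_mul_of_nonneg_left hlog (by positivity))
      obtain ⟨c, hc1, hc2⟩ := exists_le_of_sum_le hne this
      exact ⟨c, fun _ => ⟨hc1, hc2⟩⟩
    · exact ⟨Classical.arbitrary X, fun h => absurd h hγ⟩
  choose c hc using hc
  set q : Finset X → Finset X → ℝ := fun γ γ' => ((∑ p ∈ γ', mt P (c γ) p : ℕ) : ℝ) with hq
  obtain ⟨T, hT, hsel⟩ := select (1 / 4) (by norm_num) (by norm_num) q N (fun _ => 5 * e)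
  have hNo : N ⊆ orbs σ R := filter_subset _ _
  have hdisj : ∀ M ⊆ N, (M : Set (Finset X)).PairwiseDisjoint id := fun M hM =>
    orbs_disj.subset (coe_subset.2 (hM.trans hNo))
  have hq8 : ∀ γ ∈ N, ∑ γ' ∈ N.erase γ, q γ γ' ≤ 8 * e := by
    intro γ _
    simp only [hq]
    rw [← Nat.cast_sum]
    have := sum_biUnion (f := fun p => mt P (c γ) p) (hdisj _ (erase_subset γ N))
    simp only [id] at this
    rw [← this]
    have h2 := (sum_le_sum_of_subset (f := fun p => mt P (c γ) p)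
      (subset_univ ((N.erase γ).biUnion id))).trans (h.p4 ω (c γ))
    rw [hi] at h2
    exact_mod_cast h2
  have hsum8 : ∑ γ ∈ N, ∑ γ' ∈ N.erase γ, q γ γ' ≤ #N * (8 * e) := by
    have := sum_le_card_nsmul N _ _ hq8
    rwa [nsmul_eq_mul] at this
  simp only [sum_const, nsmul_eq_mul] at hsel
  set St := T.image (fun γ => σ (c γ)) with hSt
  set lam : X → ℕ := fun s => if s ∈ St then Function.minimalPeriod σ s else 0 with hlam
  have hper : ∀ s, 0 < Function.minimalPeriod σ s := fun s =>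
    Function.minimalPeriod_pos_of_mem_periodicPts (σ.injective.mem_periodicPts s)
  have hcm : ∀ γ ∈ T, c γ ∈ γ := fun γ hγ => (hc γ (hT hγ)).1
  have horb : ∀ γ ∈ T, orb σ (c γ) = γ := fun γ hγ =>
    (orbs_spec (hNo (hT hγ))).2.2 _ (hcm γ hγ)
  have hsc : ∀ γ ∈ T, ∀ a : ℕ, (σ ^ a) (σ (c γ)) ∈ γ := by
    intro γ hγ a
    rw [← horb γ hγ, mem_orb, horb γ hγ, Equiv.Perm.sameCycle_pow_right,
      Equiv.Perm.sameCycle_apply_right]
  have hvalid : Valid σ lam := by
    intro s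
    by_cases hs : s ∈ St
    · simp only [hlam, hs, if_true]
      exact Function.iterate_minimalPeriod
    · simp [hlam, hs]
  refine ⟨lam, ?_, ?_, hvalid, ?_⟩
  · intro s
    by_cases hs : s ∈ St
    · simp only [hlam, hs, if_true]
      obtain ⟨γ, hγ, rfl⟩ := mem_image.1 hs
      refine (period_le σ _).trans ?_
      have : σ (c γ) ∈ γ := by simpa using hsc γ hγ 0
      rw [(orbs_spec (hNo (hT hγ))).2.2 _ this]
      exact (mem_filter.1 (hT hγ)).2
    · simp [hlam, hs]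
  · intro s hs
    have : s ∉ St := by
      intro h'
      obtain ⟨γ, hγ, rfl⟩ := mem_image.1 h'
      have : σ (c γ) ∈ γ := by simpa using hsc γ hγ 0
      exact hs ((orbs_spec (hNo (hT hγ))).1 this)
    simp [hlam, this]
  have hsupp : #(univ.filter (fun s => lam s ≠ 0)) ≤ #T := by
    refine le_trans (card_le_card ?_) (card_image_le (f := fun γ => σ (c γ)))
    intro s hs
    by_contra h'
    have := (mem_filter.1 hs).2
    exact this (by simp only [hlam]; rw [if_neg h'])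
  set U := T.biUnion id with hU
  set G : Finset X → Finset S := fun γ => P (c γ) \ (U.erase (c γ)).biUnion P with hG
  have hGF : ∀ γ ∈ T, G γ ⊆ Fs σ P lam := by
    intro γ hγ t ht
    obtain ⟨t1, t2⟩ := mem_sdiff.1 ht
    have hs : σ (c γ) ∈ St := mem_image_of_mem _ hγ
    have hl : lam (σ (c γ)) = Function.minimalPeriod σ (σ (c γ)) := by simp only [hlam, hs, if_true]
    refine mem_sdiff.2 ⟨mem_biUnion.2 ⟨c γ, ?_, t1⟩, fun h' => t2 ?_⟩
    · simp only [Cl, mem_image, mem_filter, mem_univ, true_and]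
      refine ⟨σ (c γ), by rw [hl]; exact (hper _).ne', σ.injective ?_⟩
      rw [← Equiv.Perm.mul_apply, ← pow_succ', Nat.sub_add_cancel (by rw [hl]; exact hper _)]
      exact hvalid _
    · obtain ⟨p, hp, htp⟩ := mem_biUnion.1 h'
      refine mem_biUnion.2 ⟨p, ?_, htp⟩
      simp only [Non, mem_biUnion, mem_univ, true_and, mem_image, mem_range] at hp
      obtain ⟨s, a, ha, rfl⟩ := hp
      have hs' : s ∈ St := by
        by_contra h''
        simp [hlam, h''] at ha
      obtain ⟨γ', hγ', rfl⟩ := mem_image.1 hs'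
      refine mem_erase.2 ⟨fun heq => ?_, mem_biUnion.2 ⟨γ', hγ', hsc γ' hγ' a⟩⟩
      have hgg : γ = γ' := by
        rw [← horb γ hγ, ← heq]
        exact (orbs_spec (hNo (hT hγ'))).2.2 _ (hsc γ' hγ' a)
      subst hgg
      have : Function.IsPeriodicPt σ (a + 1) (σ (c γ)) := by
        show (σ ^ (a + 1)) (σ (c γ)) = σ (c γ)
        rw [pow_succ', Equiv.Perm.mul_apply, heq]
      have := this.minimalPeriod_le (by omega)
      omega
  have hGd : (T : Set (Finset X)).PairwiseDisjoint G := by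
    intro γ hγ γ' hγ' hne
    rw [Function.onFun, Finset.disjoint_left]
    intro t ht ht'
    refine (mem_sdiff.1 ht).2 (mem_biUnion.2 ⟨c γ', mem_erase.2 ⟨fun heq => hne ?_,
      mem_biUnion.2 ⟨γ', hγ', hcm γ' hγ'⟩⟩, (mem_sdiff.1 ht').1⟩)
    rw [← horb γ hγ, ← heq, horb γ' hγ']
  have hGc : ∀ γ ∈ T, (7 * e : ℝ) - ∑ γ' ∈ T.erase γ, q γ γ' ≤ #(G γ) := by
    intro γ hγ
    have e1 : #(G γ) + #(P (c γ) ∩ (U.erase (c γ)).biUnion P) = 8 * e := by
      rw [card_sdiff_add_card_inter, ← hi]; exact h.p3 ω _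
    have e2 : #(P (c γ) ∩ (U.erase (c γ)).biUnion P) ≤ ∑ p ∈ U, mt P (c γ) p := by
      rw [inter_biUnion]
      refine card_biUnion_le.trans ?_
      refine le_trans (le_of_eq (sum_congr rfl (fun p hp => ?_)))
        (sum_le_sum_of_subset (erase_subset (c γ) U))
      rw [mt, if_neg (mem_erase.1 hp).1.symm]
    have e3 : ∑ p ∈ U, mt P (c γ) p = ∑ γ' ∈ T, ∑ p ∈ γ', mt P (c γ) p :=
      sum_biUnion (hdisj T hT)
    have e4 : ((∑ γ' ∈ T, ∑ p ∈ γ', mt P (c γ) p : ℕ) : ℝ)
        = q γ γ + ∑ γ' ∈ T.erase γ, q γ γ' := by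
      rw [add_sum_erase T (q γ) hγ, Nat.cast_sum]
    have e5 : q γ γ ≤ e := (hc γ (hT hγ)).2
    have e6 : ((#(G γ) : ℕ) : ℝ) + ((∑ γ' ∈ T, ∑ p ∈ γ', mt P (c γ) p : ℕ) : ℝ) ≥ 8 * e := by
      have : 8 * e ≤ #(G γ) + ∑ γ' ∈ T, ∑ p ∈ γ', mt P (c γ) p := by omega
      exact_mod_cast this
    linarith
  have hF : (#T * (7 * e) : ℝ) - ∑ γ ∈ T, ∑ γ' ∈ T.erase γ, q γ γ' ≤ #(Fs σ P lam) := by
    have e1 := sum_le_sum hGc
    rw [sum_sub_distrib, sum_const, nsmul_eq_mul, ← Nat.cast_sum, ← card_biUnion hGd] at e1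
    refine e1.trans ?_
    exact_mod_cast card_le_card (biUnion_subset.2 hGF)
  have hsupp' : ((#(univ.filter (fun s => lam s ≠ 0)) : ℕ) : ℝ) ≤ #T := by exact_mod_cast hsupp
  have he : (0 : ℝ) ≤ e := by positivity
  nlinarith [mul_le_mul_of_nonneg_left hsupp' he]

theorem cyc_bound (h : PathSys π Path i) (R : Finset X) (e : ℕ) (hi : i = 8 * e) :
    𝔼 ω, (ncl (π ω) R : ℝ) ^ (2 * e / 3 : ℝ) ≤ Real.exp (#R * ((1 + e / 2) / 2 ^ e)) := by
  classical
  set wt : ℕ → ℝ := fun a => if a = 0 then 1 else ((2 : ℝ) ^ (2 * e))⁻¹ with hwt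
  set A : Finset (X → ℕ) := Fintype.piFinset (fun s => if s ∈ R then range (2 ^ e + 1) else {0})
    with hA
  set Y : (S → Bool) → ℝ := fun ω => ∑ lam ∈ A, (∏ s, wt (lam s)) *
    ((if Valid (π ω) lam then 2 ^ #(Fs (π ω) (Path ω) lam) else 0 : ℕ) : ℝ) with hY
  have hwt0 : ∀ a, 0 ≤ wt a := fun a => by simp only [hwt]; split <;> positivity
  have hEY : 𝔼 ω, Y ω ≤ Real.exp (#R * (1 / 2 ^ e)) := by
    simp only [hY]
    rw [Finset.expect_sum_comm]
    calc _ ≤ ∑ lam ∈ A, ∏ s, wt (lam s) := by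
          refine sum_le_sum (fun lam _ => ?_)
          rw [← Finset.mul_expect]
          refine mul_le_of_le_one_right (prod_nonneg (fun _ _ => hwt0 _)) ?_
          rw [Fintype.expect_eq_sum_div_card, div_le_one (by exact_mod_cast Fintype.card_pos),
            ← Nat.cast_sum]
          exact_mod_cast sum_valid_le h lam
      _ = ∏ s, ∑ a ∈ (if s ∈ R then range (2 ^ e + 1) else {0}), wt a := by
          rw [hA, Finset.prod_univ_sum]
      _ ≤ ∏ s, (if s ∈ R then Real.exp (1 / 2 ^ e) else 1) := by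
          refine prod_le_prod (fun s _ => sum_nonneg (fun a _ => hwt0 a)) (fun s _ => ?_)
          split
          · rw [sum_range_succ']
            simp only [hwt, Nat.add_eq_zero_iff, one_ne_zero, and_false, if_false, if_true,
              sum_const, card_range, nsmul_eq_mul]
            have : ((2 ^ e : ℕ) : ℝ) * ((2 : ℝ) ^ (2 * e))⁻¹ = 1 / 2 ^ e := by
              push_cast; rw [two_mul, pow_add]; field_simp
            rw [this]
            exact Real.add_one_le_exp _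
          · simp [hwt]
      _ = _ := by
          rw [prod_ite_mem, univ_inter, prod_const, ← Real.exp_nat_mul]
  have hpt : ∀ ω, (ncl (π ω) R : ℝ) ^ (2 * e / 3 : ℝ)
      ≤ Real.exp (#R * ((e / 2) / 2 ^ e)) * Y ω := by
    intro ω
    obtain ⟨lam, l1, l2, l3, l4⟩ := exists_good h ω R e hi
    set a := #((orbs (π ω) R).filter (fun γ => #γ ≤ 2 ^ e)) with ha
    set b := #((orbs (π ω) R).filter (fun γ => ¬ #γ ≤ 2 ^ e)) with hb
    have hab : a + b = #(orbs (π ω) R) := card_filter_add_card_filter_not _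
    have hb2 : (b : ℝ) * 2 ^ e ≤ #R := by exact_mod_cast card_long_le (π ω) R (2 ^ e)
    have hlamA : lam ∈ A := by
      rw [hA, Fintype.mem_piFinset]
      intro s
      split
      · exact mem_range.2 (Nat.lt_succ_of_le (l1 s))
      · rename_i hs; simp [l2 s hs]
    have hY1 : (2 : ℝ) ^ ((2 * e / 3 : ℝ) * a) ≤ Y ω := by
      refine le_trans ?_ (single_le_sum (f := fun lam => (∏ s, wt (lam s)) *
        ((if Valid (π ω) lam then 2 ^ #(Fs (π ω) (Path ω) lam) else 0 : ℕ) : ℝ))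
        (fun lam _ => mul_nonneg (prod_nonneg (fun _ _ => hwt0 _)) (by positivity)) hlamA)
      simp only [l3, if_true]
      have : ∏ s, wt (lam s) = (2 : ℝ) ^ (-(2 * e * #(univ.filter (fun s => lam s ≠ 0)) : ℝ)) := by
        simp only [hwt]
        rw [prod_ite, prod_const_one, one_mul, prod_const, Real.rpow_neg (by norm_num), inv_pow,
          ← pow_mul, ← Real.rpow_natCast]
        push_cast; rfl
      rw [this]
      push_cast
      rw [← Real.rpow_natCast 2 (#(Fs (π ω) (Path ω) lam)), ← Real.rpow_add (by norm_num)]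
      apply Real.rpow_le_rpow_of_exponent_le (by norm_num)
      have : (0 : ℝ) ≤ e * a := by positivity
      nlinarith
    have hb3 : (2 : ℝ) ^ ((2 * e / 3 : ℝ) * b) ≤ Real.exp (#R * ((e / 2) / 2 ^ e)) := by
      rw [Real.rpow_def_of_pos (by norm_num)]
      apply Real.exp_le_exp.2
      have hl := Real.log_two_lt_d9
      have h2 : (b : ℝ) ≤ #R / 2 ^ e := by rwa [le_div_iff₀ (by positivity)]
      have he : (0 : ℝ) ≤ e := by positivity
      have hb0 : (0 : ℝ) ≤ b := by positivity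
      calc Real.log 2 * (2 * e / 3 * b) ≤ (3 / 4) * (2 * e / 3 * b) :=
            mul_le_mul_of_nonneg_right (by linarith) (by positivity)
        _ = e / 2 * b := by ring
        _ ≤ e / 2 * (#R / 2 ^ e) := by gcongr
        _ = _ := by ring
    calc (ncl (π ω) R : ℝ) ^ (2 * e / 3 : ℝ) ≤ ((2 : ℝ) ^ ((a + b : ℕ) : ℝ)) ^ (2 * e / 3 : ℝ) := by
          apply Real.rpow_le_rpow (by positivity) _ (by positivity)
          rw [Real.rpow_natCast, hab]
          exact_mod_cast ncl_le (π ω) R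
      _ = (2 : ℝ) ^ ((2 * e / 3 : ℝ) * b) * (2 : ℝ) ^ ((2 * e / 3 : ℝ) * a) := by
          rw [← Real.rpow_mul (by norm_num), ← Real.rpow_add (by norm_num)]
          congr 1; push_cast; ring
      _ ≤ _ := mul_le_mul hb3 hY1 (by positivity) (by positivity)
  calc _ ≤ 𝔼 ω, Real.exp (#R * ((e / 2) / 2 ^ e)) * Y ω := expect_le_expect (fun ω _ => hpt ω)
    _ = Real.exp (#R * ((e / 2) / 2 ^ e)) * 𝔼 ω, Y ω := by rw [Finset.mul_expect]
    _ ≤ Real.exp (#R * ((e / 2) / 2 ^ e)) * Real.exp (#R * (1 / 2 ^ e)) := by gcongr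
    _ = _ := by rw [← Real.exp_add]; congr 1; ring

end Cyc
end H4TS
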