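import Crest.Agent.H4.TS.Spec

set_option autoImplicit false
open Finset BigOperators Module NormedSpace
open scoped RealInnerProductSpace Nat

namespace H4TS
variable {E : Type*} [NormedAddCommGroup E] [InnerProductSpace ℝ E] [CompleteSpace E]

def Sym (Y : E →L[ℝ] E) : Prop := ∀ u v, ⟪Y u, v⟫ = ⟪u, Y v⟫

lemma Sym.pow {Y : E →L[ℝ] E} (h : Sym Y) (n : ℕ) : Sym (Y ^ n) := by
  induction n with
  | zero => intro u v; simp
  | succ n ih =>
    intro u v
    conv_lhs => rw [pow_succ]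
    rw [pow_succ', ContinuousLinearMap.mul_apply, ContinuousLinearMap.mul_apply, ih, h,
      ← ContinuousLinearMap.mul_apply]

lemma Sym.smul {Y : E →L[ℝ] E} (h : Sym Y) (c : ℝ) : Sym (c • Y) := by
  intro u v
  simp [real_inner_smul_left, real_inner_smul_right, h u v]

lemma Sym.sub {Y Z : E →L[ℝ] E} (h : Sym Y) (h' : Sym Z) : Sym (Y - Z) := by
  intro u v
  simp [inner_sub_left, inner_sub_right, h u v, h' u v]

lemma Sym.add {Y Z : E →L[ℝ] E} (h : Sym Y) (h' : Sym Z) : Sym (Y + Z) := by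
  intro u v
  simp [inner_add_left, inner_add_right, h u v, h' u v]

lemma Sym.sum {ι : Type*} (s : Finset ι) {Y : ι → E →L[ℝ] E} (h : ∀ i ∈ s, Sym (Y i)) :
    Sym (∑ i ∈ s, Y i) := by
  intro u v
  simp only [ContinuousLinearMap.sum_apply, sum_inner, inner_sum]
  exact sum_congr rfl (fun i hi => h i hi u v)

lemma Sym.one : Sym (1 : E →L[ℝ] E) := fun _ _ => rfl

lemma exp_hasSum (Y : E →L[ℝ] E) (v : E) :
    HasSum (fun n => ((n ! : ℝ)⁻¹) • (Y ^ n) v) (exp Y v) := by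
  have := (ContinuousLinearMap.apply ℝ E v).hasSum (exp_series_hasSum_exp' (𝕂 := ℝ) Y)
  simpa using this

lemma exp_inner_hasSum (Y : E →L[ℝ] E) (u v : E) :
    HasSum (fun n => ((n ! : ℝ)⁻¹) * ⟪u, (Y ^ n) v⟫) ⟪u, exp Y v⟫ := by
  have := (innerSL ℝ u).hasSum (exp_hasSum Y v)
  simpa [real_inner_smul_right] using this

lemma Sym.exp {Y : E →L[ℝ] E} (h : Sym Y) : Sym (exp Y) := by
  intro u v
  rw [real_inner_comm]
  refine (exp_inner_hasSum Y v u).unique ?_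
  simpa only [real_inner_comm _ v, h.pow _ u v] using exp_inner_hasSum Y u v

lemma exp_add_comm {X Y : E →L[ℝ] E} (h : Commute X Y) (v : E) :
    exp (X + Y) v = exp X (exp Y v) := by
  rw [exp_add_of_commute_of_mem_ball (𝕂 := ℝ) h (by simp [expSeries_radius_eq_top])
    (by simp [expSeries_radius_eq_top])]
  rfl

lemma exp_norm_sq {Y : E →L[ℝ] E} (h : Sym Y) (v : E) :
    ‖exp Y v‖ ^ 2 = ⟪v, exp ((2 : ℝ) • Y) v⟫ := by
  rw [two_smul, exp_add_comm (Commute.refl Y), ← h.exp, real_inner_self_eq_norm_sq]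

lemma exp_eig {Y : E →L[ℝ] E} {v : E} {y : ℝ} (h : Y v = y • v) : exp Y v = Real.exp y • v := by
  have h1 : ∀ n : ℕ, (Y ^ n) v = y ^ n • v := by
    intro n
    induction n with
    | zero => simp
    | succ n ih => rw [pow_succ', ContinuousLinearMap.mul_apply, ih, map_smul, h, smul_smul, pow_succ]
  refine (exp_hasSum Y v).unique ?_
  simp only [h1, smul_smul]
  rw [Real.exp_eq_exp_ℝ]
  exact (exp_series_hasSum_exp' (𝕂 := ℝ) y).smul_const v

lemma exp_comm_apply {X Y : E →L[ℝ] E} (h : Commute X Y) (v : E) : X (exp Y v) = exp Y (X v) :=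
  congrArg (fun f : E →L[ℝ] E => f v) h.exp_right.eq

variable [FiniteDimensional ℝ E]

lemma exp_inner_ge {Y : E →L[ℝ] E} (h : Sym Y) (v : E) : ‖v‖ ^ 2 + ⟪v, Y v⟫ ≤ ⟪v, exp Y v⟫ := by
  obtain ⟨b, ν, hb⟩ := exists_eb (Y : E →ₗ[ℝ] E) h
  rw [← b.sum_sq_inner_right, ← b.sum_inner_mul_inner, ← b.sum_inner_mul_inner v (exp Y v),
    ← sum_add_distrib]
  refine sum_le_sum (fun i _ => ?_)
  have hb' : Y (b i) = ν i • b i := hb i
  rw [← h, ← h.exp, exp_eig hb', hb', real_inner_smul_left, real_inner_smul_left,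
    real_inner_comm (b i) v]
  nlinarith [mul_le_mul_of_nonneg_right (Real.add_one_le_exp (ν i)) (sq_nonneg ⟪b i, v⟫)]

/-- if all eigenvalues of `Y` on the invariant subspace `U` are at least `c`. -/
lemma exp_neg_le {Y : E →L[ℝ] E} (h : Sym Y) (U : Submodule ℝ E) (hU : ∀ v ∈ U, Y v ∈ U) (c : ℝ)
    (hc : ∀ v ∈ U, v ≠ 0 → ∀ y : ℝ, Y v = y • v → c ≤ y) (v : E) (hv : v ∈ U) :
    ‖exp (-Y) v‖ ^ 2 ≤ Real.exp (-(2 * c)) * ‖v‖ ^ 2 := by
  have hs : ((Y : E →ₗ[ℝ] E).restrict hU).IsSymmetric := fun u w => h u w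
  obtain ⟨b, ν, hb⟩ := exists_eb _ hs
  have hb' : ∀ i, Y (b i) = ν i • (b i : E) := fun i => congrArg Subtype.val (hb i)
  have hn : Sym (-Y) := by simpa using h.smul (-1)
  rw [exp_norm_sq hn]
  have e1 : v = ∑ i, ⟪b i, (⟨v, hv⟩ : U)⟫ • (b i : E) := by
    have := congrArg Subtype.val (b.sum_repr' ⟨v, hv⟩)
    simpa using this.symm
  have e2 : ‖v‖ ^ 2 = ∑ i, ⟪b i, (⟨v, hv⟩ : U)⟫ ^ 2 := (b.sum_sq_inner_right ⟨v, hv⟩).symm
  rw [e2, mul_sum]
  conv_lhs => enter [3, 2]; rw [e1]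
  rw [map_sum, inner_sum]
  refine sum_le_sum (fun i _ => ?_)
  have e3 : ((2 : ℝ) • -Y) (b i) = (-(2 * ν i)) • (b i : E) := by
    simp [hb' i, smul_smul]
  have e4 : ⟪v, (b i : E)⟫ = ⟪b i, (⟨v, hv⟩ : U)⟫ := real_inner_comm _ _
  rw [map_smul, exp_eig e3, real_inner_smul_right, real_inner_smul_right, e4]
  have : Real.exp (-(2 * ν i)) ≤ Real.exp (-(2 * c)) := by
    have := hc _ (b i).2 (by simpa using b.orthonormal.ne_zero i) _ (hb' i)
    exact Real.exp_le_exp.2 (by linarith)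
  nlinarith [mul_le_mul_of_nonneg_right this (sq_nonneg ⟪b i, (⟨v, hv⟩ : U)⟫)]

end H4TS
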