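import Crest.Agent.H4.TS.Bridge

set_option autoImplicit false
open Finset BigOperators Module Equiv
open scoped RealInnerProductSpace
open Crest.ProbabilityR.Shuffle

namespace H4TS

lemma l1_le {α : Type} [Fintype α] [DecidableEq α] {Ω : Type} [Fintype Ω] [Nonempty Ω]
    (β : Ω → Perm α) (t : ℕ) :
    (∑ g : Perm α, |(Op lam β ^ (t + 1)) (EuclideanSpace.single 1 1) g
      - 1 / Fintype.card (Perm α)|) ^ 2
      ≤ ∑ i ∈ range (Fintype.card α), hsq (AA β i) (EuclideanSpace.basisFun (Perm α) ℝ) (t + 1) := by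
  set X := Op lam β ^ (t + 1) with hX
  set u : HH α := WithLp.toLp 2 (fun _ => 1 / (Fintype.card (Perm α) : ℝ)) with hu
  have hN : (0 : ℝ) < Fintype.card (Perm α) := by exact_mod_cast Fintype.card_pos
  have hinv : ∀ U : Submodule ℝ (HH α), (∀ g, ∀ v ∈ U, lam g v ∈ U) → ∀ v ∈ U, X v ∈ U := by
    intro U hU v hv
    rw [hX]
    generalize t + 1 = s
    induction s with
    | zero => simpa
    | succ s ih =>
      rw [pow_succ', ContinuousLinearMap.mul_apply]
      exact Op_mem (fun ω => hU _ _ ih)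
  have huM : ∀ I, u ∈ MM I := fun I g h _ => rfl
  have hXu : X u = u := by
    rw [hX]
    generalize t + 1 = s
    induction s with
    | zero => simp
    | succ s ih =>
      rw [pow_succ', ContinuousLinearMap.mul_apply, ih]
      refine ext_inner_left ℝ (fun w => ?_)
      have : ∀ g, lam g u = u := fun g => by ext x; rw [lam_apply]
      simp only [Op_inner, this, Fintype.expect_const]
  have hXr : ∀ g, Commute (rgt g) X := fun g => (Op_comm (fun ω => lam_rgt (β ω) g)).pow_right _
  have h1 : ∀ g : Perm α, ‖X (EuclideanSpace.single g 1 - u)‖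
      = ‖X (EuclideanSpace.single 1 1) - u‖ := by
    intro g
    have e1 : EuclideanSpace.single g (1 : ℝ) - u = rgt g⁻¹ (EuclideanSpace.single 1 1 - u) := by
      ext x
      rw [rgt_apply]
      simp [hu, PiLp.single_apply, mul_inv_eq_one]
    have e2 := congrArg (fun f : HH α →L[ℝ] HH α => f (EuclideanSpace.single 1 1 - u))
      (hXr g⁻¹).eq
    simp only [ContinuousLinearMap.mul_apply] at e2
    rw [e1, ← e2, iso_rgt.norm, map_sub, hXu]
  have h2 : ∀ g : Perm α, ‖X (EuclideanSpace.single g 1 - u)‖ ^ 2 = ∑ i ∈ range (Fintype.card α),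
      ‖(AA β i ^ (t + 1)) (EuclideanSpace.single g 1)‖ ^ 2 := by
    intro g
    rw [decomp (VV α) _ (fun i hi => VV_mono hi) X (fun i => hinv _ (lam_VV i))
      (fun i => hinv _ (inv_orth iso_lam (lam_VV i))) _ le_rfl _ (VV_top _)]
    · refine sum_congr rfl (fun i hi => ?_)
      obtain ⟨I, _, hI⟩ := exists_subset_card_eq (s := (univ : Finset α)) (mem_range.1 hi).le
      have : (Lv α i).starProjection u = 0 := by
        rw [Submodule.starProjection_apply_eq_zero_iff]
        intro w hw
        rw [real_inner_comm]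
        exact hw.2 _ (MM_le_VV hI (huM I))
      rw [AA_pow, ← hX]
      change ‖X ((Lv α i).starProjection _)‖ ^ 2 = _
      rw [map_sub, this, sub_zero]
    · intro f hf
      have hf' : f ∈ MM (∅ : Finset α) := by simpa [VV] using hf
      have : ∀ x, f x = f g := fun x => hf' _ _ (by simp)
      rw [inner_sub_right, inner_eq f u]
      simp only [this, hu, EuclideanSpace.inner_single_right, sum_const, card_univ, nsmul_eq_mul]
      simp; field_simp; ring
  have h3 := sq_sum_le_card_mul_sum_sq (s := (univ : Finset (Perm α)))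
    (f := fun g => |X (EuclideanSpace.single 1 1) g - 1 / Fintype.card (Perm α)|)
  refine h3.trans (le_of_eq ?_)
  simp only [hsq, EuclideanSpace.basisFun_apply]
  rw [sum_comm, ← sum_congr rfl (fun g _ => h2 g)]
  simp only [h1, sum_const, nsmul_eq_mul, EuclideanSpace.real_norm_sq_eq, sq_abs]
  rfl

lemma tv_sq_le (d t : ℕ) : (2 * tvFromUniform (2 ^ d) ((t + 1) * (d + 1))) ^ 2
    ≤ ∑ i ∈ range (2 ^ (d + 1)),
      hsq (AA (net d) i) (EuclideanSpace.basisFun (Perm (Pos d)) ℝ) (t + 1) := by
  have := l1_le (net d) t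
  rw [card_Pos] at this
  rw [tv_eq, Op_iter' iso_lam, ← mul_assoc]
  simpa using this

theorem thorp : Filter.Tendsto (fun d : ℕ => tvFromUniform (2 ^ d) (1600 * (d + 1)))
    Filter.atTop (nhds 0) := by
  obtain ⟨K, hK⟩ := HS_sum
  have h1 : ∀ d : ℕ, tvFromUniform (2 ^ d) (1600 * (d + 1))
      ≤ Real.sqrt (K * Real.exp (-(d / 20))) := by
    intro d
    have h2 : (2 * tvFromUniform (2 ^ d) (1600 * (d + 1))) ^ 2 ≤ K * Real.exp (-(d / 20)) :=
      (tv_sq_le d 1599).trans (hK d)
    apply Real.le_sqrt_of_sq_le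
    nlinarith [sq_nonneg (tvFromUniform (2 ^ d) (1600 * (d + 1)))]
  have h0 : ∀ d : ℕ, 0 ≤ tvFromUniform (2 ^ d) (1600 * (d + 1)) := fun d =>
    mul_nonneg (by norm_num) (sum_nonneg (fun _ _ => abs_nonneg _))
  refine squeeze_zero h0 h1 ?_
  have : Filter.Tendsto (fun d : ℕ => Real.exp (-(d / 20 : ℝ))) Filter.atTop (nhds 0) :=
    Real.tendsto_exp_neg_atTop_nhds_zero.comp
      (tendsto_natCast_atTop_atTop.atTop_div_const (by norm_num))
  simpa using (this.const_mul K).sqrt

theorem lower (m t : ℕ) : 1 - (2 : ℝ) ^ (m * t) / ((2 * m).factorial : ℝ) ≤ tvFromUniform m t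
    ∨ ∃ (cs : Fin t → Fin m → Bool), ¬ Function.Injective (iterPos m t cs) := by
  classical
  by_cases h : ∃ (cs : Fin t → Fin m → Bool), ¬ Function.Injective (iterPos m t cs)
  · exact Or.inr h
  left
  push Not at h
  let f : (Fin t → Fin m → Bool) → Perm (Fin (2 * m)) := fun cs =>
    Equiv.ofBijective _ (Finite.injective_iff_bijective.1 (h cs))
  have hf : ∀ cs (g : Perm (Fin (2 * m))), iterPos m t cs = ⇑g ↔ f cs = g := fun cs g =>
    ⟨fun e => Equiv.ext (fun x => congrFun e x), fun e => by rw [← e]; rfl⟩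
  set p : Perm (Fin (2 * m)) → ℝ := fun g =>
    Crest.FinProb.uniformProb {cs : Fin t → Fin m → Bool | iterPos m t cs = ⇑g} with hp
  set N : ℝ := ((2 * m).factorial : ℝ) with hN
  have hN0 : 0 < N := by positivity
  have hpg : ∀ g, p g = #(univ.filter (fun cs => f cs = g)) /
      (Fintype.card (Fin t → Fin m → Bool) : ℝ) := by
    intro g
    simp only [hp, Crest.FinProb.uniformProb, Set.mem_setOf_eq, hf]
  have hs : ∑ g, p g = 1 := by
    simp only [hpg]
    rw [← sum_div, ← Nat.cast_sum, ← card_eq_sum_card_fiberwise (fun _ _ => mem_coe.2 (mem_univ _)),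
      card_univ, div_self (by exact_mod_cast Fintype.card_ne_zero)]
  have hS : (#(univ.image f) : ℝ) ≤ 2 ^ (m * t) := by
    have : #(univ.image f) ≤ 2 ^ (m * t) := card_image_le.trans (by simp [pow_mul])
    exact_mod_cast this
  have h1 : ∀ g, (if g ∈ univ.image f then p g - 1 / N else 1 / N - p g) ≤ |p g - 1 / N| := by
    intro g; split
    · exact le_abs_self _
    · rw [abs_sub_comm]; exact le_abs_self _
  have h2 : ∀ g, (if g ∈ univ.image f then p g - 1 / N else 1 / N - p g)
      = p g + 1 / N - 2 * (if g ∈ univ.image f then 1 / N else 0) := by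
    intro g; split
    · ring
    · rename_i hg
      have : univ.filter (fun cs => f cs = g) = ∅ :=
        filter_eq_empty_iff.2 (fun cs _ e => hg (mem_image.2 ⟨cs, mem_univ _, e⟩))
      simp [hpg, this]
  have h3 := sum_le_sum (fun g (_ : g ∈ univ) => h1 g)
  simp only [h2, sum_sub_distrib, sum_add_distrib, hs, ← mul_sum, sum_ite_mem, univ_inter,
    sum_const, card_univ, Fintype.card_perm, Fintype.card_fin, nsmul_eq_mul] at h3
  rw [← hN, mul_one_div_cancel hN0.ne'] at h3
  have h4 : (#(univ.image f) : ℝ) * (1 / N) ≤ 2 ^ (m * t) / N := by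
    rw [mul_one_div]; gcongr
  unfold tvFromUniform
  linarith

theorem lower' (d t : ℕ) : 1 - (2 : ℝ) ^ (2 ^ d * t) / ((2 * 2 ^ d).factorial : ℝ)
    ≤ tvFromUniform (2 ^ d) t := by
  refine (lower (2 ^ d) t).resolve_right ?_
  rintro ⟨cs, h⟩
  refine h (fun x y e => (bits_bij d).1 ((itP d t cs).injective ?_))
  rw [← bits_iter, ← bits_iter, e]

end H4TS
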