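import Crest.Agent.H4.TS.Reg

set_option autoImplicit false
open Finset BigOperators Module Equiv
open scoped RealInnerProductSpace

namespace H4TS
variable {α : Type} [Fintype α] [DecidableEq α]

noncomputable def Lv (α : Type) [Fintype α] [DecidableEq α] (i : ℕ) : Submodule ℝ (HH α) :=
  VV α (i + 1) ⊓ (VV α i)ᗮ

lemma lam_Lv (i : ℕ) (g : Perm α) : ∀ v ∈ Lv α i, lam g v ∈ Lv α i := fun v hv =>
  ⟨lam_VV _ g v hv.1, inv_orth iso_lam (lam_VV i) g v hv.2⟩

lemma rgt_Lv (i : ℕ) (g : Perm α) : ∀ v ∈ Lv α i, rgt g v ∈ Lv α i := fun v hv =>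
  ⟨rgt_VV _ g v hv.1, inv_orth iso_rgt (rgt_VV i) g v hv.2⟩

def Cnt (P : HH α →L[ℝ] HH α) (r : ℕ) (B : ℝ) : Prop :=
  ∀ I : Finset α, #I = r → ∀ (ι : Type) [Fintype ι] (v : ι → HH α), (∀ a, v a ∈ MM I) →
    (∀ a, ‖v a‖ = 1) → ∀ μ, 0 < μ → (∀ a, μ ≤ ‖P (v a)‖ ^ 2) → ∀ Γ, 0 ≤ Γ →
      (∀ a, ∑ b, |⟪v a, v b⟫| ≤ Γ) → Fintype.card ι * μ ^ 50 ≤ Γ * B

variable {Ω : Type} [Fintype Ω] (β : Ω → Perm α)

noncomputable def AA (i : ℕ) : HH α →ₗ[ℝ] HH α :=
  ((Op lam β * (Lv α i).starProjection : HH α →L[ℝ] HH α) : HH α →ₗ[ℝ] HH α)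

lemma AA_apply (i : ℕ) (v : HH α) : AA β i v = Op lam β ((Lv α i).starProjection v) := rfl

lemma AA_rgt (i : ℕ) (g : Perm α) (v : HH α) : AA β i (rgt g v) = rgt g (AA β i v) := by
  rw [AA_apply, AA_apply, proj_comm _ _ (rgt_Lv i g) (inv_orth iso_rgt (rgt_Lv i) g)]
  exact (congrArg (fun f : HH α →L[ℝ] HH α => f _) (Op_comm (fun ω => lam_rgt (β ω) g)).eq).symm

lemma AA_pow (i t : ℕ) (v : HH α) :
    (AA β i ^ (t + 1)) v = (Op lam β ^ (t + 1)) ((Lv α i).starProjection v) := by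
  induction t with
  | zero => simp [AA_apply]
  | succ t ih =>
    rw [pow_succ', Module.End.mul_apply, ih, AA_apply, pow_succ' _ (t + 1),
      ContinuousLinearMap.mul_apply, Submodule.starProjection_eq_self_iff.2]
    generalize t + 1 = s
    induction s with
    | zero => simp
    | succ s ih =>
      rw [pow_succ', ContinuousLinearMap.mul_apply]
      exact Op_mem (fun ω => lam_Lv i _ _ ih)

lemma Hi_le_Lv (i : ℕ) {μ : ℝ} (hμ : 0 ≤ μ) : Hi (AA β i) μ ≤ Lv α i := by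
  intro v hv
  rw [← (Lv α i).orthogonal_orthogonal]
  intro u hu
  refine hv u 0 (fun w => ?_) hμ
  rw [AA_apply, (Submodule.starProjection_apply_eq_zero_iff _).2 hu]; simp

lemma Hi_rgt (i : ℕ) (μ : ℝ) (g : Perm α) : ∀ v ∈ Hi (AA β i) μ, rgt g v ∈ Hi (AA β i) μ :=
  fun _ hv => Hi_inv (AA β i) (rgt g : HH α →L[ℝ] HH α) (rgt g⁻¹ : HH α →L[ℝ] HH α)
    (iso_rgt.adj g) (AA_rgt β i g) (AA_rgt β i g⁻¹) μ hv

lemma Hi_P (i : ℕ) {μ : ℝ} (hμ : 0 ≤ μ) {v : HH α} (hv : v ∈ Hi (AA β i) μ) :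
    μ * ‖v‖ ^ 2 ≤ ‖Op lam β v‖ ^ 2 := by
  have := Hi_ge _ _ hv
  rwa [AA_apply, Submodule.starProjection_eq_self_iff.2 (Hi_le_Lv β i hμ hv)] at this

lemma Hi_le_sup (i : ℕ) {μ : ℝ} (hμ : 0 ≤ μ) : Hi (AA β i) μ ≤
    (powersetCard (i + 1) univ).sup (fun I => Hi (AA β i) μ ⊓ MM I) := by
  intro v hv
  have := VV_ind (j := i + 1) (U := (powersetCard (i + 1) univ).sup
    (fun I => Hi (AA β i) μ ⊓ MM I)) (Hi (AA β i) μ).starProjection (fun I hI w hw => ?_) v
    (Hi_le_Lv β i hμ hv).1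
  · rwa [Submodule.starProjection_eq_self_iff.2 hv] at this
  · refine le_sup (f := fun I => Hi (AA β i) μ ⊓ MM I) (mem_powersetCard_univ.2 hI)
      ⟨Submodule.starProjection_apply_mem _ _, (MM_iff _ _).2 (fun x hx y hy => ?_)⟩
    rw [← proj_comm _ _ (Hi_rgt β i μ _) (inv_orth iso_rgt (Hi_rgt β i μ) _),
      (MM_iff _ _).1 hw x hx y hy]

theorem Hi_count (i : ℕ) {B : ℝ} (h : Cnt (Op lam β) (i + 1) B) {μ : ℝ} (hμ : 0 < μ) :
    finrank ℝ (Hi (AA β i) μ) * μ ^ 50 ≤ (Fintype.card α).choose (i + 1) * B := by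
  have h1 := (Submodule.finrank_mono (Hi_le_sup β i hμ.le)).trans (finrank_sup_le _ _)
  have h2 : (finrank ℝ (Hi (AA β i) μ) : ℝ) ≤
      ∑ I ∈ powersetCard (i + 1) univ, (finrank ℝ ↥(Hi (AA β i) μ ⊓ MM I) : ℝ) := by
    exact_mod_cast h1
  refine (mul_le_mul_of_nonneg_right h2 (by positivity)).trans ?_
  rw [sum_mul, ← card_univ, ← card_powersetCard, ← nsmul_eq_mul]
  refine sum_le_card_nsmul _ _ _ (fun I hI => ?_)
  set U := Hi (AA β i) μ ⊓ MM I with hU
  set b := stdOrthonormalBasis ℝ U with hb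
  have hn : ∀ a, ‖(b a : HH α)‖ = 1 := fun a => b.orthonormal.1 a
  have := h I (mem_powersetCard_univ.1 hI) _ (fun a => (b a : HH α)) (fun a => (b a).2.2) hn μ hμ
    (fun a => by simpa [hn] using Hi_P β i hμ.le (b a).2.1) 1 zero_le_one (fun a => by
      rw [sum_eq_single a, real_inner_self_eq_norm_sq, hn]
      · simp
      · intro c _ hc
        have : ⟪b a, b c⟫ = 0 := b.orthonormal.2 hc.symm
        rw [abs_eq_zero]; exact this
      · simp)
  simpa using this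

lemma corr {i : ℕ} {I : Finset α} (hI : #I = i + 1) {v : HH α} (h1 : v ∈ MM I)
    (h2 : v ∈ (VV α i)ᗮ) {x : ℝ} (hx0 : 0 ≤ x)
    (hx : (i + 1 : ℝ) ≤ x * (Fintype.card α - 2 * (i + 1))) (τ : Perm α) :
    |⟪v, rgt τ v⟫| ≤ x ^ #(I.filter (fun a => τ a ∉ I)) * ‖v‖ ^ 2 := by
  induction hr : #(I.filter (fun a => τ a ∉ I)) generalizing τ with
  | zero =>
    refine (abs_real_inner_le_norm _ _).trans (le_of_eq ?_)
    rw [iso_rgt.norm]; ring
  | succ r ih =>
    obtain ⟨i0, hi0⟩ : (I.filter (fun a => τ a ∉ I)).Nonempty := card_pos.1 (by omega)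
    obtain ⟨a1, a2⟩ := mem_filter.1 hi0
    set B := (I.map τ.toEmbedding)ᶜ with hB
    have hx0B : τ i0 ∉ B := fun h => mem_compl.1 h (mem_map_of_mem _ a1)
    have hy := y_fix (E := HH α) rgt (B := B) (v := rgt τ v) ((MM_iff _ _).1 (rgt_MM τ h1)) hx0B
    have hcB : #B + (i + 1) = Fintype.card α := by
      rw [hB, ← hI, ← card_map τ.toEmbedding (s := I), add_comm, card_add_card_compl]
    rw [← compl_compl (insert (τ i0) B), ← MM_iff] at hy
    have hy2 := h2 _ (MM_le_VV (by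
      rw [card_compl, card_insert_of_notMem hx0B]; omega) hy)
    rw [real_inner_comm, inner_add_right, inner_sum, ← sum_filter_add_sum_filter_not B (· ∈ I)]
      at hy2
    have e1 : ∑ z ∈ B.filter (fun z => ¬ z ∈ I), ⟪v, rgt (swap (τ i0) z) (rgt τ v)⟫
        = #(B.filter (fun z => ¬ z ∈ I)) * ⟪v, rgt τ v⟫ := by
      rw [← nsmul_eq_mul, ← sum_const]
      refine sum_congr rfl (fun z hz => ?_)
      rw [← iso_rgt.sym, (MM_iff _ _).1 h1 _ (mem_compl.2 a2) _ (mem_compl.2 (mem_filter.1 hz).2)]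
    have e2 : |∑ z ∈ B.filter (fun z => z ∈ I), ⟪v, rgt (swap (τ i0) z) (rgt τ v)⟫|
        ≤ (i + 1) * (x ^ r * ‖v‖ ^ 2) := by
      refine (abs_sum_le_sum_abs _ _).trans ((sum_le_card_nsmul _ _ (x ^ r * ‖v‖ ^ 2)
        (fun z hz => ?_)).trans ?_)
      · obtain ⟨z1, z2⟩ := mem_filter.1 hz
        rw [rho_mul]
        apply ih
        have : I.filter (fun a => (swap (τ i0) z * τ) a ∉ I)
            = (I.filter (fun a => τ a ∉ I)).erase i0 := by
          ext a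
          simp only [mem_filter, mem_erase, Perm.mul_apply]
          by_cases ha : a = i0
          · simp [ha, z2]
          · by_cases ha' : a ∈ I
            · rw [swap_apply_of_ne_of_ne (fun h => ha (τ.injective h))
                (show τ a ≠ z from fun h => mem_compl.1 z1 (mem_map.2 ⟨a, ha', h⟩))]
              simp [ha]
            · simp [ha']
        rw [this, card_erase_of_mem hi0, hr]; rfl
      · rw [nsmul_eq_mul]
        have : #(B.filter (fun z => z ∈ I)) ≤ i + 1 :=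
          hI ▸ card_le_card (fun z hz => (mem_filter.1 hz).2)
        have : (#(B.filter (fun z => z ∈ I)) : ℝ) ≤ i + 1 := by exact_mod_cast this
        gcongr
    have e3 : (Fintype.card α : ℝ) - 2 * (i + 1) ≤ #(B.filter (fun z => ¬ z ∈ I)) := by
      have p1 := card_filter_add_card_filter_not (s := B) (fun z => z ∈ I)
      have p2 : #(B.filter (fun z => z ∈ I)) ≤ i + 1 :=
        hI ▸ card_le_card (fun z hz => (mem_filter.1 hz).2)
      have : Fintype.card α ≤ #(B.filter (fun z => ¬ z ∈ I)) + 2 * (i + 1) := by omega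
      have : (Fintype.card α : ℝ) ≤ #(B.filter (fun z => ¬ z ∈ I)) + 2 * (i + 1) := by
        exact_mod_cast this
      linarith
    rw [e1] at hy2
    set s : ℝ := (#(B.filter (fun z => ¬ z ∈ I)) : ℝ) with hs
    have hs0 : 0 ≤ s := by positivity
    have e4 : (1 + s) * |⟪v, rgt τ v⟫| ≤ (i + 1) * (x ^ r * ‖v‖ ^ 2) := by
      refine le_trans (le_of_eq ?_) e2
      rw [← abs_of_nonneg (a := 1 + s) (by positivity), ← abs_mul, ← abs_neg]
      congr 1; linarith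
    have e5 : (i + 1 : ℝ) ≤ x * (1 + s) := hx.trans (by gcongr; linarith)
    refine le_of_mul_le_mul_left (e4.trans ?_) (by positivity : 0 < 1 + s)
    calc _ ≤ x * (1 + s) * (x ^ r * ‖v‖ ^ 2) := by gcongr
      _ = _ := by ring

theorem mult (i g : ℕ) {B : ℝ} (h : Cnt (Op lam β) ((i + 1) * g) B)
    (hg : (i + 1) * g ≤ Fintype.card α) {x : ℝ} (hx0 : 0 ≤ x)
    (hx : (i + 1 : ℝ) ≤ x * (Fintype.card α - 2 * (i + 1))) {μ : ℝ} (hμ : 0 < μ)
    (hne : Hi (AA β i) μ ≠ ⊥) : (g : ℝ) ^ (i + 1) * μ ^ 50 ≤ (1 + g * x) ^ (i + 1) * B := by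
  obtain ⟨I, hI, hne'⟩ : ∃ I : Finset α, #I = i + 1 ∧ Hi (AA β i) μ ⊓ MM I ≠ ⊥ := by
    by_contra hc
    push Not at hc
    exact hne (le_bot_iff.1 ((Hi_le_sup β i hμ.le).trans
      (Finset.sup_le (fun I hI => (hc I (mem_powersetCard_univ.1 hI)).le))))
  obtain ⟨v0, hv0, h0⟩ := (Submodule.ne_bot_iff _).1 hne'
  set v := ‖v0‖⁻¹ • v0 with hv
  have hvn : ‖v‖ = 1 := norm_smul_inv_norm h0
  obtain ⟨v1, v2⟩ : v ∈ Hi (AA β i) μ ⊓ MM I := Submodule.smul_mem _ _ hv0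
  obtain ⟨y⟩ : Nonempty (I × Fin g ↪ α) :=
    Function.Embedding.nonempty_of_card_le (by simpa [hI] using hg)
  have hτ : ∀ χ : I → Fin g, ∃ τ : Perm α, ∀ a : I, τ a = y (a, χ a) := fun χ =>
    Perm.exists_extending_pair _ _ Subtype.val_injective
      (fun a b e => congrArg Prod.fst (y.injective e))
  choose τ hτ using hτ
  have := h (univ.map y) (by simp [hI]) (I → Fin g) (fun χ => rgt (τ χ) v)
    (fun χ => MM_mono (fun a ha => ?_) (rgt_MM _ v2)) (fun χ => by rw [iso_rgt.norm, hvn]) μ hμ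
    (fun χ => by simpa [iso_rgt.norm, hvn] using Hi_P β i hμ.le (Hi_rgt β i μ (τ χ) v v1))
    ((1 + g * x) ^ (i + 1)) (by positivity) (fun χ => ?_)
  · simpa [hI] using this
  · obtain ⟨b, hb, rfl⟩ := mem_map.1 ha
    exact mem_map.2 ⟨(⟨b, hb⟩, χ ⟨b, hb⟩), mem_univ _, (hτ χ ⟨b, hb⟩).symm⟩
  · calc _ ≤ ∑ χ' : I → Fin g, ∏ a : I, (if χ a = χ' a then 1 else x) := by
          refine sum_le_sum (fun χ' _ => ?_)
          rw [real_inner_comm, iso_rgt.adj, real_inner_comm, rho_mul]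
          refine (corr hI v2 (Hi_le_Lv β i hμ.le v1).2 hx0 hx _).trans (le_of_eq ?_)
          rw [hvn, one_pow, mul_one, ← prod_const, prod_filter, ← prod_coe_sort]
          refine prod_congr rfl (fun a _ => ?_)
          rw [ite_not]
          refine if_congr ⟨fun e => ?_, fun e => ?_⟩ rfl rfl
          · have e1 := hτ χ ⟨_, e⟩
            have e0 : τ χ (((τ χ)⁻¹ * τ χ') a) = y (a, χ' a) := by simp [hτ]
            rw [e0] at e1
            obtain ⟨e2, e3⟩ := Prod.ext_iff.1 (y.injective e1)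
            simp only at e2 e3
            rw [e3, ← e2]
          · rw [Perm.mul_apply, hτ, ← e, ← hτ]; simp
      _ = ∏ a : I, ∑ c : Fin g, (if χ a = c then 1 else x) := by
          rw [prod_univ_sum, Fintype.piFinset_univ]
      _ ≤ ∏ _a : I, (1 + g * x) := by
          refine prod_le_prod (fun a _ => sum_nonneg (fun c _ => by split <;> positivity))
            (fun a _ => ?_)
          calc _ ≤ ∑ c : Fin g, ((if χ a = c then 1 else 0) + x) :=
                sum_le_sum (fun c _ => by split <;> linarith)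
            _ = _ := by simp [sum_add_distrib]
      _ = _ := by simp [hI]

end H4TS
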