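import Crest.Agent.H4.TS.Win

set_option autoImplicit false
open Finset BigOperators

namespace H4TS
variable {d : ℕ}

lemma lay_prod_le {k : ℕ} (hk : k < d + 1) (T : Finset (Pos d)) (f : Pos d → ℝ)
    (hf : ∀ p, 0 ≤ f p) :
    𝔼 c : St d, ∏ p ∈ T, f (lay c k p) ≤ ∏ p ∈ T, (f p + f (flp k p)) / 2 := by
  have h1 : ∀ c : St d, ∏ p ∈ T, f (lay c k p) = ∏ s : Sw d,
      ∏ p ∈ T.filter (fun p => sw k p = s), f (if c s then flp k p else p) := by
    intro c
    rw [← prod_fiberwise T (sw k)]
    refine prod_congr rfl (fun s _ => prod_congr rfl (fun p hp => ?_))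
    rw [lay_apply, (mem_filter.1 hp).2]
  simp only [h1]
  rw [exp_prod (fun s (b : Bool) => ∏ p ∈ T.filter (fun p => sw k p = s), f (if b then flp k p else p)),
    ← prod_fiberwise T (sw k)]
  refine prod_le_prod (fun s _ => expect_nonneg (fun b _ => prod_nonneg (fun p _ => hf _)))
    (fun s _ => ?_)
  rw [Fintype.expect_eq_sum_div_card, Fintype.sum_bool]
  simp only [if_true, Bool.false_eq_true, if_false, Fintype.card_bool]
  set A := T.filter (fun p => sw k p = s) with hA
  rcases A.eq_empty_or_nonempty with h | ⟨p, hp⟩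
  · rw [h]; simp
  have hall : ∀ q ∈ A, q = p ∨ q = flp k p := by
    intro q hq
    have := (mem_filter.1 hp).2.trans (mem_filter.1 hq).2.symm
    exact (clr_eq_iff p q).1 (congrArg Prod.snd this)
  by_cases h2 : flp k p ∈ A
  · have : A = {p, flp k p} := by
      ext q
      simp only [mem_insert, mem_singleton]
      exact ⟨hall q, fun h => by rcases h with rfl | rfl <;> assumption⟩
    rw [this, prod_pair (flp_ne hk p).symm, prod_pair (flp_ne hk p).symm,
      prod_pair (flp_ne hk p).symm, flp_flp]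
    push_cast
    nlinarith [sq_nonneg (f p - f (flp k p))]
  · have : A = {p} := by
      ext q
      simp only [mem_singleton]
      exact ⟨fun h => (hall q h).resolve_right (fun h' => h2 (h' ▸ h)), fun h => h ▸ hp⟩
    rw [this]; simp [add_comm]

noncomputable def avg (k : ℕ) (f : Pos d → ℝ) : ℕ → Pos d → ℝ
  | 0 => f
  | i + 1 => fun p => (avg k f i p + avg k f i (flp (k + i) p)) / 2

lemma avg_nonneg (k : ℕ) {f : Pos d → ℝ} (hf : ∀ p, 0 ≤ f p) (i : ℕ) (p : Pos d) :
    0 ≤ avg k f i p := by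
  induction i generalizing p with
  | zero => exact hf p
  | succ i ih => exact div_nonneg (add_nonneg (ih _) (ih _)) (by norm_num)

lemma seg_prod_le {k i : ℕ} (hi : k + i ≤ d + 1) (T : Finset (Pos d)) (f : Pos d → ℝ)
    (hf : ∀ p, 0 ≤ f p) :
    𝔼 c : St d, ∏ p ∈ T, f (seg c k i p) ≤ ∏ p ∈ T, avg k f i p := by
  induction i generalizing T with
  | zero => simp [avg, Fintype.expect_const]
  | succ i ih =>
    set F : Finset (Sw d) := univ.filter (fun s => (s.1 : ℕ) = k + i) with hF
    rw [exp_piecewise F, expect_comm]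
    refine le_trans (expect_le_expect (fun ω _ => ?_))
      (lay_prod_le (by omega) T _ (avg_nonneg k hf i))
    have := ih (by omega) (T.map (lay ω (k + i)).toEmbedding)
    simp only [prod_map, Equiv.coe_toEmbedding] at this
    refine le_trans (le_of_eq (expect_congr rfl (fun c0 _ => prod_congr rfl (fun p _ => ?_)))) this
    rw [seg_succ, Equiv.Perm.mul_apply, seg_congr (c := F.piecewise ω c0) (c' := c0) (by omega),
      lay_congr (c := F.piecewise ω c0) (c' := ω)]
    · apply piecewise_eq_of_mem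
      simp only [hF, mem_filter, mem_univ, true_and]
      exact idx_val (by omega)
    · intro s _ hs
      apply piecewise_eq_of_notMem
      simp only [hF, mem_filter, mem_univ, true_and]
      omega

lemma flp_comm (k l : ℕ) (p : Pos d) : flp k (flp l p) = flp l (flp k p) := by
  ext m
  simp only [flp]
  split_ifs <;> rfl

lemma avg_mean (k : ℕ) (f : Pos d → ℝ) (i : ℕ) : 𝔼 p, avg k f i p = 𝔼 p, f p := by
  induction i with
  | zero => rfl
  | succ i ih =>
    simp only [avg]
    rw [← expect_div, expect_add_distrib,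
      Fintype.expect_equiv (flpP (k + i)) (fun p => avg k f i (flp (k + i) p)) (avg k f i)
        (fun _ => rfl), ih]
    ring

lemma avg_inv (k : ℕ) (f : Pos d → ℝ) (hf : ∀ l < k, ∀ p, f (flp l p) = f p) (i : ℕ) :
    ∀ l < k + i, ∀ p, avg k f i (flp l p) = avg k f i p := by
  induction i with
  | zero => exact hf
  | succ i ih =>
    intro l hl p
    simp only [avg]
    by_cases h : l = k + i
    · rw [h, flp_flp, add_comm]
    · rw [flp_comm, ih l (by omega), ih l (by omega)]

lemma const_of_inv (f : Pos d → ℝ) (hf : ∀ l < d + 1, ∀ p, f (flp l p) = f p) (p : Pos d) :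
    f p = 𝔼 q, f q := by
  have h1 : ∀ i ≤ d + 1, ∀ p, f (key i p) = f p := by
    intro i hi p
    induction i with
    | zero => congr 1
    | succ i ih =>
      rw [← ih (by omega)]
      have : clr i (key (i + 1) p) = clr i (key i p) := by
        ext m
        by_cases h : (m : ℕ) = i
        · simp [clr, h]
        · have : (i + 1 ≤ (m : ℕ)) ↔ (i ≤ (m : ℕ)) := by omega
          simp [clr, key, h, this]
      rcases (clr_eq_iff _ _).1 this with h | h
      · rw [h]
      · rw [h, hf i (by omega)]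
  have h2 : ∀ p, f p = f (fun _ => false) := by
    intro p
    rw [← h1 (d + 1) le_rfl p]
    congr 1
    ext m
    have : ¬ (d + 1 ≤ (m : ℕ)) := by have := m.isLt; omega
    simp [key, this]
  rw [h2 p, expect_congr rfl (fun q _ => h2 q), Fintype.expect_const]

lemma key_prod_le {K : ℕ} (hK : K ≤ d + 1) (T : Finset (Pos d)) (f : Pos d → ℝ)
    (hf : ∀ p, 0 ≤ f p) :
    𝔼 c : St d, ∏ p ∈ T, f (key K (seg c K (d + 1 - K) p)) ≤ (𝔼 q, f (key K q)) ^ #T := by
  refine (seg_prod_le (by omega) T (fun p => f (key K p)) (fun p => hf _)).trans (le_of_eq ?_)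
  rw [← prod_const]
  refine prod_congr rfl (fun p _ => ?_)
  rw [const_of_inv (avg K (fun p => f (key K p)) (d + 1 - K)) _ p, avg_mean]
  intro l hl
  exact avg_inv K _ (fun l hl p => by simp only [key_flp hl]) _ l (by omega)

lemma bern_id {B : Type*} [Fintype B] [DecidableEq B] {A : Type*} (T : Finset A) (κ : A → B)
    (Λ : ℝ) (hΛ : 0 < Λ) :
    ∑ x : B → Bool, (∏ b, if x b then 1 / Λ else 1 - 1 / Λ) * ∏ p ∈ T, (if x (κ p) then Λ else 0)
      = Λ ^ ((#T : ℝ) - #(T.image κ)) := by
  have h1 : ∀ x : B → Bool, ∏ p ∈ T, (if x (κ p) then Λ else 0)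
      = ∏ b, (if x b then Λ else 0) ^ #(T.filter (fun p => κ p = b)) := by
    intro x
    rw [← prod_fiberwise T κ]
    refine prod_congr rfl (fun b _ => ?_)
    rw [← prod_const]
    exact prod_congr rfl (fun p hp => by rw [(mem_filter.1 hp).2])
  simp only [h1, ← prod_mul_distrib]
  rw [← Fintype.piFinset_univ, ← prod_univ_sum (fun _ => univ) (fun b (β : Bool) =>
    (if β then 1 / Λ else 1 - 1 / Λ) * (if β then Λ else 0) ^ #(T.filter (fun p => κ p = b)))]
  have h2 : ∀ b, ∑ β : Bool, (if β then 1 / Λ else 1 - 1 / Λ) *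
      (if β then Λ else 0) ^ #(T.filter (fun p => κ p = b))
      = Λ ^ ((#(T.filter (fun p => κ p = b)) : ℝ) - if b ∈ T.image κ then 1 else 0) := by
    intro b
    rw [Fintype.sum_bool]
    by_cases hb : b ∈ T.image κ
    · obtain ⟨p, hp, rfl⟩ := mem_image.1 hb
      have : #(T.filter (fun q => κ q = κ p)) ≠ 0 := card_ne_zero.2 ⟨p, by simp [hp]⟩
      simp only [hb, if_true, Bool.false_eq_true, if_false, zero_pow this, mul_zero, add_zero]
      rw [Real.rpow_sub hΛ, Real.rpow_natCast, Real.rpow_one]; ring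
    · have : T.filter (fun p => κ p = b) = ∅ :=
        filter_eq_empty_iff.2 (fun p hp h => hb (mem_image.2 ⟨p, hp, h⟩))
      simp [hb, this]
  simp only [h2]
  rw [← Real.rpow_sum_of_pos hΛ, sum_sub_distrib, ← Nat.cast_sum, ← card_eq_sum_card_fiberwise
    (fun _ _ => mem_coe.2 (mem_univ _))]
  simp only [sum_ite_mem, univ_inter, sum_const, nsmul_eq_mul, mul_one]

lemma low_inner {K : ℕ} (hK : K ≤ d + 1) (T : Finset (Pos d)) (Λ : ℝ) (hΛ : 1 ≤ Λ)
    (hy : #T * Λ * 2 ^ K / 2 ^ (d + 1) ≤ 1) :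
    𝔼 c : St d, Λ ^ ((#T : ℝ) - #(T.image (fun p => key K (seg c K (d + 1 - K) p))))
      ≤ Real.exp (#T * (#T * Λ * 2 ^ K / 2 ^ (d + 1))) := by
  have hΛ0 : 0 < Λ := by linarith
  simp only [← bern_id T _ Λ hΛ0]
  rw [expect_sum_comm]
  set j : ℝ := (#T : ℝ) with hj
  have hj0 : 0 ≤ j := by positivity
  set m : Pos d → ℝ := fun b => #(univ.filter (fun p : Pos d => key K p = b)) with hm
  have hm0 : ∀ b, 0 ≤ m b := fun b => by positivity
  have hm1 : ∀ b, m b ≤ 2 ^ K := fun b => by
    simp only [hm]; exact_mod_cast card_key_fiber K b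
  have hm2 : ∑ b, m b = 2 ^ (d + 1) := by
    simp only [hm]
    rw [← Nat.cast_sum, ← card_eq_sum_card_fiberwise (fun _ _ => mem_coe.2 (mem_univ _))]
    simp
  have hw : ∀ β : Bool, 0 ≤ (if β then 1 / Λ else 1 - 1 / Λ) := by
    intro β; split
    · positivity
    · have := (div_le_one hΛ0).2 hΛ; linarith
  set y : Pos d → ℝ := fun b => j * Λ * m b / 2 ^ (d + 1) with hy'
  have hy0 : ∀ b, 0 ≤ y b := fun b => by simp only [hy']; have := hm0 b; positivity
  have hy1 : ∀ b, y b ≤ j * Λ * 2 ^ K / 2 ^ (d + 1) := fun b => by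
    simp only [hy']; have := hm1 b; gcongr
  have hys : ∑ b, y b = j * Λ := by
    simp only [hy']
    rw [← sum_div, ← mul_sum, hm2]; field_simp
  calc _ ≤ ∑ x : Pos d → Bool, Real.exp (-j) * ∏ b, ((if x b then 1 / Λ else 1 - 1 / Λ) *
          Real.exp (if x b then y b else 0)) := by
        refine sum_le_sum (fun x _ => ?_)
        rw [← mul_expect, prod_mul_distrib, mul_left_comm]
        refine mul_le_mul_of_nonneg_left ?_ (prod_nonneg (fun b _ => hw _))
        refine (key_prod_le hK T (fun b => if x b then Λ else 0)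
          (fun b => by split <;> positivity)).trans ?_
        have hmean : j * 𝔼 q : Pos d, (if x (key K q) then Λ else 0)
            = ∑ b, if x b then y b else 0 := by
          rw [Fintype.expect_eq_sum_div_card, ← sum_fiberwise univ (key K), sum_div, mul_sum]
          refine sum_congr rfl (fun b _ => ?_)
          rw [sum_congr rfl (g := fun _ => if x b then Λ else 0)
            (fun p hp => by rw [(mem_filter.1 hp).2]), sum_const, nsmul_eq_mul, card_Pos]
          simp only [hy', hm]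
          split <;> simp
          ring
        rw [← Real.exp_sum, ← hmean, ← Real.exp_add]
        set M := 𝔼 q : Pos d, (if x (key K q) then Λ else 0) with hM
        have hM0 : 0 ≤ M := expect_nonneg (fun _ _ => by split <;> positivity)
        calc M ^ #T ≤ Real.exp (M - 1) ^ #T := by
              have := Real.add_one_le_exp (M - 1)
              gcongr; linarith
          _ = _ := by rw [← Real.exp_nat_mul]; congr 1; ring
    _ = Real.exp (-j) * ∏ b, ∑ β : Bool, ((if β then 1 / Λ else 1 - 1 / Λ) *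
          Real.exp (if β then y b else 0)) := by
        rw [← mul_sum, prod_univ_sum, Fintype.piFinset_univ]
    _ ≤ Real.exp (-j) * ∏ b, Real.exp (y b * (1 + j * Λ * 2 ^ K / 2 ^ (d + 1)) / Λ) := by
        refine mul_le_mul_of_nonneg_left (prod_le_prod (fun b _ => sum_nonneg (fun β _ =>
          mul_nonneg (hw β) (Real.exp_pos _).le)) (fun b _ => ?_)) (Real.exp_pos _).le
        rw [Fintype.sum_bool]
        simp only [if_true, Bool.false_eq_true, if_false, Real.exp_zero, mul_one]
        refine le_trans ?_ (Real.add_one_le_exp _)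
        have h1 := Real.abs_exp_sub_one_sub_id_le (x := y b)
          (by rw [abs_of_nonneg (hy0 b)]; exact (hy1 b).trans hy)
        have h2 := (abs_le.1 h1).2
        have h3 : Real.exp (y b) - 1 ≤ y b * (1 + j * Λ * 2 ^ K / 2 ^ (d + 1)) := by
          nlinarith [hy0 b, hy1 b]
        have h4 : 1 / Λ * Real.exp (y b) + (1 - 1 / Λ) = (Real.exp (y b) - 1) / Λ + 1 := by ring
        rw [h4]
        gcongr
    _ = _ := by
        rw [← Real.exp_sum, ← Real.exp_add, ← sum_div, ← sum_mul, hys]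
        congr 1
        field_simp; ring

lemma Rk_le_col {l K : ℕ} (hl : l < K) (hK : K ≤ d + 1) (c : St d) (T : Finset (Pos d)) :
    (#(Rk l (T.map (seg c (l + 1) (d + 1 - l - 1)).toEmbedding)) : ℝ)
      ≤ (#T : ℝ) - #(T.image (fun p => key K (seg c K (d + 1 - K) p))) := by
  set T' := T.map (seg c (l + 1) (d + 1 - l - 1)).toEmbedding with hT'
  have h0 : Rk l T' ⊆ T' := filter_subset _ _
  have h1 := card_sdiff_add_card_eq_card h0
  have h2 : T.image (fun p => key K (seg c K (d + 1 - K) p)) ⊆ (T' \ Rk l T').image (key K) := by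
    intro b hb
    obtain ⟨p, hp, rfl⟩ := mem_image.1 hb
    have e1 : key K (seg c (l + 1) (d + 1 - l - 1) p) = key K (seg c K (d + 1 - K) p) := by
      have e2 : d + 1 - l - 1 = (K - l - 1) + (d + 1 - K) := by omega
      have e3 : l + 1 + (K - l - 1) = K := by omega
      rw [e2, seg_add, e3, Equiv.Perm.mul_apply, key_seg _ (by omega)]
    have hq : seg c (l + 1) (d + 1 - l - 1) p ∈ T' := mem_map_of_mem _ hp
    rw [← e1]
    generalize seg c (l + 1) (d + 1 - l - 1) p = q at hq
    by_cases hr : q ∈ Rk l T'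
    · obtain ⟨_, a, b⟩ := mem_filter.1 hr
      refine mem_image.2 ⟨flp l q, mem_sdiff.2 ⟨b, fun h => ?_⟩, key_flp hl q⟩
      have := (mem_filter.1 h).2.1
      rw [flp_idx (by omega), a] at this
      simp at this
    · exact mem_image.2 ⟨q, mem_sdiff.2 ⟨hq, hr⟩, rfl⟩
  have h3 := (card_le_card h2).trans card_image_le
  have h4 : #T' = #T := card_map _
  have : #(Rk l T') + #(T.image (fun p => key K (seg c K (d + 1 - K) p))) ≤ #T := by omega
  have : (#(Rk l T') : ℝ) + #(T.image (fun p => key K (seg c K (d + 1 - K) p))) ≤ #T := by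
    exact_mod_cast this
  linarith

theorem F_low (T : Finset (Pos d)) (q : ℕ) (hq : 2 ≤ q) (hT : #T * 2 ^ (19 * q) ≤ 2 ^ (d + 2))
    (hd : 16 * q ≤ d + 1) :
    𝔼 x : St d × St d, (W x.1 x.2 (d + 1) T : ℝ) ^ (1 / 48 : ℝ)
      ≤ Real.exp (#T * ((1 + q) / 2 ^ (2 * q))) := by
  rw [exp_pair]
  set Λ : ℝ := (2 : ℝ) ^ (((8 * (2 * q) : ℕ) : ℝ) / 48) with hΛ
  have hΛ1 : 1 ≤ Λ := Real.one_le_rpow (by norm_num) (by positivity)
  have hK : 8 * (2 * q) ≤ d + 1 := by omega
  have hq' : (2 : ℝ) ≤ q := by exact_mod_cast hq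
  have hy : #T * Λ * 2 ^ (8 * (2 * q)) / 2 ^ (d + 1) ≤ 1 / 2 ^ (2 * q) := by
    have h1 : 2 * Λ ≤ 2 ^ q := by
      rw [hΛ, ← Real.rpow_natCast 2 q, mul_comm, ← Real.rpow_add_one (by norm_num)]
      apply Real.rpow_le_rpow_of_exponent_le (by norm_num)
      push_cast; linarith
    have h2 : (#T : ℝ) * 2 ^ (19 * q) ≤ 2 ^ (d + 2) := by exact_mod_cast hT
    rw [div_le_div_iff₀ (by positivity) (by positivity)]
    have h3 : (2 : ℝ) ^ (19 * q) = 2 ^ q * 2 ^ (8 * (2 * q)) * 2 ^ (2 * q) := by
      rw [← pow_add, ← pow_add]; congr 1; ring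
    rw [h3, pow_succ 2 (d + 1)] at h2
    have : (#T : ℝ) * (2 * Λ) * 2 ^ (8 * (2 * q)) * 2 ^ (2 * q)
        ≤ #T * 2 ^ q * 2 ^ (8 * (2 * q)) * 2 ^ (2 * q) := by gcongr
    nlinarith
  have hy1 : (1 : ℝ) / 2 ^ (2 * q) ≤ 1 := by
    rw [div_le_one (by positivity)]; exact one_le_pow₀ (by norm_num)
  have h1 := low_inner hK T Λ hΛ1 (hy.trans hy1)
  calc _ ≤ 𝔼 c : St d, Λ ^ ((#T : ℝ) - #(T.image (fun p => key (8 * (2 * q))
          (seg c (8 * (2 * q)) (d + 1 - 8 * (2 * q)) p)))) * Real.exp (#T / 2 * hh (2 * q)) := by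
        refine expect_le_expect (fun c _ => W_bound c T (2 * q) (by omega) _ (fun c' =>
          inner_le c c' T _ _ ?_ (fun l hl _ => Rk_le_col hl hK c T)))
        have : #(T.image (fun p => key (8 * (2 * q))
          (seg c (8 * (2 * q)) (d + 1 - 8 * (2 * q)) p))) ≤ #T := card_image_le
        rw [sub_nonneg]; exact_mod_cast this
    _ ≤ Real.exp (#T * (1 / 2 ^ (2 * q))) * Real.exp (#T / 2 * hh (2 * q)) := by
        rw [← expect_mul]
        gcongr
        exact h1.trans (by gcongr)
    _ ≤ _ := by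
        rw [← Real.exp_add]
        apply Real.exp_le_exp.2
        unfold hh
        push_cast
        have : (#T : ℝ) * (1 / 2 ^ (2 * q)) + #T / 2 * ((1 + 2 * q / 2) / 2 ^ (2 * q))
          = #T * ((3 / 2 + q / 2) / 2 ^ (2 * q)) := by ring
        rw [this]
        have : (3 / 2 + q / 2 : ℝ) ≤ 1 + q := by linarith
        gcongr

end H4TS
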