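import Crest.Agent.H4.TS.Basic
import Crest.Agent.H4.TS.Cyc

set_option autoImplicit false
open Finset BigOperators

namespace H4TS
variable {d : ℕ}

def path (c : St d) (k : ℕ) : ℕ → Pos d → Finset (Sw d)
  | 0, _ => ∅
  | i + 1, p => insert (sw (k + i) p) (path c k i (lay c (k + i) p))

lemma path_succ (c : St d) (k i : ℕ) (p : Pos d) :
    path c k (i + 1) p = insert (sw (k + i) p) (path c k i (lay c (k + i) p)) := rfl

lemma mem_path {c : St d} {k i : ℕ} (hi : k + i ≤ d + 1) {p : Pos d} {s : Sw d}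
    (hs : s ∈ path c k i p) :
    k ≤ (s.1 : ℕ) ∧ (s.1 : ℕ) < k + i ∧ ∀ m : Fin (d + 1), k + i ≤ (m : ℕ) → s.2 m = p m := by
  induction i generalizing p with
  | zero => simp [path] at hs
  | succ i ih =>
    rw [path_succ, mem_insert] at hs
    rcases hs with rfl | hs
    · have : ((sw (k + i) p).1 : ℕ) = k + i := idx_val (by omega)
      refine ⟨by omega, by omega, fun m hm => ?_⟩
      have : (m : ℕ) ≠ k + i := by omega
      simp [sw, clr, this]
    · obtain ⟨h1, h2, h3⟩ := ih (by omega) hs
      refine ⟨h1, by omega, fun m hm => ?_⟩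
      rw [h3 m (by omega), lay_apply_ne _ _ (by omega)]

lemma path_p1 {c c' : St d} {k i : ℕ} {p : Pos d} (h : ∀ s ∈ path c k i p, c s = c' s) :
    seg c' k i p = seg c k i p ∧ path c' k i p = path c k i p := by
  induction i generalizing p with
  | zero => simp [path]
  | succ i ih =>
    have h1 : lay c' (k + i) p = lay c (k + i) p :=
      (lay_congr (h _ (by rw [path_succ]; exact mem_insert_self _ _))).symm
    obtain ⟨h2, h3⟩ := ih (p := lay c (k + i) p)
      (fun s hs => h s (by rw [path_succ]; exact mem_insert_of_mem hs))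
    rw [seg_succ, seg_succ, path_succ, path_succ, Equiv.Perm.mul_apply, Equiv.Perm.mul_apply,
      h1, h2, h3]
    exact ⟨rfl, rfl⟩

lemma path_p2 {c c' : St d} {k i : ℕ} (hi : k + i ≤ d + 1) {p : Pos d}
    (h : seg c k i p = seg c' k i p) :
    path c k i p = path c' k i p ∧ ∀ s ∈ path c k i p, c s = c' s := by
  induction i generalizing p with
  | zero => simp [path]
  | succ i ih =>
    rw [seg_succ, seg_succ, Equiv.Perm.mul_apply, Equiv.Perm.mul_apply] at h
    have hk : k + i < d + 1 := by omega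
    have h1 := congrFun h (idx d (k + i))
    rw [seg_apply_out _ _ _ _ (Or.inr (by rw [idx_val hk])),
      seg_apply_out _ _ _ _ (Or.inr (by rw [idx_val hk])), lay_idx _ hk, lay_idx _ hk] at h1
    have h2 : c (sw (k + i) p) = c' (sw (k + i) p) := by simpa using h1
    have h3 := lay_congr h2
    rw [← h3] at h
    obtain ⟨h4, h5⟩ := ih (by omega) h
    rw [path_succ, path_succ, ← h3, h4]
    refine ⟨rfl, fun s hs => ?_⟩
    rcases mem_insert.1 hs with rfl | hs
    · exact h2
    · exact h5 s (h4 ▸ hs)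

lemma path_p3 (c : St d) {k i : ℕ} (hi : k + i ≤ d + 1) (p : Pos d) : #(path c k i p) = i := by
  induction i generalizing p with
  | zero => simp [path]
  | succ i ih =>
    rw [path_succ, card_insert_of_notMem, ih (by omega)]
    intro h
    have := (mem_path (by omega) h).2.1
    have h2 : ((sw (k + i) p).1 : ℕ) = k + i := idx_val (by omega)
    omega

lemma mt_succ (c : St d) {k i : ℕ} (hi : k + i + 1 ≤ d + 1) (p q : Pos d) :
    mt (path c k (i + 1)) p q ≤ (if lay c (k + i) q = flp (k + i) (lay c (k + i) p) then 1 else 0)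
      + mt (path c k i) (lay c (k + i) p) (lay c (k + i) q) := by
  by_cases hpq : p = q
  · simp [mt, hpq]
  have hne : lay c (k + i) p ≠ lay c (k + i) q := fun h => hpq ((lay c (k + i)).injective h)
  rw [mt, mt, if_neg hpq, if_neg hne, path_succ, path_succ]
  have hout : ∀ x y : Pos d, sw (k + i) x ∉ path c k i y := by
    intro x y h
    have := (mem_path (by omega) h).2.1
    have h2 : ((sw (k + i) x).1 : ℕ) = k + i := idx_val (by omega)
    omega
  split
  · rename_i h
    have : sw (k + i) q = sw (k + i) p := by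
      rw [← sw_lay c (k + i) q, h, sw_flp, sw_lay]
    rw [this, ← insert_inter_distrib]
    refine (card_insert_le _ _).trans (by omega)
  · rename_i h
    have h3 : sw (k + i) p ≠ sw (k + i) q := by
      intro h'
      have h4 : clr (k + i) (lay c (k + i) p) = clr (k + i) (lay c (k + i) q) := by
        rw [clr_lay, clr_lay]; exact congrArg Prod.snd h'
      rcases (clr_eq_iff _ _).1 h4 with h5 | h5
      · exact hne h5.symm
      · exact h h5
    rw [insert_inter_of_notMem (by simp [h3, hout]), inter_insert_of_notMem (hout _ _)]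
    omega

lemma path_p4 (c : St d) {k i : ℕ} (hi : k + i ≤ d + 1) (p : Pos d) :
    ∑ q, mt (path c k i) p q ≤ i := by
  induction i generalizing p with
  | zero => simp [mt, path]
  | succ i ih =>
    refine (sum_le_sum (fun q _ => mt_succ c (by omega) p q)).trans ?_
    rw [Equiv.sum_comp (lay c (k + i)) (fun q => (if q = flp (k + i) (lay c (k + i) p) then 1 else 0)
      + mt (path c k i) (lay c (k + i) p) q), sum_add_distrib]
    have := ih (by omega) (lay c (k + i) p)
    simp only [sum_ite_eq', mem_univ, if_true]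
    omega

lemma ent_ineq {a b : ℝ} (ha : 0 ≤ a) (hab : a ≤ b) :
    2 * a + a * Real.logb 2 a + b * Real.logb 2 b ≤ (a + b) * Real.logb 2 (a + b) := by
  rcases eq_or_lt_of_le ha with h | h
  · subst h; simp
  have hb : 0 < b := by linarith
  have h1 : 1 + Real.logb 2 a ≤ Real.logb 2 (a + b) := by
    have : Real.logb 2 (2 * a) = 1 + Real.logb 2 a := by
      rw [Real.logb_mul (by norm_num) h.ne', Real.logb_self_eq_one (by norm_num)]
    rw [← this]
    exact Real.logb_le_logb_of_le (by norm_num) (by positivity) (by linarith)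
  have h2 : a / b + Real.logb 2 b ≤ Real.logb 2 (a + b) := by
    have : Real.logb 2 ((2 : ℝ) ^ (a / b) * b) = a / b + Real.logb 2 b := by
      rw [Real.logb_mul (by positivity) hb.ne', Real.logb_rpow (by norm_num) (by norm_num)]
    rw [← this]
    refine Real.logb_le_logb_of_le (by norm_num) (by positivity) ?_
    have h3 := rpow_one_add_le_one_add_mul_self (s := 1) (p := a / b) (by norm_num)
      (by positivity) ((div_le_one hb).2 hab)
    rw [one_add_one_eq_two] at h3
    calc (2 : ℝ) ^ (a / b) * b ≤ (1 + a / b * 1) * b := by gcongr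
      _ = a + b := by field_simp; ring
  have h4 : b * (a / b) = a := by field_simp
  nlinarith [mul_le_mul_of_nonneg_left h1 ha, mul_le_mul_of_nonneg_left h2 hb.le]

lemma mt_diff (c : St d) {k i : ℕ} (hi : k + i < d + 1) {p q : Pos d}
    (h : p (idx d (k + i)) ≠ q (idx d (k + i))) : mt (path c k i) p q = 0 := by
  unfold mt
  split
  · rfl
  rw [card_eq_zero, eq_empty_iff_forall_notMem]
  intro s hs
  obtain ⟨h1, h2⟩ := mem_inter.1 hs
  have e1 := (mem_path (by omega) h1).2.2 (idx d (k + i)) (by rw [idx_val hi])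
  have e2 := (mem_path (by omega) h2).2.2 (idx d (k + i)) (by rw [idx_val hi])
  exact h (e1.symm.trans e2)

lemma cnt_flp_le (k : ℕ) (A B : Finset (Pos d)) :
    ∑ p ∈ A, ∑ q ∈ B, (if q = flp k p then 1 else 0) ≤ min #A #B := by
  apply le_min
  · rw [card_eq_sum_ones]
    refine sum_le_sum (fun p _ => ?_)
    rw [sum_ite_eq']; split <;> omega
  · rw [sum_comm, card_eq_sum_ones]
    refine sum_le_sum (fun q _ => ?_)
    have : ∀ p, (q = flp k p) = (p = flp k q) := fun p =>
      propext ⟨fun h => by rw [h, flp_flp], fun h => by rw [h, flp_flp]⟩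
    simp only [this]
    rw [sum_ite_eq']; split <;> omega

lemma path_p5 (c : St d) {k i : ℕ} (hi : k + i ≤ d + 1) (γ : Finset (Pos d)) :
    ((∑ p ∈ γ, ∑ q ∈ γ, mt (path c k i) p q : ℕ) : ℝ) ≤ #γ * Real.logb 2 #γ := by
  induction i generalizing γ with
  | zero =>
    have : 0 ≤ Real.logb 2 (#γ : ℝ) := by
      rcases Nat.eq_zero_or_pos #γ with h | h
      · simp [h]
      · exact Real.logb_nonneg (by norm_num) (by exact_mod_cast h)
    simp only [mt, path, inter_self, card_empty, ite_self, sum_const_zero, Nat.cast_zero]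
    positivity
  | succ i ih =>
    have hk : k + i < d + 1 := by omega
    set F : Pos d → Pos d → ℕ := fun p q => (if q = flp (k + i) p then 1 else 0)
      + mt (path c k i) p q with hF
    set γ' := γ.map (lay c (k + i)).toEmbedding with hγ'
    have h1 : ∑ p ∈ γ, ∑ q ∈ γ, mt (path c k (i + 1)) p q ≤ ∑ p ∈ γ', ∑ q ∈ γ', F p q := by
      simp only [hγ', sum_map, Equiv.coe_toEmbedding]
      exact sum_le_sum (fun p _ => sum_le_sum (fun q _ => mt_succ c (by omega) p q))
    set A := γ'.filter (fun p => p (idx d (k + i)) = true) with hA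
    set B := γ'.filter (fun p => ¬ p (idx d (k + i)) = true) with hB
    have hcard : #γ = #A + #B := by
      rw [card_filter_add_card_filter_not, hγ', card_map]
    have hsame : ∀ C : Finset (Pos d), (∀ p ∈ C, ∀ q ∈ C, p (idx d (k + i)) = q (idx d (k + i))) →
        ∑ p ∈ C, ∑ q ∈ C, F p q = ∑ p ∈ C, ∑ q ∈ C, mt (path c k i) p q := by
      intro C hC
      refine sum_congr rfl (fun p hp => sum_congr rfl (fun q hq => ?_))
      have : q ≠ flp (k + i) p := by
        intro h
        have := hC p hp q hq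
        rw [h, flp_idx hk] at this
        simp at this
      simp [hF, this]
    have hdiff : ∀ C E : Finset (Pos d), (∀ p ∈ C, ∀ q ∈ E, p (idx d (k + i)) ≠ q (idx d (k + i))) →
        ∑ p ∈ C, ∑ q ∈ E, F p q ≤ min #C #E := by
      intro C E hC
      refine le_trans (le_of_eq ?_) (cnt_flp_le (k + i) C E)
      refine sum_congr rfl (fun p hp => sum_congr rfl (fun q hq => ?_))
      simp [hF, mt_diff c hk (hC p hp q hq)]
    have h2 : ∑ p ∈ γ', ∑ q ∈ γ', F p q ≤ 2 * min #A #B
        + ∑ p ∈ A, ∑ q ∈ A, mt (path c k i) p q + ∑ p ∈ B, ∑ q ∈ B, mt (path c k i) p q := by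
      rw [← sum_filter_add_sum_filter_not γ' (fun p => p (idx d (k + i)) = true)]
      simp only [← sum_filter_add_sum_filter_not γ' (fun p => p (idx d (k + i)) = true) (F _),
        sum_add_distrib]
      rw [← hA, ← hB, hsame A, hsame B]
      · have e1 := hdiff A B (fun p hp q hq => by
          have a1 := (mem_filter.1 hp).2
          have a2 := (mem_filter.1 hq).2
          rw [a1]; exact fun h => a2 h.symm)
        have e2 := hdiff B A (fun p hp q hq => by
          have a1 := (mem_filter.1 hp).2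
          have a2 := (mem_filter.1 hq).2
          rw [a2]; exact a1)
        rw [min_comm] at e2
        omega
      · intro p hp q hq
        have a1 := (mem_filter.1 hp).2
        have a2 := (mem_filter.1 hq).2
        simp at a1 a2; rw [a1, a2]
      · intro p hp q hq
        rw [(mem_filter.1 hp).2, (mem_filter.1 hq).2]
    have h3 : ((∑ p ∈ γ, ∑ q ∈ γ, mt (path c k (i + 1)) p q : ℕ) : ℝ) ≤ 2 * ((min #A #B : ℕ) : ℝ)
        + ((∑ p ∈ A, ∑ q ∈ A, mt (path c k i) p q : ℕ) : ℝ)
        + ((∑ p ∈ B, ∑ q ∈ B, mt (path c k i) p q : ℕ) : ℝ) := by exact_mod_cast h1.trans h2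
    have iA := ih (by omega) A
    have iB := ih (by omega) B
    rw [hcard]
    push_cast at h3 iA iB ⊢
    rcases le_total (#A : ℝ) #B with h | h
    · have := ent_ineq (by positivity) h
      rw [min_eq_left h] at h3
      linarith
    · have := ent_ineq (by positivity) h
      rw [min_eq_right h] at h3
      rw [add_comm (#A : ℝ)]
      linarith

lemma pathSys_seg {k i : ℕ} (hi : k + i ≤ d + 1) (ψ φ : Equiv.Perm (Pos d)) :
    PathSys (fun ω : St d => ψ * seg ω k i * φ) (fun ω p => path ω k i (φ p)) i := by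
  have hmt : ∀ (ω : St d) p q, mt (fun p => path ω k i (φ p)) p q = mt (path ω k i) (φ p) (φ q) := by
    intro ω p q
    simp [mt]
  constructor
  · intro ω ω' p h
    obtain ⟨h1, h2⟩ := path_p1 h
    simp [h1, h2]
  · intro ω ω' p h
    exact path_p2 hi (by simpa using h)
  · intro ω p; exact path_p3 ω hi _
  · intro ω p
    simp only [hmt]
    rw [Equiv.sum_comp φ (fun q => mt (path ω k i) (φ p) q)]
    exact path_p4 ω hi _
  · intro ω γ
    have := path_p5 ω hi (γ.map φ.toEmbedding)
    simpa [hmt] using this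

def gk (c c' : St d) (k : ℕ) : Equiv.Perm (Pos d) := (seg c' 0 k)⁻¹ * seg c 0 k

def Z (k : ℕ) (T : Finset (Pos d)) (g : Equiv.Perm (Pos d)) : ℕ :=
  #{S ∈ T.powerset | (∀ p ∈ S, flp k p ∈ S) ∧ ∀ p ∈ S, ∃ q ∈ S, g q = flp k (g p)}

def Rk (k : ℕ) (T : Finset (Pos d)) : Finset (Pos d) :=
  T.filter (fun p => p (idx d k) = false ∧ flp k p ∈ T)

lemma one_le_Z (k : ℕ) (T : Finset (Pos d)) (g : Equiv.Perm (Pos d)) : 1 ≤ Z k T g :=
  card_pos.2 ⟨∅, by simp⟩

lemma two_Rk_le {k : ℕ} (hk : k < d + 1) (T : Finset (Pos d)) : 2 * #(Rk k T) ≤ #T := by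
  have h1 : #(Rk k T) ≤ #(T \ Rk k T) := by
    apply card_le_card_of_injOn (flp k)
    · intro p hp
      simp only [Rk, coe_filter, Set.mem_setOf_eq] at hp
      simp [Rk, hp, flp_idx hk]
    · exact (flp_inj k).injOn
  have h0 : Rk k T ⊆ T := filter_subset _ T
  have := card_sdiff_add_card_eq_card h0
  omega

lemma Z_le_ncl {k : ℕ} (hk : k < d + 1) (T : Finset (Pos d)) (g σ : Equiv.Perm (Pos d))
    (hg : ∀ p, g p (idx d k) = p (idx d k))
    (hσ : ∀ p : Pos d, p (idx d k) = false → σ p = flp k (g⁻¹ (flp k (g p)))) :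
    Z k T g ≤ ncl σ (Rk k T) := by
  apply card_le_card_of_injOn (fun S => S.filter (fun p => p (idx d k) = false))
  · intro S hS
    simp only [coe_filter, mem_powerset, Set.mem_setOf_eq] at hS ⊢
    obtain ⟨h1, h2, h3⟩ := hS
    refine ⟨fun p hp => ?_, fun p hp => ?_⟩
    · obtain ⟨a, b⟩ := mem_filter.1 hp
      exact mem_filter.2 ⟨h1 a, b, h1 (h2 p a)⟩
    · obtain ⟨a, b⟩ := mem_filter.1 hp
      obtain ⟨q, hq, e⟩ := h3 p a
      have e2 : g⁻¹ (g q) = q := by simp
      rw [hσ p b, ← e, e2]
      refine mem_filter.2 ⟨h2 q hq, ?_⟩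
      rw [flp_idx hk, ← hg q, e, flp_idx hk, hg, b]; rfl
  · have key : ∀ S S' : Finset (Pos d), (∀ p ∈ S, flp k p ∈ S) → (∀ p ∈ S', flp k p ∈ S') →
        S.filter (fun p => p (idx d k) = false) = S'.filter (fun p => p (idx d k) = false) →
        S ⊆ S' := by
      intro S S' h1 h2 h p hp
      cases hb : p (idx d k)
      · exact (mem_filter.1 (h ▸ mem_filter.2 ⟨hp, hb⟩)).1
      · have : flp k p ∈ S.filter (fun p => p (idx d k) = false) :=
          mem_filter.2 ⟨h1 p hp, by rw [flp_idx hk, hb]; rfl⟩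
        rw [h] at this
        simpa using h2 _ (mem_filter.1 this).1
    intro S hS S' hS' h
    simp only [coe_filter, mem_powerset, Set.mem_setOf_eq] at hS hS'
    exact subset_antisymm (key S S' hS.2.1 hS'.2.1 h) (key S' S hS'.2.1 hS.2.1 h.symm)

lemma gk_bit (c c' : St d) {k : ℕ} (p : Pos d) {l : Fin (d + 1)} (hl : k ≤ (l : ℕ)) :
    gk c c' k p l = p l := by
  have := seg_apply_out c' 0 k (gk c c' k p) (l := l) (Or.inr (by omega))
  rw [← this]
  have e : seg c' 0 k (gk c c' k p) = seg c 0 k p := by simp [gk]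
  rw [e]
  exact seg_apply_out c 0 k p (Or.inr (by omega))

lemma Z_le_pow (c c' : St d) {k : ℕ} (hk : k < d + 1) (T : Finset (Pos d)) :
    Z k T (gk c c' k) ≤ 2 ^ #(Rk k T) := by
  refine (Z_le_ncl hk T _ (flpP k * (gk c c' k)⁻¹ * flpP k * gk c c' k)
    (fun p => gk_bit c c' p (by rw [idx_val hk])) (fun p _ => rfl)).trans ?_
  rw [← card_powerset]
  exact card_le_card (filter_subset _ _)

def Dep (l : ℕ) (G : St d → ℝ) : Prop :=
  ∀ c1 c2 : St d, (∀ s : Sw d, (s.1 : ℕ) < l → c1 s = c2 s) → G c1 = G c2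

theorem level_bound (c : St d) {k e : ℕ} (hk : k < d + 1) (he : 8 * e ≤ k) (T : Finset (Pos d))
    (G : St d → ℝ) (hG : ∀ c', 0 ≤ G c') (hD : Dep (k - 8 * e) G) :
    𝔼 c', G c' * (Z k T (gk c c' k) : ℝ) ^ (2 * e / 3 : ℝ)
      ≤ Real.exp (#T / 2 * ((1 + e / 2) / 2 ^ e)) * 𝔼 c', G c' := by
  set F : Finset (Sw d) := univ.filter (fun s => k - 8 * e ≤ (s.1 : ℕ) ∧ s.2 (idx d k) = true)
    with hF
  rw [exp_piecewise F, mul_expect]
  refine expect_le_expect (fun c0 _ => ?_)
  set φ := flpP k * gk c c0 k with hφ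
  set ψ := flpP k * (seg c 0 k)⁻¹ * seg c0 0 (k - 8 * e) with hψ
  have hsys := pathSys_seg (d := d) (k := k - 8 * e) (i := 8 * e) (by omega) ψ φ
  have hb := cyc_bound hsys (Rk k T) e rfl
  have hG0 : ∀ ω, G (F.piecewise ω c0) = G c0 := by
    intro ω
    apply hD
    intro s hs
    rw [piecewise_eq_of_notMem]
    simp only [hF, mem_filter, mem_univ, true_and]
    omega
  simp only [hG0]
  rw [← mul_expect, mul_comm]
  refine mul_le_mul_of_nonneg_right (le_trans (expect_le_expect (fun ω _ => ?_)) (hb.trans ?_))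
    (hG c0)
  · apply Real.rpow_le_rpow (by positivity) _ (by positivity)
    rw [Nat.cast_le]
    apply Z_le_ncl hk T _ _ (fun p => gk_bit c _ p (by rw [idx_val hk]))
    intro p hp
    set c' := F.piecewise ω c0 with hc'
    have h1 : gk c c' k p = gk c c0 k p := by
      have hy : gk c c0 k p (idx d k) = false := by rw [gk_bit c c0 p (by rw [idx_val hk]), hp]
      have h2 : seg c' 0 k (gk c c0 k p) = seg c0 0 k (gk c c0 k p) := by
        refine (path_p1 (fun s hs => ?_)).1
        have := (mem_path (by omega) hs).2.2 (idx d k) (by rw [idx_val hk]; omega)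
        rw [hc', piecewise_eq_of_notMem]
        simp [hF, this, hy]
      rw [gk, Equiv.Perm.mul_apply, Equiv.Perm.inv_eq_iff_eq, h2]
      simp [gk]
    have hz : φ p (idx d k) = true := by
      rw [hφ, Equiv.Perm.mul_apply, flpP_apply, flp_idx hk, gk_bit c c0 p (by rw [idx_val hk]), hp]
      rfl
    have h3 : seg c' (k - 8 * e) (8 * e) (φ p) = seg ω (k - 8 * e) (8 * e) (φ p) := by
      refine (path_p1 (fun s hs => ?_)).1
      obtain ⟨a1, _, a3⟩ := mem_path (by omega) hs
      have := a3 (idx d k) (by rw [idx_val hk]; omega)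
      rw [hc', piecewise_eq_of_mem]
      simp only [hF, mem_filter, mem_univ, true_and]
      exact ⟨a1, this.trans hz⟩
    have h4 : seg c' 0 (k - 8 * e) = seg c0 0 (k - 8 * e) := by
      refine seg_congr (by omega) (fun s _ hs => ?_)
      rw [hc', piecewise_eq_of_notMem]
      simp only [hF, mem_filter, mem_univ, true_and]
      omega
    have h5 : seg c' 0 k = seg c' 0 (k - 8 * e) * seg c' (k - 8 * e) (8 * e) := by
      have := seg_add c' 0 (k - 8 * e) (8 * e)
      rwa [Nat.sub_add_cancel he, zero_add] at this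
    have h6 : flp k (gk c c0 k p) = φ p := rfl
    rw [h1, h6, gk, mul_inv_rev, inv_inv, h5]
    simp only [Equiv.Perm.mul_apply]
    rw [h3, h4]
    rfl
  · apply Real.exp_le_exp.2
    have : (2 * #(Rk k T) : ℝ) ≤ #T := by exact_mod_cast two_Rk_le hk T
    gcongr
    linarith

end H4TS
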