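import Crest.Agent.H4.TS.Weight
import Crest.Agent.H4.TS.Count

set_option autoImplicit false
open Finset BigOperators Module Equiv
open scoped RealInnerProductSpace

namespace H4TS

section Gen
variable {E : Type*} [NormedAddCommGroup E] [InnerProductSpace ℝ E] [CompleteSpace E]
  [FiniteDimensional ℝ E]

lemma proj_comm (U : Submodule ℝ E) (Q : E →L[ℝ] E) (h1 : ∀ v ∈ U, Q v ∈ U)
    (h2 : ∀ v ∈ Uᗮ, Q v ∈ Uᗮ) (v : E) : U.starProjection (Q v) = Q (U.starProjection v) := by
  apply Submodule.eq_starProjection_of_mem_orthogonal (h1 _ (U.starProjection_apply_mem v))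
  rw [← map_sub]
  exact h2 _ (U.sub_starProjection_mem_orthogonal v)

lemma inv_orth {α : Type*} [Fintype α] [DecidableEq α] {ρ : Perm α →* (E →L[ℝ] E)} (hρ : Iso ρ)
    {U : Submodule ℝ E} (h : ∀ g, ∀ v ∈ U, ρ g v ∈ U) : ∀ g, ∀ v ∈ Uᗮ, ρ g v ∈ Uᗮ := by
  intro g v hv u hu
  rw [hρ.adj]
  exact hv _ (h _ u hu)

lemma finrank_sup_le {ι : Type*} (s : Finset ι) (f : ι → Submodule ℝ E) :
    finrank ℝ (s.sup f : Submodule ℝ E) ≤ ∑ i ∈ s, finrank ℝ (f i) := by
  classical
  induction s using Finset.induction_on with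
  | empty => simp
  | insert a s ha ih =>
    rw [sup_insert, sum_insert ha]
    exact (Submodule.finrank_add_le_finrank_add_finrank _ _).trans (by omega)

lemma decomp (V : ℕ → Submodule ℝ E) (N : ℕ) (hV : ∀ i < N, V i ≤ V (i + 1)) (X : E →L[ℝ] E)
    (h1 : ∀ i, ∀ v ∈ V i, X v ∈ V i) (h2 : ∀ i, ∀ v ∈ (V i)ᗮ, X v ∈ (V i)ᗮ) (j : ℕ) (hj : j ≤ N)
    (v : E) (hv : v ∈ V j) (h0 : v ∈ (V 0)ᗮ) :
    ‖X v‖ ^ 2 = ∑ i ∈ range j, ‖X ((V (i + 1) ⊓ (V i)ᗮ).starProjection v)‖ ^ 2 := by
  have hmono : ∀ b ≤ N, ∀ a ≤ b, V a ≤ V b := by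
    intro b hb a hab
    induction b with
    | zero => rw [Nat.le_zero.1 hab]
    | succ b ih =>
      rcases eq_or_lt_of_le hab with h | h
      · rw [h]
      · exact (ih (by omega) (by omega)).trans (hV b (by omega))
  induction j generalizing v with
  | zero =>
    have : v = 0 := inner_self_eq_zero.1 (h0 v hv)
    simp [this]
  | succ j ih =>
    set v' := (V j).starProjection v with hv'
    have a1 : v' ∈ V j := (V j).starProjection_apply_mem v
    have a2 : v - v' ∈ (V j)ᗮ := (V j).sub_starProjection_mem_orthogonal v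
    have a3 : v' ∈ (V 0)ᗮ := by
      have := (V 0)ᗮ.sub_mem h0 (Submodule.orthogonal_le (hmono j (by omega) 0 (by omega)) a2)
      simpa using this
    have a4 : (V (j + 1) ⊓ (V j)ᗮ).starProjection v = v - v' := by
      apply Submodule.eq_starProjection_of_mem_orthogonal
      · exact ⟨(V (j + 1)).sub_mem hv (hV j (by omega) a1), a2⟩
      · rw [sub_sub_cancel]
        intro u hu
        rw [real_inner_comm]
        exact hu.2 _ a1
    have a5 : ∀ i < j, (V (i + 1) ⊓ (V i)ᗮ).starProjection v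
        = (V (i + 1) ⊓ (V i)ᗮ).starProjection v' := by
      intro i hi
      rw [← sub_eq_zero, ← map_sub, Submodule.starProjection_apply_eq_zero_iff]
      exact Submodule.orthogonal_le (inf_le_left.trans (hmono j (by omega) _ (by omega))) a2
    rw [sum_range_succ, a4, sum_congr rfl (fun i hi => by rw [a5 i (mem_range.1 hi)]),
      ← ih (by omega) v' a1 a3]
    have : X v = X v' + X (v - v') := by simp
    rw [this, norm_add_sq_real, h2 j _ a2 _ (h1 j _ a1)]
    ring

end Gen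

variable {α : Type*} [Fintype α] [DecidableEq α]

abbrev HH (α : Type*) := EuclideanSpace ℝ (Perm α)

noncomputable def tr (e : Perm α ≃ Perm α) : HH α →L[ℝ] HH α :=
  (LinearIsometryEquiv.piLpCongrLeft 2 ℝ ℝ e).toContinuousLinearEquiv

lemma tr_apply (e : Perm α ≃ Perm α) (f : HH α) (g : Perm α) : tr e f g = f (e.symm g) := by
  simp [tr, LinearIsometryEquiv.piLpCongrLeft_apply]

noncomputable def lam : Perm α →* (HH α →L[ℝ] HH α) where
  toFun h := tr (Equiv.mulLeft h)
  map_one' := by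
    ext f g; rw [tr_apply, Equiv.mulLeft_symm_apply]; simp
  map_mul' a b := by
    ext f g
    rw [ContinuousLinearMap.mul_apply, tr_apply, tr_apply, tr_apply, Equiv.mulLeft_symm_apply,
      Equiv.mulLeft_symm_apply, Equiv.mulLeft_symm_apply]
    simp only [mul_inv_rev, mul_assoc]

noncomputable def rgt : Perm α →* (HH α →L[ℝ] HH α) where
  toFun h := tr (Equiv.mulRight h⁻¹)
  map_one' := by
    ext f g; rw [tr_apply, Equiv.mulRight_symm_apply]; simp
  map_mul' a b := by
    ext f g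
    rw [ContinuousLinearMap.mul_apply, tr_apply, tr_apply, tr_apply, Equiv.mulRight_symm_apply,
      Equiv.mulRight_symm_apply, Equiv.mulRight_symm_apply]
    simp only [inv_inv, mul_assoc]

lemma lam_apply (h : Perm α) (f : HH α) (g : Perm α) : lam h f g = f (h⁻¹ * g) :=
  tr_apply _ _ _

lemma rgt_apply (h : Perm α) (f : HH α) (g : Perm α) : rgt h f g = f (g * h) :=
  tr_apply _ _ _

lemma iso_lam : Iso (lam (α := α)) := fun _ u v => LinearIsometryEquiv.inner_map_map _ u v
lemma iso_rgt : Iso (rgt (α := α)) := fun _ u v => LinearIsometryEquiv.inner_map_map _ u v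

lemma lam_rgt (g h : Perm α) : Commute (rgt h) (lam g) := by
  ext f x
  simp [lam_apply, rgt_apply, mul_assoc]

lemma inner_eq (u v : HH α) : ⟪u, v⟫ = ∑ g, u g * v g := by
  simp [PiLp.inner_apply, mul_comm]

def MM (I : Finset α) : Submodule ℝ (HH α) where
  carrier := {f | ∀ g h : Perm α, (∀ i ∈ I, g i = h i) → f g = f h}
  add_mem' := fun ha hb g h e => by simp [ha g h e, hb g h e]
  zero_mem' := fun _ _ _ => rfl
  smul_mem' := fun c f hf g h e => by simp [hf g h e]

noncomputable def VV (α : Type*) [Fintype α] [DecidableEq α] (j : ℕ) : Submodule ℝ (HH α) :=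
  (powersetCard j univ).sup MM

lemma MM_mono {I J : Finset α} (h : I ⊆ J) : MM I ≤ MM J :=
  fun _ hf g g' e => hf g g' (fun i hi => e i (h hi))

lemma MM_le_VV {I : Finset α} {j : ℕ} (h : #I = j) : MM I ≤ VV α j :=
  le_sup (f := MM) (mem_powersetCard_univ.2 h)

lemma lam_MM {I : Finset α} (g : Perm α) {v : HH α} (hv : v ∈ MM I) : lam g v ∈ MM I := by
  intro a b e
  rw [lam_apply, lam_apply]
  exact hv _ _ (fun i hi => by simp [e i hi])

lemma rgt_MM {I : Finset α} (g : Perm α) {v : HH α} (hv : v ∈ MM I) :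
    rgt g v ∈ MM (I.map g.toEmbedding) := by
  intro a b e
  rw [rgt_apply, rgt_apply]
  exact hv _ _ (fun i hi => e _ (mem_map_of_mem _ hi))

lemma VV_ind {j : ℕ} {U : Submodule ℝ (HH α)} (Q : HH α →L[ℝ] HH α)
    (h : ∀ I, #I = j → ∀ v ∈ MM I, Q v ∈ U) : ∀ v ∈ VV α j, Q v ∈ U := by
  have : VV α j ≤ U.comap (Q : HH α →ₗ[ℝ] HH α) :=
    Finset.sup_le (fun I hI => h I (mem_powersetCard_univ.1 hI))
  exact this

lemma lam_VV (j : ℕ) (g : Perm α) : ∀ v ∈ VV α j, lam g v ∈ VV α j :=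
  VV_ind _ (fun _ hI _ hv => MM_le_VV hI (lam_MM g hv))

lemma rgt_VV (j : ℕ) (g : Perm α) : ∀ v ∈ VV α j, rgt g v ∈ VV α j :=
  VV_ind _ (fun _ hI _ hv => MM_le_VV (by rw [card_map, hI]) (rgt_MM g hv))

lemma VV_mono {j : ℕ} (hj : j < Fintype.card α) : VV α j ≤ VV α (j + 1) := by
  refine Finset.sup_le (fun I hI => ?_)
  have h := mem_powersetCard_univ.1 hI
  obtain ⟨J, h1, h2⟩ := exists_superset_card_eq (s := I) (n := j + 1) (by omega) hj
  exact (MM_mono h1).trans (MM_le_VV h2)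

lemma VV_top (v : HH α) : v ∈ VV α (Fintype.card α) :=
  MM_le_VV (I := univ) rfl (fun g h e => by rw [Equiv.ext (fun i => e i (mem_univ i))])

lemma MM_iff (I : Finset α) (v : HH α) : v ∈ MM I ↔ v ∈ Fix rgt Iᶜ := by
  constructor
  · intro hv x hx y hy
    ext g
    rw [rgt_apply]
    refine hv _ _ (fun i hi => ?_)
    rw [Perm.mul_apply, swap_apply_of_ne_of_ne]
    · rintro rfl; exact mem_compl.1 hx hi
    · rintro rfl; exact mem_compl.1 hy hi
  · intro hv g h e
    have h1 : (g⁻¹ * h).support ⊆ Iᶜ := by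
      intro x hx
      rw [mem_compl]
      intro hi
      rw [Perm.mem_support] at hx
      exact hx (by simp [← e x hi])
    have : rgt (g⁻¹ * h) v = v := fix_of_support (E := HH α) rgt (A := Iᶜ) (v := v) hv _ h1
    conv_lhs => rw [← this]
    rw [rgt_apply]; simp

lemma T2_lam (v : HH α) : T2 lam univ v = T2 rgt univ v := by
  ext g
  simp only [T2, WithLp.ofLp_sum, Finset.sum_apply, lam_apply, rgt_apply, swap_inv]
  rw [← Equiv.sum_comp g]
  refine sum_congr rfl (fun x _ => ?_)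
  rw [← Equiv.sum_comp g]
  exact sum_congr rfl (fun y _ => by rw [mul_swap_eq_swap_mul])

lemma Op_norm_sq {Ω : Type*} [Fintype Ω] (β : Ω → Perm α) (v : HH α) :
    ‖Op lam β v‖ ^ 2 = 𝔼 x : Ω × Ω, ∑ g, v g * v ((β x.2)⁻¹ * β x.1 * g) := by
  rw [exp_pair, ← real_inner_self_eq_norm_sq, Op_inner, expect_comm]
  refine expect_congr rfl (fun ω _ => ?_)
  rw [real_inner_comm, Op_inner]
  refine expect_congr rfl (fun ω' _ => ?_)
  rw [iso_lam.adj, real_inner_comm, rho_mul, inner_eq]
  refine sum_congr rfl (fun g _ => ?_)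
  rw [lam_apply, mul_inv_rev, inv_inv]

end H4TS
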