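import Mathlib

set_option autoImplicit false
open Finset BigOperators Module
open scoped RealInnerProductSpace

namespace H4TS
variable {E : Type*} [NormedAddCommGroup E] [InnerProductSpace ℝ E] [FiniteDimensional ℝ E]

lemma exists_eb (B : E →ₗ[ℝ] E) (hB : B.IsSymmetric) :
    ∃ (b : OrthonormalBasis (Fin (finrank ℝ E)) ℝ E) (ν : Fin (finrank ℝ E) → ℝ),
      ∀ i, B (b i) = ν i • b i :=
  ⟨hB.eigenvectorBasis rfl, hB.eigenvalues rfl, fun i => hB.apply_eigenvectorBasis rfl i⟩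

lemma exists_svb (A : E →ₗ[ℝ] E) :
    ∃ (b : OrthonormalBasis (Fin (finrank ℝ E)) ℝ E) (ν : Fin (finrank ℝ E) → ℝ),
      (∀ i w, ⟪A (b i), A w⟫ = ν i * ⟪b i, w⟫) ∧ ∀ v, ‖A v‖ ^ 2 = ∑ i, ν i * ⟪b i, v⟫ ^ 2 := by
  have hs : (LinearMap.adjoint A ∘ₗ A).IsSymmetric := by
    intro x y
    simp [LinearMap.adjoint_inner_left, LinearMap.adjoint_inner_right]
  obtain ⟨b, ν, h⟩ := exists_eb _ hs
  have h1 : ∀ i w, ⟪A (b i), A w⟫ = ν i * ⟪b i, w⟫ := by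
    intro i w
    rw [← LinearMap.adjoint_inner_left, ← real_inner_smul_left, ← h i]; rfl
  refine ⟨b, ν, h1, fun v => ?_⟩
  rw [← real_inner_self_eq_norm_sq]
  conv_lhs => enter [2]; rw [← b.sum_repr' v]
  rw [map_sum, sum_inner]
  refine sum_congr rfl (fun i _ => ?_)
  rw [map_smul, real_inner_smul_left, h1]; ring

def Hi (A : E →ₗ[ℝ] E) (μ : ℝ) : Submodule ℝ E where
  carrier := {v | ∀ u l, (∀ w, ⟪A u, A w⟫ = l * ⟪u, w⟫) → l ≤ μ → ⟪u, v⟫ = 0}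
  add_mem' := fun ha hb u l h1 h2 => by rw [inner_add_right, ha u l h1 h2, hb u l h1 h2, add_zero]
  zero_mem' := fun u l _ _ => inner_zero_right _
  smul_mem' := fun c x hx u l h1 h2 => by rw [real_inner_smul_right, hx u l h1 h2, mul_zero]

lemma Hi_gt (A : E →ₗ[ℝ] E) (μ : ℝ) {v : E} (hv : v ∈ Hi A μ) (h0 : v ≠ 0) :
    μ * ‖v‖ ^ 2 < ‖A v‖ ^ 2 := by
  obtain ⟨b, ν, h1, h2⟩ := exists_svb A
  rw [h2, ← b.sum_sq_inner_right, mul_sum]
  have h3 : ∀ i, ν i ≤ μ → ⟪b i, v⟫ = 0 := fun i h => hv (b i) (ν i) (h1 i) h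
  apply sum_lt_sum
  · intro i _
    rcases le_total (ν i) μ with h | h
    · simp [h3 i h]
    · exact mul_le_mul_of_nonneg_right h (sq_nonneg _)
  · by_contra hc
    push Not at hc
    apply h0
    rw [← norm_eq_zero, ← pow_eq_zero_iff (two_ne_zero), ← b.sum_sq_inner_right]
    refine sum_eq_zero (fun i _ => ?_)
    rcases le_or_gt (ν i) μ with h | h
    · simp [h3 i h]
    · have := hc i (mem_univ _)
      nlinarith [sq_nonneg ⟪b i, v⟫]

lemma Hi_ge (A : E →ₗ[ℝ] E) (μ : ℝ) {v : E} (hv : v ∈ Hi A μ) : μ * ‖v‖ ^ 2 ≤ ‖A v‖ ^ 2 := by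
  by_cases h : v = 0
  · simp [h]
  · exact (Hi_gt A μ hv h).le

lemma mem_Hi (A : E →ₗ[ℝ] E) (μ : ℝ) {v : E} {l : ℝ} (h : ∀ w, ⟪A v, A w⟫ = l * ⟪v, w⟫)
    (hl : μ < l) : v ∈ Hi A μ := by
  intro u l' h1 h2
  have e1 := h1 v
  have e2 := h u
  rw [real_inner_comm, e1, real_inner_comm u v] at e2
  have : (l - l') * ⟪u, v⟫ = 0 := by linarith
  exact (mul_eq_zero.1 this).resolve_left (by linarith)

lemma Hi_orth_le (A : E →ₗ[ℝ] E) (μ : ℝ) {v : E} (hv : v ∈ (Hi A μ)ᗮ) :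
    ‖A v‖ ^ 2 ≤ μ * ‖v‖ ^ 2 := by
  obtain ⟨b, ν, h1, h2⟩ := exists_svb A
  rw [h2, ← b.sum_sq_inner_right, mul_sum]
  refine sum_le_sum (fun i _ => ?_)
  rcases le_or_gt (ν i) μ with h | h
  · exact mul_le_mul_of_nonneg_right h (sq_nonneg _)
  · simp [hv _ (mem_Hi A μ (h1 i) h)]

lemma Hi_inv (A Q Q' : E →ₗ[ℝ] E) (hQ : ∀ u v, ⟪u, Q v⟫ = ⟪Q' u, v⟫) (h1 : ∀ v, A (Q v) = Q (A v))
    (h2 : ∀ v, A (Q' v) = Q' (A v)) (μ : ℝ) {v : E} (hv : v ∈ Hi A μ) : Q v ∈ Hi A μ := by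
  intro u l e1 e2
  rw [hQ]
  refine hv _ l (fun w => ?_) e2
  rw [h2, ← hQ, ← h1, e1, hQ]

lemma exists_Wt (A : E →ₗ[ℝ] E) (μ : ℝ) (hμ : 0 ≤ μ) (t : ℕ) : ∃ W : Submodule ℝ E,
    finrank ℝ E ≤ finrank ℝ W + t * finrank ℝ (Hi A μ) ∧
      ∀ v ∈ W, ‖(A ^ t) v‖ ^ 2 ≤ μ ^ t * ‖v‖ ^ 2 := by
  induction t with
  | zero => exact ⟨⊤, by simp, by simp⟩
  | succ t ih =>
    obtain ⟨W, h1, h2⟩ := ih
    refine ⟨(Hi A μ)ᗮ ⊓ W.comap A, ?_, fun v hv => ?_⟩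
    · have e1 := Submodule.finrank_sup_add_finrank_inf_eq (Hi A μ)ᗮ (W.comap A)
      have e2 := Submodule.finrank_add_finrank_orthogonal (Hi A μ)
      have e3 := Submodule.finrank_le ((Hi A μ)ᗮ ⊔ (W.comap A))
      have e4 := LinearMap.finrank_range_add_finrank_ker (W.mkQ ∘ₗ A)
      have e5 : LinearMap.ker (W.mkQ ∘ₗ A) = W.comap A := by
        rw [LinearMap.ker_comp, Submodule.ker_mkQ]
      have e6 := Submodule.finrank_le (LinearMap.range (W.mkQ ∘ₗ A))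
      have e7 := W.finrank_quotient_add_finrank
      rw [e5] at e4
      rw [add_mul]
      omega
    · rw [pow_succ A, Module.End.mul_apply, pow_succ μ, mul_assoc]
      exact (h2 _ hv.2).trans (mul_le_mul_of_nonneg_left (Hi_orth_le A μ hv.1) (by positivity))

lemma pow_norm_le (A : E →ₗ[ℝ] E) (μ : ℝ) (hμ : 0 ≤ μ) (h : ∀ v, ‖A v‖ ^ 2 ≤ μ * ‖v‖ ^ 2) (t : ℕ)
    (v : E) : ‖(A ^ t) v‖ ^ 2 ≤ μ ^ t * ‖v‖ ^ 2 := by
  induction t generalizing v with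
  | zero => simp
  | succ t ih =>
    rw [pow_succ A, Module.End.mul_apply, pow_succ μ, mul_assoc]
    exact (ih _).trans (mul_le_mul_of_nonneg_left (h v) (by positivity))

theorem lemR (A : E →ₗ[ℝ] E) (μ0 C : ℝ) (hμ : 0 < μ0) (h0 : ∀ v, ‖A v‖ ^ 2 ≤ μ0 * ‖v‖ ^ 2)
    (hC : ∀ μ, 0 < μ → finrank ℝ (Hi A μ) * μ ^ 50 ≤ C) {ι : Type*} [Fintype ι]
    (c : OrthonormalBasis ι ℝ E) :
    ∑ j, ‖(A ^ 1600) (c j)‖ ^ 2 ≤ 3200 * 2 ^ 50 * C * μ0 ^ 1550 := by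
  classical
  obtain ⟨b, ν, h1, h2⟩ := exists_svb (A ^ 1600)
  have hC0 : 0 ≤ C := le_trans (by positivity) (hC 1 one_pos)
  have e1 : ∑ j, ‖(A ^ 1600) (c j)‖ ^ 2 = ∑ i, ν i := by
    simp only [h2]
    rw [sum_comm]
    refine sum_congr rfl (fun i _ => ?_)
    rw [← mul_sum, c.sum_sq_inner_left, b.orthonormal.1 i]; simp
  have e2 : ∀ i, ν i ≤ μ0 ^ 1600 := by
    intro i
    have := pow_norm_le A μ0 hμ.le h0 1600 (b i)
    rw [← real_inner_self_eq_norm_sq, h1, real_inner_self_eq_norm_sq, b.orthonormal.1 i] at this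
    simpa using this
  have e3 : ∀ μ, 0 < μ → (#{i | μ ^ 1600 < ν i} : ℝ) * μ ^ 50 ≤ 1600 * C := by
    intro μ hμ
    obtain ⟨W, w1, w2⟩ := exists_Wt A μ hμ.le 1600
    have d1 : Disjoint (Hi (A ^ 1600) (μ ^ 1600)) W := by
      rw [Submodule.disjoint_def]
      intro v hv hw
      by_contra h
      exact absurd (Hi_gt _ _ hv h) (not_lt.2 (w2 v hw))
    have d2 := Submodule.finrank_add_finrank_le_of_disjoint d1
    have d3 : #{i | μ ^ 1600 < ν i} ≤ finrank ℝ (Hi (A ^ 1600) (μ ^ 1600)) := by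
      let f : {i // μ ^ 1600 < ν i} → Hi (A ^ 1600) (μ ^ 1600) :=
        fun i => ⟨b i, mem_Hi _ _ (h1 i) i.2⟩
      have hl : LinearIndependent ℝ f := by
        apply LinearIndependent.of_comp (Submodule.subtype _)
        exact b.orthonormal.linearIndependent.comp _ Subtype.val_injective
      have := hl.fintype_card_le_finrank
      rwa [Fintype.card_subtype] at this
    have d4 : (#{i | μ ^ 1600 < ν i} : ℝ) ≤ 1600 * finrank ℝ (Hi A μ) := by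
      have : #{i | μ ^ 1600 < ν i} ≤ 1600 * finrank ℝ (Hi A μ) := by omega
      exact_mod_cast this
    calc _ ≤ 1600 * finrank ℝ (Hi A μ) * μ ^ 50 := by gcongr
      _ ≤ _ := by rw [mul_assoc]; gcongr; exact hC μ hμ
  have e4 : ∀ K : ℕ, ∀ i, ν i ≤ (μ0 / 2 ^ K) ^ 1600 + ∑ k ∈ range K,
      (if (μ0 / 2 ^ (k + 1)) ^ 1600 < ν i then (μ0 / 2 ^ k) ^ 1600 else 0) := by
    intro K i
    induction K with
    | zero => simpa using e2 i
    | succ K ih =>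
      rw [sum_range_succ]
      have : 0 ≤ ∑ k ∈ range K,
          (if (μ0 / 2 ^ (k + 1)) ^ 1600 < ν i then (μ0 / 2 ^ k) ^ 1600 else 0) :=
        sum_nonneg (fun k _ => by split <;> positivity)
      have : 0 ≤ (μ0 / 2 ^ (K + 1)) ^ 1600 := by positivity
      split <;> linarith
  have e5 : ∀ K : ℕ, ∑ i, ν i ≤ finrank ℝ E * (μ0 ^ 1600 * (1 / 2) ^ K)
      + 3200 * 2 ^ 50 * C * μ0 ^ 1550 := by
    intro K
    refine (sum_le_sum (fun i _ => e4 K i)).trans ?_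
    rw [sum_add_distrib, sum_comm]
    have hp : ∀ (k m : ℕ), (μ0 / 2 ^ k) ^ (m + 1) ≤ μ0 ^ (m + 1) * (1 / 2) ^ k := by
      intro k m
      rw [div_pow, div_eq_mul_one_div, one_div_pow]
      gcongr
      exact le_self_pow₀ (one_le_pow₀ (by norm_num)) (by omega)
    apply add_le_add
    · simp only [sum_const, card_univ, Fintype.card_fin, nsmul_eq_mul]
      gcongr
      exact hp K 1599
    · calc _ ≤ ∑ k ∈ range K, 1600 * 2 ^ 50 * C * μ0 ^ 1550 * (1 / 2) ^ k := by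
            refine sum_le_sum (fun k _ => ?_)
            rw [← sum_filter, sum_const, nsmul_eq_mul]
            have := e3 (μ0 / 2 ^ (k + 1)) (by positivity)
            have e : (μ0 / 2 ^ k) ^ 1600 = (μ0 / 2 ^ (k + 1)) ^ 50 * (2 ^ 50 * (μ0 / 2 ^ k) ^ 1550) := by
              have : μ0 / 2 ^ k = 2 * (μ0 / 2 ^ (k + 1)) := by rw [pow_succ]; field_simp
              rw [show 1600 = 50 + 1550 from rfl, pow_add]
              conv_lhs => enter [1]; rw [this, mul_pow]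
              ring
            rw [e, ← mul_assoc]
            calc _ ≤ 1600 * C * (2 ^ 50 * (μ0 ^ 1550 * (1 / 2) ^ k)) := by
                  gcongr
                  exact hp k 1549
              _ = _ := by ring
        _ ≤ _ := by
            rw [← mul_sum]
            have := sum_geometric_two_le K
            calc _ ≤ 1600 * 2 ^ 50 * C * μ0 ^ 1550 * 2 := by gcongr
              _ = _ := by ring
  rw [e1]
  have hlim : Filter.Tendsto (fun K : ℕ => finrank ℝ E * (μ0 ^ 1600 * (1 / 2 : ℝ) ^ K)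
      + 3200 * 2 ^ 50 * C * μ0 ^ 1550) Filter.atTop
      (nhds (finrank ℝ E * (μ0 ^ 1600 * 0) + 3200 * 2 ^ 50 * C * μ0 ^ 1550)) :=
    (((tendsto_pow_atTop_nhds_zero_of_lt_one (by norm_num) (by norm_num)).const_mul _).const_mul
      _).add_const _
  simpa using ge_of_tendsto' hlim e5

end H4TS
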