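import Crest.Agent.H4.TS.Lev
import Crest.Agent.H4.TS.Low

set_option autoImplicit false
open Finset BigOperators Module Equiv
open scoped RealInnerProductSpace

namespace H4TS
variable {d : ℕ}

abbrev net (d : ℕ) : St d → Perm (Pos d) := fun c => seg c 0 (d + 1)

lemma cnt_inst (r : ℕ) (F : ℝ) (hF0 : 0 < F) (hF : ∀ T : Finset (Pos d), #T = r →
    𝔼 x : St d × St d, (W x.1 x.2 (d + 1) T : ℝ) ^ (1 / 48 : ℝ) ≤ F) :
    Cnt (Op lam (net d)) r (8 * 4 ^ 48 * F ^ 48) := by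
  intro I hI ι _ v hM hv μ hμ hq Γ hΓ hG
  have := counting (fun x : St d × St d => gk x.1 x.2 (d + 1)) (Equiv.prodComm _ _)
    (fun x => by simp [gk]) I (fun T x => (W x.1 x.2 (d + 1) T : ℝ))
    (fun T x => by exact_mod_cast W_pos _ _ _ _) (fun T hT h => by
      rw [exp_pair, card_Pos, ← hT]
      refine (A1 le_rfl T h).trans (le_of_eq ?_)
      push_cast; rw [pow_mul]) F hF0 (fun T hT => hF T (hT.trans hI)) (fun a g => v a g) hM
    (fun a => by rw [← EuclideanSpace.real_norm_sq_eq, hv, one_pow]) μ hμ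
    (fun a => by have := hq a; rwa [Op_norm_sq] at this) Γ hΓ
    (fun a => by simpa only [inner_eq] using hG a)
  linarith

lemma Ck_comm' {E : Type*} [NormedAddCommGroup E] [InnerProductSpace ℝ E] [CompleteSpace E]
    {ρ : Perm (Pos d) →* (E →L[ℝ] E)} {X : E →L[ℝ] E} (h : ∀ g, Commute X (ρ g)) (k : ℕ) :
    Commute X (Ck ρ k) :=
  Commute.smul_right (Commute.sum_right _ _ _ (fun p _ => Commute.sum_right _ _ _
    (fun q _ => by
      split
      · exact (Commute.one_right _).sub_right (h _)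
      · exact Commute.zero_right _))) _

lemma Ck_top {E : Type*} [NormedAddCommGroup E] [InnerProductSpace ℝ E] [CompleteSpace E]
    (ρ : Perm (Pos d) →* (E →L[ℝ] E)) (v : E) : T2 ρ univ v
      = ((2 : ℝ) ^ (d + 1)) ^ 2 • v - (2 * 2 ^ (d + 1) : ℝ) • Ck ρ (d + 1) v := by
  have hk : ∀ p q : Pos d, key (d + 1) p = key (d + 1) q := by
    intro p q; ext l
    have : ¬ d + 1 ≤ (l : ℕ) := by have := l.isLt; omega
    simp [key, this]
  rw [Ck, ContinuousLinearMap.smul_apply, smul_smul, mul_one_div_cancel (by positivity), one_smul]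
  simp only [if_pos (hk _ _), ContinuousLinearMap.sum_apply, ContinuousLinearMap.sub_apply,
    ContinuousLinearMap.one_apply]
  simp only [sum_sub_distrib, sum_const, card_univ, card_Pos, T2,
    ← Nat.cast_smul_eq_nsmul ℝ, smul_smul]
  push_cast
  rw [sq]; abel

lemma cas_inst (i : ℕ) (hi : i + 1 ≤ 2 ^ (d + 1)) (c : ℝ) (hc0 : 0 ≤ c)
    (hc : c ≤ (i + 1) / 2 ∨ c * 2 ^ (d + 1) ≤ (i + 1) * (2 ^ (d + 1) - 2 * (i + 1)))
    (v : HH (Pos d)) : ‖AA (net d) i v‖ ^ 2 ≤ Real.exp (-(c / 8)) * ‖v‖ ^ 2 := by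
  have hU : ∀ v ∈ (VV (Pos d) i)ᗮ, Ck lam (d + 1) v ∈ (VV (Pos d) i)ᗮ := by
    intro v hv
    simp only [Ck, ContinuousLinearMap.smul_apply, ContinuousLinearMap.sum_apply]
    refine Submodule.smul_mem _ _ (Submodule.sum_mem _ (fun p _ => Submodule.sum_mem _
      (fun q _ => ?_)))
    split
    · exact Submodule.sub_mem _ hv (inv_orth iso_lam (lam_VV i) _ v hv)
    · exact Submodule.zero_mem _
  have hC : ∀ v : HH (Pos d), T2 rgt univ v
      = ((2 : ℝ) ^ (d + 1)) ^ 2 • v - (2 * 2 ^ (d + 1) : ℝ) • Ck lam (d + 1) v := by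
    intro v
    rw [← T2_lam, Ck_top]
  have := P_le iso_lam (VV (Pos d) i)ᗮ hU c hc0 (fun w hw h0 y hy => ?_) _
    ((Lv (Pos d) i).starProjection_apply_mem v).2
  · refine this.trans ?_
    gcongr
    exact Submodule.norm_starProjection_apply_le _ _
  · set U := (VV (Pos d) i)ᗮ ⊓ Module.End.eigenspace
      ((Ck lam (d + 1) : HH (Pos d) →L[ℝ] HH (Pos d)) : HH (Pos d) →ₗ[ℝ] HH (Pos d)) y with hUdef
    have hmem : ∀ u, u ∈ U ↔ u ∈ (VV (Pos d) i)ᗮ ∧ Ck lam (d + 1) u = y • u := fun u => by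
      rw [hUdef, Submodule.mem_inf, Module.End.mem_eigenspace_iff]; rfl
    have hcm : ∀ g : Perm (Pos d), Commute (rgt g) (Ck lam (d + 1)) := fun g =>
      Ck_comm' (fun h => lam_rgt h g) _
    have h := casimir (E := HH (Pos d)) rgt iso_rgt.norm U
      ((Submodule.ne_bot_iff _).2 ⟨w, (hmem w).2 ⟨hw, hy⟩, h0⟩)
      (fun a b u hu => by
        obtain ⟨u1, u2⟩ := (hmem u).1 hu
        refine (hmem _).2 ⟨inv_orth iso_rgt (rgt_VV i) _ u u1, ?_⟩
        rw [← map_smul, ← u2]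
        exact (congrArg (fun f : HH (Pos d) →L[ℝ] HH (Pos d) => f u) (hcm _).eq).symm)
      (((2 : ℝ) ^ (d + 1)) ^ 2 - 2 * 2 ^ (d + 1) * y)
      (fun u hu => by rw [hC, ((hmem u).1 hu).2, smul_smul, sub_smul])
      (i + 1) (by rw [card_Pos]; exact hi)
      (fun A hA => by
        rw [eq_bot_iff]
        intro u hu
        have h1 : u ∈ VV (Pos d) i := by
          refine MM_le_VV (I := Aᶜ) ?_ ((MM_iff _ _).2 (by rw [compl_compl]; exact hu.2))
          rw [card_compl, hA, card_Pos]; omega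
        exact inner_self_eq_zero.1 (((hmem u).1 hu.1).1 u h1))
    rw [card_Pos] at h
    push_cast at h
    have hn : (0 : ℝ) < 2 ^ (d + 1) := by positivity
    rcases hc with hc | hc
    · nlinarith [h.1]
    · nlinarith [h.2]

noncomputable def hsq {E : Type*} [NormedAddCommGroup E] [InnerProductSpace ℝ E] {ι : Type*}
    [Fintype ι] (A : E →ₗ[ℝ] E) (c : OrthonormalBasis ι ℝ E) (t : ℕ) : ℝ :=
  ∑ j, ‖(A ^ t) (c j)‖ ^ 2

lemma lemR' {E : Type*} [NormedAddCommGroup E] [InnerProductSpace ℝ E] [FiniteDimensional ℝ E]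
    (A : E →ₗ[ℝ] E) (μ0 C : ℝ) (hμ : 0 < μ0) (h0 : ∀ v, ‖A v‖ ^ 2 ≤ μ0 * ‖v‖ ^ 2)
    (hC : ∀ μ, 0 < μ → finrank ℝ (Hi A μ) * μ ^ 50 ≤ C) {ι : Type*} [Fintype ι]
    (c : OrthonormalBasis ι ℝ E) : hsq A c 1600 ≤ 3200 * 2 ^ 50 * C * μ0 ^ 1550 :=
  lemR A μ0 C hμ h0 hC c

noncomputable def HS (d i : ℕ) : ℝ :=
  hsq (AA (net d) i) (EuclideanSpace.basisFun (Perm (Pos d)) ℝ) 1600

lemma HS_le (i : ℕ) (F μ0 : ℝ) (hF0 : 0 < F) (hF : ∀ T : Finset (Pos d), #T = i + 1 →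
    𝔼 x : St d × St d, (W x.1 x.2 (d + 1) T : ℝ) ^ (1 / 48 : ℝ) ≤ F) (hμ : 0 < μ0)
    (h0 : ∀ v, ‖AA (net d) i v‖ ^ 2 ≤ μ0 * ‖v‖ ^ 2) :
    HS d i ≤ 3200 * 2 ^ 50 * (8 * 4 ^ 48) * ((2 ^ (d + 1)).choose (i + 1) * F ^ 48 * μ0 ^ 1550) := by
  have := lemR' (AA (net d) i) μ0 _ hμ h0 (fun μ hμ => Hi_count _ i (cnt_inst _ F hF0 hF) hμ)
    (EuclideanSpace.basisFun (Perm (Pos d)) ℝ)
  rw [card_Pos] at this
  refine le_trans this (le_of_eq ?_)
  generalize μ0 ^ 1550 = a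
  generalize F ^ 48 = b
  generalize (3200 * 2 ^ 50 : ℝ) = c
  generalize (8 * 4 ^ 48 : ℝ) = e
  ring

lemma choose_le (n j a : ℕ) (hj : 0 < j) (h : n ≤ j * 2 ^ a) :
    (n.choose j : ℝ) ≤ Real.exp (j * (1 + a * Real.log 2)) := by
  have h1 : (n.choose j : ℝ) ≤ n ^ j / j.factorial := Nat.choose_le_pow_div j n
  have h2 := Real.pow_div_factorial_le_exp (j : ℝ) (by positivity) j
  have h3 : (n : ℝ) ≤ j * 2 ^ a := by exact_mod_cast h
  have h4 : ((2 : ℝ) ^ a) ^ j = Real.exp (j * (a * Real.log 2)) := by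
    rw [Real.exp_nat_mul, Real.exp_nat_mul, Real.exp_log (by norm_num)]
  calc _ ≤ (j * 2 ^ a : ℝ) ^ j / j.factorial := h1.trans (by gcongr)
    _ = (j : ℝ) ^ j / j.factorial * (2 ^ a) ^ j := by rw [mul_pow]; ring
    _ ≤ Real.exp j * (2 ^ a) ^ j := by gcongr
    _ = _ := by rw [h4, ← Real.exp_add]; congr 1; ring

lemma term_high (i q : ℕ) (hi : i + 1 ≤ 2 ^ (d + 1)) (hq : q ≤ 9)
    (h1 : (i + 1) * 2 ^ (20 * q) ≤ 2 ^ (d + 1)) (h2 : 2 ^ (d + 1) ≤ (i + 1) * 2 ^ (20 * q + 20)) :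
    HS d i ≤ 3200 * 2 ^ 50 * (8 * 4 ^ 48) * Real.exp (-(i + 1) - q) := by
  have hl := Real.log_two_lt_d9
  have hl0 := Real.log_two_gt_d9
  have hi0 : (0 : ℝ) ≤ i := Nat.cast_nonneg i
  have hq' : (q : ℝ) ≤ 9 := by exact_mod_cast hq
  have key : ∀ c : ℝ, 0 ≤ c →
      (c ≤ (i + 1) / 2 ∨ c * 2 ^ (d + 1) ≤ (i + 1) * (2 ^ (d + 1) - 2 * (i + 1))) →
      (i + 1) * (1 + (20 * q + 20) * Real.log 2) + 16 * (i + 1) - 1550 * c / 8 ≤ -(i + 1) - q →
      HS d i ≤ 3200 * 2 ^ 50 * (8 * 4 ^ 48) * Real.exp (-(i + 1) - q) := by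
    intro c c0 c1 c2
    refine (HS_le i (Real.exp ((i + 1) / 3)) _ (Real.exp_pos _) (fun T hT => by
      simpa [hT] using F_triv T) (Real.exp_pos _) (cas_inst i hi c c0 c1)).trans ?_
    refine mul_le_mul_of_nonneg_left ?_ (by clear * -; positivity)
    calc _ ≤ Real.exp ((i + 1 : ℕ) * (1 + (20 * q + 20 : ℕ) * Real.log 2)) *
          Real.exp ((i + 1) / 3) ^ 48 * Real.exp (-(c / 8)) ^ 1550 :=
          mul_le_mul_of_nonneg_right (mul_le_mul_of_nonneg_right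
            (choose_le _ _ _ (Nat.succ_pos i) h2) (by clear * -; positivity)) (by clear * -; positivity)
      _ ≤ _ := by
          rw [← Real.exp_nat_mul, ← Real.exp_nat_mul, ← Real.exp_add, ← Real.exp_add]
          apply Real.exp_le_exp.2
          push_cast
          linarith
  rcases le_or_gt (32 * (i + 1)) (2 ^ (d + 1)) with h | h
  · have h' : (32 * (i + 1) : ℝ) ≤ 2 ^ (d + 1) := by exact_mod_cast h
    refine key (15 / 16 * (i + 1)) (by clear * -; positivity) (Or.inr ?_) ?_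
    · generalize (2 : ℝ) ^ (d + 1) = n at h' ⊢
      clear * - h' hi0
      nlinarith
    · clear * - hl hl0 hq' hi0
      have : (20 * q + 20) * Real.log 2 ≤ 200 * 0.7 := by
        apply mul_le_mul <;> linarith
      nlinarith
  · have hq0 : q = 0 := by
      by_contra hc
      have : 2 ^ 20 ≤ 2 ^ (20 * q) := Nat.pow_le_pow_right (by norm_num) (by omega)
      have := Nat.mul_le_mul_left (i + 1) this
      omega
    subst hq0
    refine key ((i + 1) / 2) (by clear * -; positivity) (Or.inl le_rfl) ?_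
    clear * - hl hl0 hi0
    push_cast
    nlinarith

lemma term_low (i q : ℕ) (hq : 10 ≤ q)
    (h1 : (i + 1) * 2 ^ (20 * q) ≤ 2 ^ (d + 1)) (h2 : 2 ^ (d + 1) ≤ (i + 1) * 2 ^ (20 * q + 20)) :
    HS d i ≤ 3200 * 2 ^ 50 * (8 * 4 ^ 48) * ((16 * 4 ^ 48) ^ 31 * Real.exp (-(i + 1) - q)) := by
  have hl := Real.log_two_lt_d9
  have hl0 := Real.log_two_gt_d9
  have hi0 : (0 : ℝ) ≤ i := Nat.cast_nonneg i
  have hq' : (10 : ℝ) ≤ q := by exact_mod_cast hq
  have hd : 16 * q ≤ d + 1 := by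
    have : 2 ^ (20 * q) ≤ 2 ^ (d + 1) := le_trans (Nat.le_mul_of_pos_left _ (Nat.succ_pos i)) h1
    have := (Nat.pow_le_pow_iff_right (by norm_num)).1 this
    omega
  set φ : ℝ := (1 + q) / 2 ^ (2 * q) with hφ
  have hφ0 : 0 ≤ φ := by rw [hφ]; clear * -; positivity
  have e1 : (i + 1) * 2 ^ (q + 1) * 2 ^ (19 * q) ≤ 2 ^ (d + 2) := by
    rw [mul_assoc, ← pow_add, show q + 1 + 19 * q = 20 * q + 1 by ring, pow_succ, pow_succ 2 (d + 1),
      ← mul_assoc]
    omega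
  have e2 : (i + 1) * 2 ^ (19 * q) ≤ 2 ^ (d + 2) :=
    le_trans (Nat.mul_le_mul_right _ (Nat.le_mul_of_pos_right _ (by clear * -; positivity))) e1
  have e3 : (i + 1) * (2 ^ (q + 1) + 2) ≤ 2 ^ (d + 1) := by
    refine le_trans (Nat.mul_le_mul_left _ ?_) h1
    have a1 : 2 ^ (q + 2) ≤ 2 ^ (20 * q) := Nat.pow_le_pow_right (by norm_num) (by omega)
    have a2 : 2 ^ 1 ≤ 2 ^ (q + 1) := Nat.pow_le_pow_right (by norm_num) (by omega)
    rw [pow_succ 2 (q + 1)] at a1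
    omega
  have hcnt := cnt_inst (d := d) ((i + 1) * 2 ^ (q + 1))
    (Real.exp (((i + 1) * 2 ^ (q + 1) : ℕ) * φ)) (Real.exp_pos _)
    (fun T hT => by rw [← hT]; exact F_low T q (by omega) (hT ▸ e1) hd)
  set B := 8 * 4 ^ 48 * Real.exp (((i + 1) * 2 ^ (q + 1) : ℕ) * φ) ^ 48 with hB
  have hB0 : 0 < B := by rw [hB]; clear * -; positivity
  set z : ℝ := 2 * B / (2 ^ q) ^ (i + 1) with hz
  have hz0 : 0 < z := div_pos (mul_pos two_pos hB0) (by clear * -; positivity)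
  set μ0 := z ^ (1 / 50 : ℝ) with hμ0
  have hμ : 0 < μ0 := Real.rpow_pos_of_pos hz0 _
  have hμ50 : μ0 ^ 50 = z := by
    rw [hμ0, ← Real.rpow_natCast, ← Real.rpow_mul hz0.le]; norm_num
  have hbot : Hi (AA (net d) i) μ0 = ⊥ := by
    by_contra hc
    have := mult (net d) i (2 ^ (q + 1)) hcnt (by rw [card_Pos]; exact le_trans (Nat.mul_le_mul_left _ (Nat.le_add_right _ _)) e3)
      (x := 1 / 2 ^ (q + 1)) (by clear * -; positivity) (by
        rw [card_Pos, one_div, le_inv_mul_iff₀ (by clear * -; positivity)]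
        have : ((i + 1) * (2 ^ (q + 1) + 2) : ℝ) ≤ 2 ^ (d + 1) := by exact_mod_cast e3
        push_cast; linarith) hμ hc
    push_cast at this
    rw [mul_one_div_cancel (by clear * -; positivity), hμ50, hz, pow_succ 2 q, mul_pow, one_add_one_eq_two,
      mul_comm ((2 ^ q : ℝ) ^ (i + 1)), mul_assoc, mul_div_cancel₀ _ (by clear * -; positivity)] at this
    have := le_of_mul_le_mul_left this (by clear * -; positivity)
    linarith
  refine (HS_le i (Real.exp ((i + 1 : ℕ) * φ)) μ0 (Real.exp_pos _)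
    (fun T hT => by rw [← hT]; exact F_low T q (by omega) (hT ▸ e2) hd) hμ
    (fun v => Hi_orth_le _ _ (by rw [hbot]; simp))).trans ?_
  refine mul_le_mul_of_nonneg_left ?_ (by clear * -; positivity)
  have h4 : ((2 : ℝ) ^ q) ^ (i + 1) = Real.exp ((i + 1 : ℕ) * (q * Real.log 2)) := by
    rw [Real.exp_nat_mul, Real.exp_nat_mul, Real.exp_log (by norm_num)]
  have h5 : μ0 ^ 1550 = (16 * 4 ^ 48) ^ 31 * Real.exp (31 * (48 * (((i + 1) * 2 ^ (q + 1) : ℕ) * φ)
      - (i + 1 : ℕ) * (q * Real.log 2))) := by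
    rw [show 1550 = 50 * 31 from rfl, pow_mul, hμ50, hz, h4, hB, ← Real.exp_nat_mul,
      show (31 : ℝ) = (31 : ℕ) by norm_num, Real.exp_nat_mul _ 31, ← mul_pow, Real.exp_sub]
    congr 1
    generalize (4 : ℝ) ^ 48 = e
    push_cast; ring
  have h6 : (2 : ℝ) ^ (q + 1) * φ ≤ (1 + q) / 512 := by
    have : (1024 : ℝ) ≤ 2 ^ q := by
      calc (1024 : ℝ) = 2 ^ 10 := by norm_num
        _ ≤ 2 ^ q := pow_le_pow_right₀ (by norm_num) hq
    rw [hφ, two_mul, pow_add, pow_add, mul_div_assoc', div_le_div_iff₀ (by clear * -; positivity) (by norm_num)]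
    have h7 : (0 : ℝ) < 2 ^ q := by clear * -; positivity
    clear * - this h7
    nlinarith [mul_le_mul_of_nonneg_left this (by clear * -; positivity : (0 : ℝ) ≤ (1 + q) * 2 ^ q)]
  have h7 : φ ≤ (1 + q) / 512 :=
    le_trans (le_mul_of_one_le_left hφ0 (one_le_pow₀ (by norm_num))) h6
  rw [h5, mul_left_comm]
  refine mul_le_mul_of_nonneg_left ?_ (by clear * -; positivity)
  calc _ ≤ Real.exp ((i + 1 : ℕ) * (1 + (20 * q + 20 : ℕ) * Real.log 2)) *
        Real.exp ((i + 1 : ℕ) * φ) ^ 48 * Real.exp (31 * (48 * (((i + 1) * 2 ^ (q + 1) : ℕ) * φ)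
          - (i + 1 : ℕ) * (q * Real.log 2))) :=
        mul_le_mul_of_nonneg_right (mul_le_mul_of_nonneg_right
            (choose_le _ _ _ (Nat.succ_pos i) h2) (by clear * -; positivity)) (by clear * -; positivity)
    _ ≤ _ := by
        rw [← Real.exp_nat_mul, ← Real.exp_add, ← Real.exp_add]
        apply Real.exp_le_exp.2
        push_cast
        have h8 : 1 + (20 * q + 20) * Real.log 2 + 48 * φ + 1488 * (2 ^ (q + 1) * φ)
            - 31 * (q * Real.log 2) ≤ -1 - q := by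
          clear * - h6 h7 hl hl0 hq'
          nlinarith
        have h9 := mul_le_mul_of_nonneg_left h8 (by clear * -; positivity : (0 : ℝ) ≤ i + 1)
        clear * - h9 hi0 hq'
        nlinarith

theorem HS_sum : ∃ K : ℝ, ∀ d : ℕ,
    ∑ i ∈ range (2 ^ (d + 1)), HS d i ≤ K * Real.exp (-(d / 20)) := by
  refine ⟨3200 * 2 ^ 50 * (8 * 4 ^ 48) * (16 * 4 ^ 48) ^ 31 * (Real.exp 1 * 2), fun d => ?_⟩
  have h1 : ∀ i ∈ range (2 ^ (d + 1)), HS d i ≤ 3200 * 2 ^ 50 * (8 * 4 ^ 48) * (16 * 4 ^ 48) ^ 31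
      * (Real.exp 1 * Real.exp (-(d / 20))) * (1 / 2) ^ i := by
    intro i hi
    have hi' : i + 1 ≤ 2 ^ (d + 1) := mem_range.1 hi
    set L := Nat.log 2 (2 ^ (d + 1) / (i + 1)) with hL
    set q := L / 20 with hq
    have a0 : 2 ^ (d + 1) / (i + 1) ≠ 0 := (Nat.div_pos hi' (Nat.succ_pos i)).ne'
    have a1 : (i + 1) * 2 ^ (20 * q) ≤ 2 ^ (d + 1) := by
      have := (Nat.pow_le_pow_right (by norm_num : 0 < 2) (by omega : 20 * q ≤ L)).trans
        (Nat.pow_log_le_self 2 a0)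
      rw [mul_comm]
      exact (Nat.le_div_iff_mul_le (Nat.succ_pos i)).1 this
    have a2 : 2 ^ (d + 1) ≤ (i + 1) * 2 ^ (20 * q + 20) := by
      have := (Nat.lt_pow_succ_log_self (by norm_num : 1 < 2) (2 ^ (d + 1) / (i + 1))).trans_le
        (Nat.pow_le_pow_right (by norm_num : 0 < 2) (by omega : L.succ ≤ 20 * q + 20))
      rw [mul_comm]
      exact ((Nat.div_lt_iff_lt_mul (Nat.succ_pos i)).1 this).le
    have a3 : d + 1 ≤ i + 1 + (20 * q + 20) := by
      have := a2.trans (Nat.mul_le_mul_right _ (Nat.lt_two_pow_self (n := i + 1)).le)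
      rw [← pow_add] at this
      exact (Nat.pow_le_pow_iff_right (by norm_num)).1 this
    have a4 : Real.exp (-(i + 1) - q) ≤ (Real.exp 1 * Real.exp (-(d / 20))) * (1 / 2) ^ i := by
      have : (1 / 2 : ℝ) ^ i = Real.exp (i * (-Real.log 2)) := by
        rw [Real.exp_nat_mul, Real.exp_neg, Real.exp_log (by norm_num), one_div]
      rw [this, ← Real.exp_add, ← Real.exp_add]
      apply Real.exp_le_exp.2
      have a5 : (d : ℝ) + 1 ≤ i + 1 + (20 * q + 20) := by exact_mod_cast a3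
      have hl := Real.log_two_lt_d9
      have hi0 : (0 : ℝ) ≤ i := Nat.cast_nonneg i
      clear_value q
      clear * - a5 hl hi0
      nlinarith
    rw [mul_assoc _ (_ * _), mul_assoc _ (_ ^ 31)]
    rcases le_or_gt 10 q with h | h
    · refine (term_low i q h a1 a2).trans ?_
      gcongr
    · refine (term_high i q hi' (by omega) a1 a2).trans ?_
      gcongr
      exact a4.trans (le_mul_of_one_le_left (by clear * -; positivity) (one_le_pow₀ (by norm_num)))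
  refine (sum_le_sum h1).trans ?_
  rw [← mul_sum]
  have := sum_geometric_two_le (2 ^ (d + 1))
  calc _ ≤ 3200 * 2 ^ 50 * (8 * 4 ^ 48) * (16 * 4 ^ 48) ^ 31
      * (Real.exp 1 * Real.exp (-(d / 20))) * 2 := by gcongr
    _ = _ := by ring

end H4TS
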