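import Crest.Agent.H4.TS.Block2

set_option autoImplicit false
open Finset BigOperators Module Equiv NormedSpace
open scoped RealInnerProductSpace Nat

namespace H4TS
variable {E : Type*} [NormedAddCommGroup E] [InnerProductSpace ℝ E] [CompleteSpace E]

section Op
variable {α : Type*} [Fintype α] [DecidableEq α] (ρ : Perm α →* (E →L[ℝ] E))
variable {Ω : Type*} [Fintype Ω]

noncomputable def Op (β : Ω → Perm α) : E →L[ℝ] E := (Fintype.card Ω : ℝ)⁻¹ • ∑ ω, ρ (β ω)

lemma Op_inner (β : Ω → Perm α) (u v : E) : ⟪u, Op ρ β v⟫ = 𝔼 ω, ⟪u, ρ (β ω) v⟫ := by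
  simp only [Op, ContinuousLinearMap.smul_apply, ContinuousLinearMap.sum_apply,
    real_inner_smul_right, inner_sum, Fintype.expect_eq_sum_div_card]
  ring

lemma Op_ext {X : E →L[ℝ] E} {β : Ω → Perm α} (h : ∀ u v, ⟪u, X v⟫ = 𝔼 ω, ⟪u, ρ (β ω) v⟫) :
    X = Op ρ β := by
  ext v
  exact ext_inner_left ℝ (fun u => by rw [h, Op_inner])

variable {ρ}

lemma Op_norm [Nonempty Ω] (hρ : Iso ρ) (β : Ω → Perm α) (v : E) : ‖Op ρ β v‖ ≤ ‖v‖ := by
  simp only [Op, ContinuousLinearMap.smul_apply, ContinuousLinearMap.sum_apply, norm_smul]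
  have : (0 : ℝ) < Fintype.card Ω := by exact_mod_cast Fintype.card_pos
  rw [Real.norm_of_nonneg (by positivity), inv_mul_le_iff₀ this]
  refine (norm_sum_le _ _).trans (le_of_eq ?_)
  simp [hρ.norm]

lemma Op_mul (hρ : Iso ρ) {Ω' : Type*} [Fintype Ω'] (β : Ω → Perm α) (β' : Ω' → Perm α) (u v : E) :
    ⟪u, Op ρ β (Op ρ β' v)⟫ = 𝔼 ω, 𝔼 ω', ⟪u, ρ (β ω * β' ω') v⟫ := by
  rw [Op_inner]
  refine expect_congr rfl (fun ω _ => ?_)
  rw [hρ.adj, Op_inner]
  exact expect_congr rfl (fun ω' _ => by rw [← hρ.adj, rho_mul])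

lemma Op_comm {X : E →L[ℝ] E} {β : Ω → Perm α} (h : ∀ ω, Commute X (ρ (β ω))) :
    Commute X (Op ρ β) :=
  (Commute.sum_right _ _ _ (fun ω _ => h ω)).smul_right _

lemma Op_mem {U : Submodule ℝ E} {β : Ω → Perm α} {v : E} (h : ∀ ω, ρ (β ω) v ∈ U) :
    Op ρ β v ∈ U := by
  simp only [Op, ContinuousLinearMap.smul_apply, ContinuousLinearMap.sum_apply]
  exact U.smul_mem _ (U.sum_mem (fun ω _ => h ω))

lemma comm_Y {ι : Type*} [Fintype ι] [DecidableEq ι] {e : ι × Bool → α} {X : E →L[ℝ] E}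
    (h : ∀ x y, Commute X (ss ρ e x y)) (a b m : ℝ) :
    Commute X (a • CC ρ e m - b • CC' ρ e m) := by
  refine Commute.sub_right (Commute.smul_right (Commute.smul_right ?_ _) _)
    (Commute.smul_right (Commute.smul_right ?_ _) _)
  · exact Commute.sum_right _ _ _ (fun _ _ => Commute.sum_right _ _ _ (fun _ _ =>
      (Commute.one_right _).sub_right (h _ _)))
  · exact Commute.sum_right _ _ _ (fun _ _ => Commute.sum_right _ _ _ (fun _ _ =>
      Commute.sum_right _ _ _ (fun _ _ => (Commute.one_right _).sub_right (h _ _))))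

end Op

variable {d : ℕ} (ρ : Perm (Pos d) →* (E →L[ℝ] E))

noncomputable def Ck (k : ℕ) : E →L[ℝ] E :=
  (1 / (2 * 2 ^ k) : ℝ) • ∑ p, ∑ q, if key k p = key k q then 1 - ρ (swap p q) else 0

noncomputable def Pk (k : ℕ) : E →L[ℝ] E := Op ρ (fun c : St d => seg c 0 k)
noncomputable def Pl (k : ℕ) : E →L[ℝ] E := Op ρ (fun c : St d => lay c k)

variable {ρ}

lemma Pk_succ (hρ : Iso ρ) {k : ℕ} (hk : k < d + 1) : Pk ρ (k + 1) = Pk ρ k * Pl ρ k := by
  symm
  refine Op_ext ρ (fun u v => ?_)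
  rw [ContinuousLinearMap.mul_apply, Pk, Pl, Op_mul hρ,
    exp_piecewise (univ.filter (fun s : Sw d => (s.1 : ℕ) = k))
      (fun ω => ⟪u, ρ (seg ω 0 (k + 1)) v⟫)]
  refine expect_congr rfl (fun c0 _ => expect_congr rfl (fun ω _ => ?_))
  rw [seg_succ, zero_add]
  congr 4
  · refine seg_congr (by omega) (fun s _ hs => (piecewise_eq_of_notMem _ _ _ ?_).symm)
    simp only [mem_filter, mem_univ, true_and]; omega
  · ext p : 1
    refine lay_congr (piecewise_eq_of_mem _ _ _ ?_).symm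
    simp only [mem_filter, mem_univ, true_and]
    exact idx_val hk

lemma Ck_comm {k : ℕ} (g : Perm (Pos d)) (hg : ∀ p, key k (g p) = key k p) :
    Commute (ρ g) (Ck ρ k) := by
  refine Commute.smul_right ?_ _
  ext v
  simp only [ContinuousLinearMap.mul_apply, ContinuousLinearMap.sum_apply, map_sum]
  rw [← Equiv.sum_comp g (fun p => ∑ q,
    (if key k p = key k q then 1 - ρ (swap p q) else 0) (ρ g v))]
  refine sum_congr rfl (fun p _ => ?_)
  rw [← Equiv.sum_comp g (fun q => (if key k (g p) = key k q then 1 - ρ (swap (g p) q) else 0)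
    (ρ g v))]
  refine sum_congr rfl (fun q _ => ?_)
  rw [hg, hg]
  split
  · simp [swap_conj]
  · simp

lemma key_succ_iff {k : ℕ} (hk : k < d + 1) (p q : Pos d) :
    key k p = key k q ↔ key (k + 1) p = key (k + 1) q ∧ p (idx d k) = q (idx d k) := by
  constructor
  · intro h
    refine ⟨?_, by simpa [key, idx_val hk] using congrFun h (idx d k)⟩
    ext l
    have := congrFun h l
    by_cases hl : k + 1 ≤ (l : ℕ)
    · have : k ≤ (l : ℕ) := by omega
      simp_all [key]
    · simp [key, hl]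
  · rintro ⟨h1, h2⟩
    ext l
    have := congrFun h1 l
    by_cases hl : k + 1 ≤ (l : ℕ)
    · have : k ≤ (l : ℕ) := by omega
      simp_all [key]
    · by_cases hl' : (l : ℕ) = k
      · have : l = idx d k := Fin.ext (by rw [idx_val hk, hl'])
        subst this
        simp [key, h2]
      · have : ¬ k ≤ (l : ℕ) := by omega
        simp [key, this]

lemma Ck_comm_succ {k : ℕ} (hk : k < d + 1) : Commute (Ck ρ k) (Ck ρ (k + 1)) := by
  refine Commute.smul_left (Commute.sum_left _ _ _ (fun p _ => Commute.sum_left _ _ _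
    (fun q _ => ?_))) _
  split
  · rename_i h
    have h' := ((key_succ_iff hk p q).1 h).1
    refine (Commute.one_left _).sub_left (Ck_comm _ (fun x => ?_))
    rw [swap_apply_def]
    split_ifs with h1 h2
    · rw [h1, h']
    · rw [h2, h']
    · rfl
  · exact Commute.zero_left _

lemma Pl_comm (k : ℕ) : Commute (Ck ρ (k + 1)) (Pl ρ k) :=
  Op_comm (fun c => (Ck_comm _ (fun p => by
    rcases lay_or c k p with h | h <;> rw [h]
    exact key_flp (by omega) p)).symm)

lemma Pl_fix (hρ : Iso ρ) (k : ℕ) (p : Pos d) (v : E) :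
    ρ (swap p (flp k p)) (Pl ρ k v) = Pl ρ k v := by
  refine ext_inner_left ℝ (fun u => ?_)
  rw [hρ.adj, Pl, Op_inner, Op_inner]
  let t : St d → St d := fun a => Function.update a (sw k p) (!a (sw k p))
  have ht : Function.Involutive t := by intro a; simp [t]
  refine Fintype.expect_equiv ht.toPerm _ _ (fun a => ?_)
  rw [← hρ.adj, rho_mul]
  congr 3
  ext x : 1
  simp only [Function.Involutive.coe_toPerm, Perm.mul_apply, lay_apply, t]
  by_cases hx : sw k x = sw k p
  · rw [hx, Function.update_self]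
    rcases (clr_eq_iff _ _).1 (congrArg Prod.snd hx).symm with h | h <;> subst h <;>
      cases a (sw k _) <;> simp
  · rw [Function.update_of_ne hx]
    have h1 : x ≠ p := fun h => hx (by rw [h])
    have h2 : x ≠ flp k p := fun h => hx (by rw [h, sw_flp])
    have h3 : flp k x ≠ p := fun h => h2 (by rw [← h, flp_flp])
    have h4 : flp k x ≠ flp k p := fun h => h1 (flp_inj k h)
    split
    · exact swap_apply_of_ne_of_ne h3 h4
    · exact swap_apply_of_ne_of_ne h1 h2

abbrev Col (k : ℕ) (b : Pos d) := {c : Pos d // key (k + 1) c = b ∧ c (idx d k) = false}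

def eb (k : ℕ) (b : Pos d) (x : Col k b × Bool) : Pos d := if x.2 then flp k x.1 else x.1

lemma eb_key (k : ℕ) (b : Pos d) (x : Col k b × Bool) : key (k + 1) (eb k b x) = b := by
  unfold eb; split
  · rw [key_flp (by omega)]; exact x.1.2.1
  · exact x.1.2.1

lemma eb_bit {k : ℕ} (hk : k < d + 1) (b : Pos d) (x : Col k b × Bool) :
    eb k b x (idx d k) = x.2 := by
  obtain ⟨c, β⟩ := x
  cases β <;> simp [eb, flp_idx hk, c.2.2]

lemma eb_inj {k : ℕ} (hk : k < d + 1) (b : Pos d) : Function.Injective (eb k b) := by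
  rintro ⟨c, β⟩ ⟨c', β'⟩ h
  have h1 : β = β' := by simpa [eb_bit hk] using congrFun h (idx d k)
  subst h1
  cases β
  · simpa [eb, Subtype.ext_iff] using h
  · simpa [eb, Subtype.ext_iff] using flp_inj k h

lemma sum_eb {M : Type*} [AddCommMonoid M] {k : ℕ} (hk : k < d + 1) (b : Pos d) (f : Pos d → M) :
    ∑ x, f (eb k b x) = ∑ p ∈ univ.filter (fun p => key (k + 1) p = b), f p := by
  refine sum_bij (fun x _ => eb k b x) (fun x _ => by simp [eb_key])
    (fun x _ y _ h => eb_inj hk b h) (fun p hp => ?_) (fun _ _ => rfl)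
  have hp' := (mem_filter.1 hp).2
  cases h : p (idx d k)
  · exact ⟨(⟨p, hp', h⟩, false), mem_univ _, rfl⟩
  · exact ⟨(⟨flp k p, by rw [key_flp (by omega), hp'], by rw [flp_idx hk, h]; rfl⟩, true),
      mem_univ _, by simp [eb]⟩

lemma card_Col {k : ℕ} (hk : k < d + 1) (b : Pos d) : (Fintype.card (Col k b) : ℝ) ≤ 2 ^ k := by
  have h1 := sum_eb hk b (fun _ => 1)
  have h2 := card_key_fiber (k + 1) b
  simp only [sum_const, card_univ, Fintype.card_prod, Fintype.card_bool, smul_eq_mul,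
    mul_one] at h1
  have : Fintype.card (Col k b) ≤ 2 ^ k := by rw [pow_succ] at h2; omega
  exact_mod_cast this

lemma sum_blocks {M : Type*} [AddCommMonoid M] {k : ℕ} (hk : k < d + 1) (F : Pos d → Pos d → M) :
    ∑ p, ∑ q, (if key (k + 1) p = key (k + 1) q then F p q else 0)
      = ∑ b, ∑ x, ∑ y, F (eb k b x) (eb k b y) := by
  rw [← sum_fiberwise univ (key (k + 1))]
  refine sum_congr rfl (fun b _ => ?_)
  rw [sum_eb hk b (fun p => ∑ y, F p (eb k b y))]
  refine sum_congr rfl (fun p hp => ?_)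
  rw [sum_eb hk b (F p), sum_filter, (mem_filter.1 hp).2]
  exact sum_congr rfl (fun q _ => if_congr eq_comm rfl rfl)

lemma Ck_succ_eq {k : ℕ} (hk : k < d + 1) : Ck ρ (k + 1) = ∑ b, CC ρ (eb k b) (2 ^ k) := by
  rw [Ck, sum_blocks hk, smul_sum]
  refine sum_congr rfl (fun b _ => ?_)
  rw [CC]
  congr 1
  rw [pow_succ]; ring

lemma Ck_eq {k : ℕ} (hk : k < d + 1) : Ck ρ k = ∑ b, CC' ρ (eb k b) (2 ^ k) := by
  simp only [Ck, key_succ_iff hk, ite_and]
  rw [sum_blocks hk, smul_sum]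
  refine sum_congr rfl (fun b _ => ?_)
  rw [CC']
  congr 1
  simp only [eb_bit hk, Fintype.sum_prod_type, Fintype.sum_bool, ss, sum_add_distrib]
  simp

lemma step_norm [FiniteDimensional ℝ E] (hρ : Iso ρ) {k : ℕ} (hk : k < d + 1) {w : E}
    (hw : ∀ p, ρ (swap p (flp k p)) w = w) {η : ℝ} (h0 : 0 ≤ η) (h1 : η ≤ 1 / 12) :
    ‖exp ((η - 1 / (48 * 2 ^ k)) • Ck ρ (k + 1) - η • Ck ρ k) w‖ ≤ ‖w‖ := by
  rw [Ck_succ_eq hk, Ck_eq hk, smul_sum, smul_sum, ← sum_sub_distrib]
  set Y : Pos d → E →L[ℝ] E := fun b => (η - 1 / (48 * 2 ^ k)) • CC ρ (eb k b) (2 ^ k)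
    - η • CC' ρ (eb k b) (2 ^ k) with hY
  have hc : ∀ b b', b ≠ b' → ∀ x y, Commute (ss ρ (eb k b) x y) (Y b') := by
    intro b b' h x y
    refine comm_Y (fun x' y' => ?_) _ _ _
    have hne : ∀ x x', eb k b x ≠ eb k b' x' := fun x x' h' =>
      h (by rw [← eb_key k b x, h', eb_key])
    refine Commute.map ?_ ρ
    rw [Commute, SemiconjBy, mul_swap_eq_swap_mul, swap_apply_of_ne_of_ne (hne _ _).symm
      (hne _ _).symm, swap_apply_of_ne_of_ne (hne _ _).symm (hne _ _).symm]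
  have : ∀ S : Finset (Pos d), ‖exp (∑ b ∈ S, Y b) w‖ ≤ ‖w‖ := by
    intro S
    induction S using Finset.induction_on with
    | empty => simp
    | insert b S hb ih =>
      have hcs : ∀ x y, Commute (ss ρ (eb k b) x y) (∑ b ∈ S, Y b) := fun x y =>
        Commute.sum_right _ _ _ (fun b' hb' => hc b b' (fun h => hb (h ▸ hb')) x y)
      rw [sum_insert hb, exp_add_comm (comm_Y (fun x y => (hcs x y).symm) _ _ _).symm]
      refine le_trans (block hρ (eb_inj hk b) (fun c => ?_) (by positivity) (card_Col hk b)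
        h0 h1) ih
      rw [sig, exp_comm_apply (hcs _ _)]
      congr 1
      exact hw c
  exact this univ

theorem weight [FiniteDimensional ℝ E] (hρ : Iso ρ) {k : ℕ} (hk : k ≤ d) (v : E) :
    ‖Pk ρ (k + 1) (exp ((1 / 16 + 1 / (48 * 2 ^ k) : ℝ) • Ck ρ (k + 1)) v)‖ ≤ ‖v‖ := by
  induction k generalizing v with
  | zero =>
    have h0 : Pk ρ 1 = Pl ρ 0 := by simp [Pk, Pl, seg_succ]
    rw [h0, exp_comm_apply ((Pl_comm 0).symm.smul_right _), exp_eig (y := 0)]
    · rw [Real.exp_zero, one_smul]; exact Op_norm hρ _ v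
    · simp only [Ck, ContinuousLinearMap.smul_apply, ContinuousLinearMap.sum_apply, zero_smul]
      rw [sum_eq_zero, smul_zero, smul_zero]
      intro p _
      refine sum_eq_zero (fun q _ => ?_)
      split
      · rename_i h
        have : clr 0 p = clr 0 q := by
          ext l
          have := congrFun h l
          by_cases hl : (l : ℕ) = 0
          · simp [clr, hl]
          · have h2 : 0 + 1 ≤ (l : ℕ) := by omega
            simpa [clr, key, hl, h2] using this
        rcases (clr_eq_iff _ _).1 this with h | h <;> subst h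
        · rw [ContinuousLinearMap.sub_apply, rho_swap_self]; simp
        · simp [Pl_fix hρ]
      · simp
  | succ k ih =>
    have hk' : k + 1 < d + 1 := by omega
    set η : ℝ := 1 / 16 + 1 / (48 * 2 ^ k) with hη
    have h1 : (1 / 16 + 1 / (48 * 2 ^ (k + 1)) : ℝ) = η - 1 / (48 * 2 ^ (k + 1)) := by
      rw [hη, pow_succ]; field_simp; ring
    have h2 : η ≤ 1 / 12 := by
      have : (1 : ℝ) / (48 * 2 ^ k) ≤ 1 / (48 * 1) := by
        gcongr; exact one_le_pow₀ (by norm_num)
      linarith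
    rw [Pk_succ hρ hk', ContinuousLinearMap.mul_apply,
      exp_comm_apply ((Pl_comm _).symm.smul_right _), h1]
    have h3 : (η - 1 / (48 * 2 ^ (k + 1))) • Ck ρ (k + 1 + 1) = η • Ck ρ (k + 1) +
        ((η - 1 / (48 * 2 ^ (k + 1))) • Ck ρ (k + 1 + 1) - η • Ck ρ (k + 1)) := by abel
    rw [h3, exp_add_comm (((Ck_comm_succ hk').smul_right _).sub_right
      ((Commute.refl _).smul_right _) |>.smul_left _)]
    refine (ih (by omega) _).trans ((step_norm hρ hk' (fun p => Pl_fix hρ _ p v) (by positivity)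
      h2).trans (Op_norm hρ _ v))

lemma Ck_sym (hρ : Iso ρ) (k : ℕ) : Sym (Ck ρ k) :=
  (Sym.sum _ (fun p _ => Sym.sum _ (fun q _ => by
    split
    · exact Sym.one.sub (hρ.sym _ _)
    · intro u v; simp))).smul _

theorem P_le [FiniteDimensional ℝ E] (hρ : Iso ρ) (U : Submodule ℝ E)
    (hU : ∀ v ∈ U, Ck ρ (d + 1) v ∈ U) (c : ℝ) (hc0 : 0 ≤ c)
    (hc : ∀ v ∈ U, v ≠ 0 → ∀ y : ℝ, Ck ρ (d + 1) v = y • v → c ≤ y) (v : E) (hv : v ∈ U) :
    ‖Pk ρ (d + 1) v‖ ^ 2 ≤ Real.exp (-(c / 8)) * ‖v‖ ^ 2 := by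
  set η : ℝ := 1 / 16 + 1 / (48 * 2 ^ d) with hη
  have hη0 : 0 < η := by positivity
  have h1 := exp_neg_le ((Ck_sym hρ (d + 1)).smul η) U (fun v hv => U.smul_mem _ (hU v hv))
    (η * c) (fun v hv h0 y hy => by
      have := hc v hv h0 (η⁻¹ * y) (by
        rw [mul_smul, ← hy, ContinuousLinearMap.smul_apply, smul_smul, inv_mul_cancel₀ hη0.ne',
          one_smul])
      rwa [le_inv_mul_iff₀ hη0] at this) v hv
  have h2 := weight hρ le_rfl (exp (-(η • Ck ρ (d + 1))) v)
  rw [← exp_add_comm (Commute.refl (η • Ck ρ (d + 1))).neg_right] at h2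
  simp only [← hη, add_neg_cancel, exp_zero, ContinuousLinearMap.one_apply] at h2
  refine (pow_le_pow_left₀ (norm_nonneg _) h2 2).trans (h1.trans ?_)
  gcongr
  have : 1 / 16 ≤ η := by rw [hη]; exact le_add_of_nonneg_right (by positivity)
  nlinarith

end H4TS
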