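import Crest.Agent.H4.TS.Path

set_option autoImplicit false
open Finset BigOperators

namespace H4TS
variable {d : ℕ}

noncomputable def hh (e : ℕ) : ℝ := (1 + e / 2) / 2 ^ e

lemma hh_pos (e : ℕ) : 0 < hh e := by unfold hh; positivity

lemma hh_two {e : ℕ} (he : 2 ≤ e) : 2 * hh (2 * e) ≤ hh e := by
  unfold hh
  have h4 : (4 : ℝ) ≤ 2 ^ e := by
    calc (4 : ℝ) = 2 ^ 2 := by norm_num
      _ ≤ 2 ^ e := pow_le_pow_right₀ (by norm_num) he
  have he0 : (0 : ℝ) ≤ e := by positivity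
  rw [two_mul e, pow_add, ← mul_div_assoc, div_le_div_iff₀ (by positivity) (by positivity)]
  push_cast
  have : 2 * (1 + ((e : ℝ) + e) / 2) ≤ (1 + e / 2) * 2 ^ e := by nlinarith
  nlinarith [mul_le_mul_of_nonneg_right this (by positivity : (0 : ℝ) ≤ 2 ^ e)]

lemma sum_hh {κ : ℕ} (hκ : 2 ≤ κ) (s : ℕ) :
    ∑ r ∈ range s, hh (κ * 2 ^ r) + 2 * hh (κ * 2 ^ s) ≤ 2 * hh κ := by
  induction s with
  | zero => simp
  | succ s ih =>
    rw [sum_range_succ]
    have h1 : 2 ≤ κ * 2 ^ s := hκ.trans (Nat.le_mul_of_pos_right _ (by positivity))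
    have := hh_two h1
    rw [show κ * 2 ^ (s + 1) = 2 * (κ * 2 ^ s) by ring]
    linarith

lemma Dep.mono {l l' : ℕ} {G : St d → ℝ} (h : Dep l G) (hl : l ≤ l') : Dep l' G :=
  fun c1 c2 hc => h c1 c2 (fun s hs => hc s (by omega))

theorem win (z : ℕ → St d → ℝ) (h1 : ∀ k c, 1 ≤ z k c) (hdep : ∀ k, Dep k (z k)) (t : ℝ)
    (ht : 0 ≤ t)
    (hb : ∀ (k e : ℕ) (G : St d → ℝ), 8 * e ≤ k → (∀ c, 0 ≤ G c) → Dep (k - 8 * e) G →
      𝔼 c, G c * z k c ^ (2 * e / 3 : ℝ) ≤ Real.exp (t * hh e) * 𝔼 c, G c)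
    (κ : ℕ) (hκ : 2 ≤ κ) (N : ℕ) :
    𝔼 c, ∏ k ∈ Ico (8 * κ) N, z k c ^ (1 / 48 : ℝ) ≤ Real.exp (t * hh κ) := by
  have h0 : ∀ k c, 0 ≤ z k c := fun k c => zero_le_one.trans (h1 k c)
  let b : ℕ → ℕ := fun s => Nat.rec 0 (fun s x => x + 8 * (κ * 2 ^ s)) s
  have b0 : b 0 = 0 := rfl
  have bs : ∀ s, b (s + 1) = b s + 8 * (κ * 2 ^ s) := fun s => rfl
  have bge : ∀ s, s ≤ b s := by
    intro s
    induction s with
    | zero => simp
    | succ s ih =>
      have : 0 < κ * 2 ^ s := by positivity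
      rw [bs]; omega
  let Y : ℕ → St d → ℝ := fun s c => ∏ k ∈ Ico (b (s + 1)) (b (s + 2)), z k c ^ (1 / 48 : ℝ)
  have hY0 : ∀ s c, 0 ≤ Y s c := fun s c => prod_nonneg (fun k _ => Real.rpow_nonneg (h0 k c) _)
  have hYd : ∀ s, Dep (b (s + 2)) (Y s) := by
    intro s c1 c2 hc
    refine prod_congr rfl (fun k hk => ?_)
    rw [hdep k c1 c2 (fun x hx => hc x (by have := (mem_Ico.1 hk).2; omega))]
  have hstep : ∀ s (G : St d → ℝ), (∀ c, 0 ≤ G c) → Dep (b s) G →
      𝔼 c, G c * Y s c ^ 2 ≤ Real.exp (t * hh (κ * 2 ^ s)) * 𝔼 c, G c := by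
    intro s G hG hD
    set e := κ * 2 ^ s with he
    have hepos : 0 < e := by positivity
    have hcard : #(Ico (b (s + 1)) (b (s + 2))) = 16 * e := by
      rw [Nat.card_Ico, bs (s + 1), pow_succ, ← mul_assoc κ, ← he]; omega
    have hepos' : (0 : ℝ) < e := by exact_mod_cast hepos
    have hAM : ∀ c, Y s c ^ 2 ≤ ∑ k ∈ Ico (b (s + 1)) (b (s + 2)),
        (1 / (16 * e) : ℝ) * z k c ^ (2 * e / 3 : ℝ) := by
      intro c
      refine le_trans (le_of_eq ?_) (Real.geom_mean_le_arith_mean_weighted _ _ _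
        (fun _ _ => by positivity) ?_ (fun k _ => Real.rpow_nonneg (h0 k c) _))
      · simp only [Y]
        rw [← prod_pow]
        refine prod_congr rfl (fun k _ => ?_)
        rw [← Real.rpow_natCast, ← Real.rpow_mul (h0 k c), ← Real.rpow_mul (h0 k c)]
        congr 1
        field_simp; norm_num
      · rw [sum_const, hcard, nsmul_eq_mul]; push_cast; field_simp
    calc 𝔼 c, G c * Y s c ^ 2 ≤ 𝔼 c, ∑ k ∈ Ico (b (s + 1)) (b (s + 2)),
          (1 / (16 * e) : ℝ) * (G c * z k c ^ (2 * e / 3 : ℝ)) := by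
          refine expect_le_expect (fun c _ => ?_)
          refine (mul_le_mul_of_nonneg_left (hAM c) (hG c)).trans (le_of_eq ?_)
          rw [mul_sum]; exact sum_congr rfl (fun _ _ => by ring)
      _ ≤ ∑ k ∈ Ico (b (s + 1)) (b (s + 2)),
          (1 / (16 * e) : ℝ) * (Real.exp (t * hh e) * 𝔼 c, G c) := by
          rw [expect_sum_comm]
          refine sum_le_sum (fun k hk => ?_)
          rw [← mul_expect]
          have hk1 := (mem_Ico.1 hk).1
          rw [bs, ← he] at hk1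
          exact mul_le_mul_of_nonneg_left (hb k e G (by omega) hG (hD.mono (by omega)))
            (by positivity)
      _ = _ := by rw [sum_const, hcard, nsmul_eq_mul]; push_cast; field_simp
  let Q : ℕ → (St d → ℝ) × (St d → ℝ) := fun s =>
    Nat.rec (fun _ => 1, fun _ => 1) (fun s x => (x.2, fun c => x.1 c * Y s c)) s
  have Q0 : Q 0 = (fun _ => 1, fun _ => 1) := rfl
  have Qs : ∀ s, Q (s + 1) = ((Q s).2, fun c => (Q s).1 c * Y s c) := fun s => rfl
  have hQ : ∀ s, Dep (b s) (Q s).1 ∧ Dep (b (s + 1)) (Q s).2 ∧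
      (∀ c, (Q s).1 c * (Q s).2 c = ∏ k ∈ Ico (8 * κ) (b (s + 1)), z k c ^ (1 / 48 : ℝ)) ∧
      (𝔼 c, (Q s).1 c ^ 2) * (𝔼 c, (Q s).2 c ^ 2)
        ≤ Real.exp (t * ∑ r ∈ range s, hh (κ * 2 ^ r)) := by
    intro s
    induction s with
    | zero =>
      refine ⟨fun _ _ _ => rfl, fun _ _ _ => rfl, fun c => ?_, ?_⟩
      · simp [Q0, bs, b0]
      · simp [Q0, Fintype.expect_const]
    | succ s ih =>
      obtain ⟨i1, i2, i3, i4⟩ := ih
      have m1 : b s ≤ b (s + 1) := by rw [bs]; omega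
      have m2 : b (s + 1) ≤ b (s + 2) := by rw [bs (s + 1)]; omega
      have m3 : 8 * κ ≤ b (s + 1) := by
        rw [bs]
        have : κ ≤ κ * 2 ^ s := Nat.le_mul_of_pos_right _ (by positivity)
        omega
      rw [Qs]
      refine ⟨i2, fun c1 c2 hc => ?_, fun c => ?_, ?_⟩
      · simp only
        rw [i1.mono (m1.trans m2) c1 c2 hc, hYd s c1 c2 hc]
      · simp only
        rw [← mul_assoc, mul_comm ((Q s).2 c), i3, prod_Ico_consecutive _ m3 m2]
      · simp only [mul_pow]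
        have := hstep s (fun c => (Q s).1 c ^ 2) (fun c => sq_nonneg _)
          (fun c1 c2 hc => by simp only [i1 c1 c2 hc])
        rw [sum_range_succ, mul_add, Real.exp_add]
        have p2 : 0 ≤ 𝔼 c, (Q s).2 c ^ 2 := expect_nonneg (fun _ _ => sq_nonneg _)
        calc _ ≤ (𝔼 c, (Q s).2 c ^ 2) * (Real.exp (t * hh (κ * 2 ^ s)) * 𝔼 c, (Q s).1 c ^ 2) :=
              mul_le_mul_of_nonneg_left this p2
          _ = ((𝔼 c, (Q s).1 c ^ 2) * (𝔼 c, (Q s).2 c ^ 2)) * Real.exp (t * hh (κ * 2 ^ s)) := by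
              ring
          _ ≤ _ := by gcongr
  obtain ⟨_, _, q3, q4⟩ := hQ N
  have hcs := expect_mul_sq_le_sq_mul_sq univ (Q N).1 (Q N).2
  simp only [q3] at hcs
  have h5 : Real.exp (t * ∑ r ∈ range N, hh (κ * 2 ^ r)) ≤ Real.exp (t * hh κ) ^ 2 := by
    rw [← Real.exp_nat_mul]
    apply Real.exp_le_exp.2
    have := sum_hh hκ N
    have := hh_pos (κ * 2 ^ N)
    push_cast
    nlinarith
  have h6 := abs_le_of_sq_le_sq' (hcs.trans (q4.trans h5)) (Real.exp_pos _).le
  refine le_trans (expect_le_expect (fun c _ => ?_)) h6.2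
  refine prod_le_prod_of_subset_of_one_le (Ico_subset_Ico_right ((Nat.le_succ N).trans (bge _)))
    (fun k _ => Real.rpow_nonneg (h0 k c) _) (fun k _ _ => Real.one_le_rpow (h1 k c) (by norm_num))

def W (c c' : St d) : ℕ → Finset (Pos d) → ℕ
  | 0, _ => 1
  | k + 1, T => Z k T (gk c c' k) * W c c' k (T.map (lay c k).toEmbedding)

lemma W_prod (c c' : St d) (k : ℕ) (T : Finset (Pos d)) :
    W c c' k T = ∏ l ∈ range k, Z l (T.map (seg c (l + 1) (k - l - 1)).toEmbedding) (gk c c' l) := by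
  induction k generalizing T with
  | zero => simp [W]
  | succ k ih =>
    rw [W, prod_range_succ, ih, mul_comm]
    congr 1
    · refine prod_congr rfl (fun l hl => ?_)
      have hl' := mem_range.1 hl
      rw [map_map]
      congr 2
      have e1 : k + 1 - l - 1 = (k - l - 1) + 1 := by omega
      have e2 : l + 1 + (k - l - 1) = k := by omega
      rw [e1, seg_succ, e2]; rfl
    · have e1 : k + 1 - k - 1 = 0 := by omega
      rw [e1, seg_zero]
      congr 1
      exact (map_refl).symm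

noncomputable def zz (c : St d) (T : Finset (Pos d)) (l : ℕ) (c' : St d) : ℝ :=
  if l < d + 1 then Z l (T.map (seg c (l + 1) (d + 1 - l - 1)).toEmbedding) (gk c c' l) else 1

lemma one_le_zz (c : St d) (T : Finset (Pos d)) (l : ℕ) (c' : St d) : 1 ≤ zz c T l c' := by
  unfold zz; split
  · exact_mod_cast one_le_Z _ _ _
  · exact le_rfl

lemma W_bound (c : St d) (T : Finset (Pos d)) (κ : ℕ) (hκ : 2 ≤ κ) (B : ℝ)
    (hB : ∀ c', ∏ l ∈ range (8 * κ), zz c T l c' ^ (1 / 48 : ℝ) ≤ B) :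
    𝔼 c', (W c c' (d + 1) T : ℝ) ^ (1 / 48 : ℝ) ≤ B * Real.exp (#T / 2 * hh κ) := by
  have h0 : ∀ l c', 0 ≤ zz c T l c' := fun l c' => zero_le_one.trans (one_le_zz c T l c')
  have hw := win (zz c T) (one_le_zz c T) ?_ (#T / 2) (by positivity) ?_ κ hκ (8 * κ + (d + 1))
  · have hB0 : 0 ≤ B := le_trans (prod_nonneg (fun l _ => Real.rpow_nonneg (h0 l c) _)) (hB c)
    refine le_trans ?_ (mul_le_mul_of_nonneg_left hw hB0)
    rw [mul_expect]
    refine expect_le_expect (fun c' _ => ?_)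
    calc (W c c' (d + 1) T : ℝ) ^ (1 / 48 : ℝ)
        = ∏ l ∈ range (d + 1), zz c T l c' ^ (1 / 48 : ℝ) := by
          rw [Real.finset_prod_rpow _ _ (fun l _ => h0 l c'), W_prod]
          congr 1
          push_cast
          exact prod_congr rfl (fun l hl => by rw [zz, if_pos (mem_range.1 hl)])
      _ ≤ ∏ l ∈ range (8 * κ + (d + 1)), zz c T l c' ^ (1 / 48 : ℝ) :=
          prod_le_prod_of_subset_of_one_le (range_subset_range.2 (by omega))
            (fun k _ => Real.rpow_nonneg (h0 k c') _)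
            (fun k _ _ => Real.one_le_rpow (one_le_zz c T k c') (by norm_num))
      _ = _ := (prod_range_mul_prod_Ico _ (Nat.le_add_right (8 * κ) (d + 1))).symm
      _ ≤ _ := mul_le_mul_of_nonneg_right (hB c')
          (prod_nonneg (fun l _ => Real.rpow_nonneg (h0 l c') _))
  · intro k c1 c2 hc
    unfold zz
    split
    · rename_i hk
      rw [gk, gk, seg_congr (c := c1) (c' := c2) (by omega) (fun s _ hs => hc s (by omega))]
    · rfl
  · intro k e G he hG hD
    by_cases hk : k < d + 1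
    · have := level_bound c hk he (T.map (seg c (k + 1) (d + 1 - k - 1)).toEmbedding) G hG hD
      simp only [zz, hk, if_true]
      rwa [card_map] at this
    · simp only [zz, hk, if_false, Real.one_rpow, mul_one]
      refine le_mul_of_one_le_left (expect_nonneg (fun c _ => hG c)) (Real.one_le_exp ?_)
      have := hh_pos e
      positivity

lemma inner_le (c c' : St d) (T : Finset (Pos d)) (K : ℕ) (r : ℝ) (hr : 0 ≤ r)
    (h : ∀ l, l < K → l < d + 1 →
      (#(Rk l (T.map (seg c (l + 1) (d + 1 - l - 1)).toEmbedding)) : ℝ) ≤ r) :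
    ∏ l ∈ range K, zz c T l c' ^ (1 / 48 : ℝ) ≤ ((2 : ℝ) ^ (K / 48 : ℝ)) ^ r := by
  have h0 : ∀ l c', 0 ≤ zz c T l c' := fun l c' => zero_le_one.trans (one_le_zz c T l c')
  calc _ ≤ ∏ _l ∈ range K, (2 : ℝ) ^ (r / 48) := by
        refine prod_le_prod (fun l _ => Real.rpow_nonneg (h0 l c') _) (fun l hl => ?_)
        have : zz c T l c' ≤ (2 : ℝ) ^ r := by
          unfold zz
          split
          · rename_i hl'
            refine le_trans ?_ (Real.rpow_le_rpow_of_exponent_le (by norm_num)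
              (h l (mem_range.1 hl) hl'))
            rw [Real.rpow_natCast]
            exact_mod_cast Z_le_pow c c' hl' _
          · exact Real.one_le_rpow (by norm_num) hr
        refine (Real.rpow_le_rpow (h0 l c') this (by norm_num)).trans (le_of_eq ?_)
        rw [← Real.rpow_mul (by norm_num)]; congr 1; ring
    _ = _ := by
        rw [prod_const, card_range, ← Real.rpow_natCast, ← Real.rpow_mul (by norm_num),
          ← Real.rpow_mul (by norm_num)]
        congr 1; ring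

theorem F_triv (T : Finset (Pos d)) :
    𝔼 x : St d × St d, (W x.1 x.2 (d + 1) T : ℝ) ^ (1 / 48 : ℝ) ≤ Real.exp (#T / 3) := by
  rw [exp_pair]
  refine expect_le univ_nonempty (fun c _ => ?_)
  refine (W_bound c T 4 (by norm_num) _ (fun c' => inner_le c c' T _ (#T / 2) (by positivity)
    (fun l _ hl => ?_))).trans ?_
  · have := two_Rk_le hl (T.map (seg c (l + 1) (d + 1 - l - 1)).toEmbedding)
    rw [card_map] at this
    have h2 : (2 * #(Rk l (T.map (seg c (l + 1) (d + 1 - l - 1)).toEmbedding)) : ℝ) ≤ #T := by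
      exact_mod_cast this
    linarith
  · rw [← Real.rpow_mul (by norm_num), Real.rpow_def_of_pos (by norm_num), ← Real.exp_add]
    apply Real.exp_le_exp.2
    have hl := Real.log_two_lt_d9
    have hT : (0 : ℝ) ≤ #T := by positivity
    have : hh 4 = 3 / 16 := by unfold hh; norm_num
    rw [this]
    push_cast
    nlinarith

end H4TS
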